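import Vale.Agent.P097.H456.C.RowP
import Vale.Agent.P097.H275.G.Defs

/-! # P097 (helper456): the rows `GR.RowP`, `GR.RowSp` of A5.GROWTH (helper275), literal -/

set_option linter.all false

open Complex Metric Set Filter Topology
open scoped ComplexConjugate

namespace Vale.Agent.P097.H456.C

open Vale.Agent.P097 Vale.Agent.P097.TA Vale.Agent.P097.H202 Vale.Agent.P097.SC
open Vale.Agent.P097.H456.Fct Vale.Agent.P097.H456.Sp

theorem gr_rowP : GR.RowP := by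
  intro κ Λ b H Φ r e α p J F q Q hE hB
  obtain ⟨e₁, he₁, C₁, hC₁, h⟩ := rowPC hE hB
  refine ⟨e₁, he₁, C₁, hC₁, ?_⟩
  intro y ρ A P T hρ hy
  obtain ⟨θ, -, h1, h2, -⟩ := h T hρ hy
  exact ⟨θ, h1, h2⟩

theorem gr_rowSp : GR.RowSp := by
  intro κ Λ b H Φ r e α p J F q Q hE hB
  obtain ⟨e₁, he₁, h⟩ := rowSpC hE hB
  refine ⟨e₁, he₁, ?_⟩
  intro b₀ ρ A P T x' D a b₁ u ε A₁ P₁ hu huD huρ hue hε hab hbb _ hA₁ hP₁ heq c hc
  exact h T hu (by linarith) huρ hue hε hab hbb hA₁ hP₁ heq c hc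

end Vale.Agent.P097.H456.C
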