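import Vale.Agent.P097.H456.C.Pos2
import Vale.Agent.P097.H830.CD.P2

/-! # P097 (helper456) / R0.2: transversality of the positions (simple roots), case [c] -/

set_option linter.all false

open Complex Metric Filter Topology Set
open scoped ComplexConjugate

namespace Vale.Agent.P097.H456.C

open Vale.Agent.P097 Vale.Agent.P097.TA Vale.Agent.P097.H202 Vale.Agent.P097.SC
open Vale.Agent.P097.H456.Fct Vale.Agent.P097.H456.Sp Vale.Agent.P097.CC
open Vale.Agent.P097.H830.CD (Inc Incx Inca br_eq_fderiv)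

/-- derivative of the incidence along a curve (local form) -/
theorem hasDerivAt_Inc' {F q x a b : ℂ → ℂ} {x' a' b' s : ℂ} (aF : AnalyticAt ℂ F (x s))
    (aq : AnalyticAt ℂ q (x s)) (hx : HasDerivAt x x' s)
    (ha : HasDerivAt a a' s) (hb : HasDerivAt b b' s) :
    HasDerivAt (fun s => Inc F q (x s, a s, b s))
      (Incx F q (x s, a s, b s) * x' + Inca F q (x s, a s, b s) * a' - deriv F (x s) * b') s := by
  have h1 : HasDerivAt (fun s => deriv F (x s)) (deriv (deriv F) (x s) * x') s :=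
    (aF.deriv.differentiableAt.hasDerivAt).comp s hx
  have h2 : HasDerivAt (fun s => deriv q (x s)) (deriv (deriv q) (x s) * x') s :=
    (aq.deriv.differentiableAt.hasDerivAt).comp s hx
  have h3 : HasDerivAt (fun s => q (x s)) (deriv q (x s) * x') s :=
    (aq.differentiableAt.hasDerivAt).comp s hx
  have h4 : HasDerivAt (fun s => F (x s)) (deriv F (x s) * x') s :=
    (aF.differentiableAt.hasDerivAt).comp s hx
  have h5 := (ha.sub h4).ccos
  have h6 := (ha.sub h4).csin
  have h7 := (h1.mul ((h3.mul h5).sub hb)).add (h2.mul h6)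
  refine h7.congr_deriv ?_
  simp only [Incx, Inca, Pi.sub_apply, Pi.mul_apply]
  ring

/-- **key lemma** (local form): if incidence holds near a point where the lines form a regular
congruence, the incidence is transversal in the position -/
theorem Incx_ne' {F q : ℂ → ℂ} {A P Θ : ℂ × ℂ → ℂ} {u : ℂ × ℂ} (aF : AnalyticAt ℂ F (Θ u))
    (aq : AnalyticAt ℂ q (Θ u)) (aA : AnalyticAt ℂ A u) (aP : AnalyticAt ℂ P u)
    (aΘ : AnalyticAt ℂ Θ u) (hI : ∀ᶠ v in 𝓝 u, Inc F q (Θ v, A v, P v) = 0)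
    (hW : Wr F q (Θ u) ≠ 0)
    (hb : br (fun t w => A (t, w)) (fun t w => P (t, w)) u.1 u.2 ≠ 0) :
    Incx F q (Θ u, A u, P u) ≠ 0 := by
  intro h0
  obtain ⟨t, w⟩ := u
  have e0 : Inc F q (Θ (t, w), A (t, w), P (t, w)) = 0 := hI.self_of_nhds
  -- slices
  have c1 : HasDerivAt (fun s : ℂ => ((s, w) : ℂ × ℂ)) (1, 0) t :=
    (hasDerivAt_id t).prodMk (hasDerivAt_const t w)
  have c2 : HasDerivAt (fun s : ℂ => ((t, s) : ℂ × ℂ)) (0, 1) w :=
    (hasDerivAt_const w t).prodMk (hasDerivAt_id w)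
  have sl1 : ∀ {f : ℂ × ℂ → ℂ}, AnalyticAt ℂ f (t, w) →
      HasDerivAt (fun s => f (s, w)) (deriv (fun s => f (s, w)) t) t := by
    intro f hf
    have : DifferentiableAt ℂ (fun s => f (s, w)) t :=
      (hf.differentiableAt.hasFDerivAt.comp_hasDerivAt t c1).differentiableAt
    exact this.hasDerivAt
  have sl2 : ∀ {f : ℂ × ℂ → ℂ}, AnalyticAt ℂ f (t, w) →
      HasDerivAt (fun s => f (t, s)) (deriv (fun s => f (t, s)) w) w := by
    intro f hf
    have : DifferentiableAt ℂ (fun s => f (t, s)) w :=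
      (hf.differentiableAt.hasFDerivAt.comp_hasDerivAt w c2).differentiableAt
    exact this.hasDerivAt
  have z1 : (fun s => Inc F q (Θ (s, w), A (s, w), P (s, w))) =ᶠ[𝓝 t] fun _ => 0 :=
    (c1.continuousAt.eventually hI)
  have z2 : (fun s => Inc F q (Θ (t, s), A (t, s), P (t, s))) =ᶠ[𝓝 w] fun _ => 0 :=
    (c2.continuousAt.eventually hI)
  have d1 := (hasDerivAt_Inc' aF aq (sl1 aΘ) (sl1 aA) (sl1 aP)).deriv
  have d2 := (hasDerivAt_Inc' (x := fun s => Θ (t, s)) aF aq (sl2 aΘ) (sl2 aA) (sl2 aP)).deriv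
  rw [z1.deriv_eq, deriv_const, h0] at d1
  rw [z2.deriv_eq, deriv_const, h0] at d2
  set g := deriv F (Θ (t, w)) with hg
  set c := Inca F q (Θ (t, w), A (t, w), P (t, w)) with hc
  have hbr : br (fun t w => A (t, w)) (fun t w => P (t, w)) t w =
      deriv (fun s => A (s, w)) t * deriv (fun s => P (t, s)) w -
      deriv (fun s => A (t, s)) w * deriv (fun s => P (s, w)) t := rfl
  simp only at hb
  rw [hbr] at hb
  by_cases hg0 : g = 0
  · -- then the sine vanishes and the cosine does not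
    have hq : deriv q (Θ (t, w)) ≠ 0 := by
      intro h
      apply hW
      simp only [Wr, ← hg, hg0, h]
      ring
    have hs : sin (A (t, w) - F (Θ (t, w))) = 0 := by
      have : deriv q (Θ (t, w)) * sin (A (t, w) - F (Θ (t, w))) = 0 := by
        have e := e0
        simp only [Inc, ← hg, hg0, zero_mul, zero_add] at e
        exact e
      exact (mul_eq_zero.1 this).resolve_left hq
    have hcos : cos (A (t, w) - F (Θ (t, w))) ≠ 0 := by
      intro h
      have := Complex.sin_sq_add_cos_sq (A (t, w) - F (Θ (t, w)))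
      rw [hs, h] at this
      norm_num at this
    have hc0 : c ≠ 0 := by
      simp only [hc, Inca, ← hg, hg0, zero_mul, neg_zero, zero_add]
      exact mul_ne_zero hq hcos
    rw [hg0] at d1 d2
    have e1 : deriv (fun s => A (s, w)) t = 0 := by
      have : c * deriv (fun s => A (s, w)) t = 0 := by linear_combination -d1
      exact (mul_eq_zero.1 this).resolve_left hc0
    have e2 : deriv (fun s => A (t, s)) w = 0 := by
      have : c * deriv (fun s => A (t, s)) w = 0 := by linear_combination -d2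
      exact (mul_eq_zero.1 this).resolve_left hc0
    apply hb
    rw [e1, e2]
    ring
  · apply hb
    have : g * (deriv (fun s => A (s, w)) t * deriv (fun s => P (t, s)) w -
      deriv (fun s => A (t, s)) w * deriv (fun s => P (s, w)) t) = 0 := by
      linear_combination deriv (fun s => A (s, w)) t * d2 - deriv (fun s => A (t, s)) w * d1
    exact (mul_eq_zero.1 this).resolve_left hg0

section
variable {κ Λ : ℝ} {H Φ : ℂ → ℂ} {r e : ℝ} {α p : ℂ → ℂ → ℂ} {J : ℂ → ℂ}
  {R : ℂ → ℝ} {e₁ : ℝ} {A P : ℂ × ℂ → ℂ}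

/-- **the bracket** : `A_t P_w - A_w P_t = J w` on the whole domain of the lines -/
theorem Rd.bracket (L : Lines κ Λ H Φ r e α p J) (T : Rd α p R e₁ A P) (he : e₁ ≤ e)
    {u : ℂ × ℂ} (hu : u ∈ Dm R e₁) :
    br (fun t w => A (t, w)) (fun t w => P (t, w)) u.1 u.2 = J u.2 := by
  have h0 := T.eq 0
  rw [Complex.ofReal_zero] at h0
  obtain ⟨S, hS1, hS2, hS3⟩ := _root_.mem_nhds_iff.1 h0
  have hz : ((0 : ℂ), (0 : ℂ)) ∈ WW 0 r e := ⟨by simpa using L.he, by simpa using L.hr⟩
  have hz' : ((0 : ℂ), (0 : ℂ)) ∈ Dm R e₁ := ⟨by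
    show |(0 : ℂ).im| < R 0
    rw [zero_im, abs_zero]; exact T.R0 0 (by simpa using T.e0), by simpa using T.e0⟩
  set S' := S ∩ (WW 0 r e ∩ Dm R e₁) with hS'
  have oS' : IsOpen S' := hS2.inter ((isOpen_WW _ _ _).inter T.op)
  have zS' : ((0 : ℂ), (0 : ℂ)) ∈ S' := ⟨hS3, hz, hz'⟩
  have near : ∀ u ∈ S', fderiv ℂ A u (1, 0) * fderiv ℂ P u (0, 1) -
      fderiv ℂ A u (0, 1) * fderiv ℂ P u (1, 0) = J u.2 := by
    intro u hu
    rw [← br_eq_fderiv (T.aA u hu.2.2) (T.aP u hu.2.2), ← L.brk u.1 u.2 hu.2.1]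
    have c1 : ∀ x w, (x, w) ∈ S' → A (x, w) = α x w := fun x w h => (hS1 h.1).1
    have c2 : ∀ x w, (x, w) ∈ S' → P (x, w) = p x w := fun x w h => (hS1 h.1).2
    simp only [br]
    have hu' : (u.1, u.2) ∈ S' := hu
    rw [dx_congr (f := fun x w => A (x, w)) (g := α) oS' c1 hu',
      dx_congr (f := fun x w => P (x, w)) (g := p) oS' c2 hu',
      de_congr (f := fun x w => A (x, w)) (g := α) oS' c1 hu',
      de_congr (f := fun x w => P (x, w)) (g := p) oS' c2 hu']
  have a1 : AnalyticOnNhd ℂ (fun u => fderiv ℂ A u (1, 0) * fderiv ℂ P u (0, 1) -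
      fderiv ℂ A u (0, 1) * fderiv ℂ P u (1, 0)) (Dm R e₁) := by
    intro u hu
    have k : ∀ {f : ℂ × ℂ → ℂ} (v : ℂ × ℂ), AnalyticAt ℂ f u →
        AnalyticAt ℂ (fun u => fderiv ℂ f u v) u := fun v hf =>
      ((ContinuousLinearMap.apply ℂ ℂ v).analyticAt _).comp hf.fderiv
    exact ((k _ (T.aA u hu)).mul (k _ (T.aP u hu))).sub ((k _ (T.aA u hu)).mul (k _ (T.aP u hu)))
  have a2 : AnalyticOnNhd ℂ (fun u : ℂ × ℂ => J u.2) (Dm R e₁) := by
    intro u hu
    have : AnalyticAt ℂ J u.2 := L.jJ.analyticAt (isOpen_ball.mem_nhds (by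
      rw [mem_ball_zero_iff]
      exact lt_of_lt_of_le hu.2 he))
    exact this.comp analyticAt_snd
  have key := a1.eqOn_of_preconnected_of_eventuallyEq a2 (Dm_pc T.e0 T.R0) hz'
    (by filter_upwards [oS'.mem_nhds zS'] with u hu using near u hu)
  rw [br_eq_fderiv (T.aA u hu) (T.aP u hu)]
  exact key hu

variable {Λ' b : ℝ} {F q Q : ℂ → ℂ} {θ : ℂ × ℂ → ℂ}

/-- incidence of both lines with the vertex -/
theorem PoC.inc (hθ : PoC b F q R e₁ A P θ) {t w : ℂ} (h : (t, w) ∈ Pd R e₁) :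
    Inc F q (θ (t, w), A (t + w / 2, w), P (t + w / 2, w)) = 0 ∧
    Inc F q (θ (t, w), A (t - w / 2, w), P (t - w / 2, w)) = 0 := by
  have e1 := hθ.sA t w h
  have e2 := hθ.sP t w h
  have e3 := hθ.dP t w h
  constructor
  · have e4 : A (t + w / 2, w) - F (θ (t, w)) = (A (t + w / 2, w) - A (t - w / 2, w)) / 2 := by
      linear_combination (1 / 2 : ℂ) * e1
    simp only [Inc]
    rw [e4]
    linear_combination (-1 / 2 : ℂ) * deriv F (θ (t, w)) * e2 - (1 / 2 : ℂ) * e3
  · have e4 : A (t - w / 2, w) - F (θ (t, w)) =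
        -((A (t + w / 2, w) - A (t - w / 2, w)) / 2) := by
      linear_combination (1 / 2 : ℂ) * e1
    simp only [Inc]
    rw [e4, Complex.cos_neg, Complex.sin_neg]
    linear_combination (-1 / 2 : ℂ) * deriv F (θ (t, w)) * e2 + (1 / 2 : ℂ) * e3

/-- **transversality** (the vertex is a simple root for both lines) -/
theorem PoC.tr (L : Lines κ Λ H Φ r e α p J) (hB : CC.Bs Λ' b F q Q) (T : Rd α p R e₁ A P)
    (he : e₁ ≤ e) (hθ : PoC b F q R e₁ A P θ) {t w : ℂ} (h : (t, w) ∈ Pd R e₁) (hw : w ≠ 0) :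
    Incx F q (θ (t, w), A (t + w / 2, w), P (t + w / 2, w)) ≠ 0 ∧
    Incx F q (θ (t, w), A (t - w / 2, w), P (t - w / 2, w)) ≠ 0 := by
  have hb := hθ.mem _ h
  have aF : AnalyticAt ℂ F (θ (t, w)) := (hB.dF.analyticOnNhd (isOpen_Str b)) _ hb
  have aq : AnalyticAt ℂ q (θ (t, w)) := (hB.dq.analyticOnNhd (isOpen_Str b)) _ hb
  have hW : Wr F q (θ (t, w)) ≠ 0 := by
    rw [hB.wr _ hb]
    have : (Λ' : ℂ) ≠ 0 := by exact_mod_cast hB.Λ0.ne'
    exact pow_ne_zero 3 this
  have hPo := isOpen_Pd T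
  constructor
  · set u : ℂ × ℂ := (t + w / 2, w) with hu
    have hback : (u.1 - u.2 / 2, u.2) = (t, w) := by
      show (t + w / 2 - w / 2, w) = (t, w)
      rw [add_sub_cancel_right]
    have hD : u ∈ Dm R e₁ := (Pd_half h).1
    have hc : Continuous fun v : ℂ × ℂ => (v.1 - v.2 / 2, v.2) := by fun_prop
    have key := Incx_ne' (F := F) (q := q) (Θ := fun v : ℂ × ℂ => θ (v.1 - v.2 / 2, v.2)) (u := u)
      (by simp only [hback]; exact aF) (by simp only [hback]; exact aq) (T.aA u hD) (T.aP u hD)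
      (H324.CD.comp_sub (by rw [hback]; exact hθ.an _ h))
      (by
        filter_upwards [(hPo.preimage hc).mem_nhds (show (u.1 - u.2 / 2, u.2) ∈ Pd R e₁ by
          rw [hback]; exact h)] with v hv
        have := (hθ.inc (t := v.1 - v.2 / 2) (w := v.2) hv).1
        rwa [sub_add_cancel] at this)
      (by simp only [hback]; exact hW)
      (by
        rw [T.bracket L he hD]
        exact L.Jne w (hD.2.trans_le he) hw)
    simp only [hback] at key
    exact key
  · set u : ℂ × ℂ := (t - w / 2, w) with hu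
    have hback : (u.1 + u.2 / 2, u.2) = (t, w) := by
      show (t - w / 2 + w / 2, w) = (t, w)
      rw [sub_add_cancel]
    have hD : u ∈ Dm R e₁ := (Pd_half h).2
    have hc : Continuous fun v : ℂ × ℂ => (v.1 + v.2 / 2, v.2) := by fun_prop
    have key := Incx_ne' (F := F) (q := q) (Θ := fun v : ℂ × ℂ => θ (v.1 + v.2 / 2, v.2)) (u := u)
      (by simp only [hback]; exact aF) (by simp only [hback]; exact aq) (T.aA u hD) (T.aP u hD)
      (H324.CD.comp_add (by rw [hback]; exact hθ.an _ h))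
      (by
        filter_upwards [(hPo.preimage hc).mem_nhds (show (u.1 + u.2 / 2, u.2) ∈ Pd R e₁ by
          rw [hback]; exact h)] with v hv
        have := (hθ.inc (t := v.1 + v.2 / 2) (w := v.2) hv).2
        rwa [add_sub_cancel_right] at this)
      (by simp only [hback]; exact hW)
      (by
        rw [T.bracket L he hD]
        exact L.Jne w (hD.2.trans_le he) hw)
    simp only [hback] at key
    exact key

/-- no tangency -/
theorem PoC.tg (L : Lines κ Λ H Φ r e α p J) (hB : CC.Bs Λ' b F q Q) (T : Rd α p R e₁ A P)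
    (he : e₁ ≤ e) (hθ : PoC b F q R e₁ A P θ) {t w : ℂ} (h : (t, w) ∈ Pd R e₁) (hw : w ≠ 0)
    (hg : deriv F (θ (t, w)) ≠ 0) : sin ((A (t + w / 2, w) - A (t - w / 2, w)) / 2) ≠ 0 := by
  intro hs
  apply (hθ.tr L hB T he h hw).1
  have e1 := hθ.sA t w h
  have e5 := (hθ.inc h).1
  have e4 : A (t + w / 2, w) - F (θ (t, w)) = (A (t + w / 2, w) - A (t - w / 2, w)) / 2 := by
    linear_combination (1 / 2 : ℂ) * e1
  simp only [Inc] at e5
  rw [e4, hs, mul_zero, add_zero] at e5
  have e6 := (mul_eq_zero.1 e5).resolve_left hg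
  simp only [Incx]
  rw [e4, hs, e6]
  ring

end

end Vale.Agent.P097.H456.C
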