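import Vale.Agent.P097.H456.C.WholeLine
import Vale.Agent.P097.H456.C.Tr

/-! # P097 (helper456) / case [c]: Row Sp (spread) of the growth row, strip version -/

set_option linter.all false

open Complex Metric Set Filter Topology
open scoped ComplexConjugate

namespace Vale.Agent.P097.H456.C

open Vale.Agent.P097 Vale.Agent.P097.TA Vale.Agent.P097.H202 Vale.Agent.P097.SC
open Vale.Agent.P097.H456.Fct Vale.Agent.P097.H456.Sp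

/-- rotation by `v` meets every window of width `D > v` -/
theorem dens_col {v D : ℝ} (hv : 0 < v) (hvD : v < D) : ∃ M n : ℕ, M ≤ n ∧
    (∀ y : ℝ, ∃ i : ℕ, i ≤ M ∧ ∃ m : ℤ, |y - i * v - m| < D / 2) ∧
    ∃ m : ℤ, |n * v - m| < D / 2 := by
  have key : ∀ y : ℝ, 0 ≤ y → |y - (⌊y / v + 1 / 2⌋₊ : ℕ) * v| < D / 2 ∧
      ((⌊y / v + 1 / 2⌋₊ : ℕ) : ℝ) ≤ y / v + 1 / 2 ∧
      y / v + 1 / 2 < (⌊y / v + 1 / 2⌋₊ : ℕ) + 1 := by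
    intro y hy
    have h1 : ((⌊y / v + 1 / 2⌋₊ : ℕ) : ℝ) ≤ y / v + 1 / 2 := Nat.floor_le (by positivity)
    have h2 : y / v + 1 / 2 < (⌊y / v + 1 / 2⌋₊ : ℕ) + 1 := Nat.lt_floor_add_one _
    refine ⟨?_, h1, h2⟩
    generalize ((⌊y / v + 1 / 2⌋₊ : ℕ) : ℝ) = N at h1 h2
    have h3 : y / v * v = y := div_mul_cancel₀ y hv.ne'
    have h4 : N * v ≤ (y / v + 1 / 2) * v := mul_le_mul_of_nonneg_right h1 hv.le
    have h5 : (y / v + 1 / 2) * v < (N + 1) * v := mul_lt_mul_of_pos_right h2 hv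
    rw [add_mul, h3] at h4 h5
    rw [abs_lt]
    constructor <;> linarith
  set M : ℕ := ⌈1 / v⌉₊ + 1 with hM
  have hM1 : 1 / v + 1 ≤ M := by
    rw [hM]; push_cast
    linarith [Nat.le_ceil (1 / v)]
  obtain ⟨K, hK⟩ := exists_nat_gt (((M : ℝ) + 1) * v)
  refine ⟨M, ⌊(K : ℝ) / v + 1 / 2⌋₊, ?_, ?_, K, ?_⟩
  · have h1 := (key K (Nat.cast_nonneg K)).2.2
    have h2 : (M : ℝ) + 1 ≤ K / v := by
      rw [le_div_iff₀ hv]; exact hK.le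
    have h3 : (M : ℝ) < ((⌊(K : ℝ) / v + 1 / 2⌋₊ : ℕ) : ℝ) := by linarith
    exact_mod_cast h3.le
  · intro y
    have h0 : 0 ≤ y - ⌊y⌋ := by linarith [Int.floor_le y]
    have h0' : y - ⌊y⌋ ≤ 1 := by linarith [Int.lt_floor_add_one y]
    obtain ⟨h1, h2, -⟩ := key (y - ⌊y⌋) h0
    refine ⟨⌊(y - ⌊y⌋) / v + 1 / 2⌋₊, ?_, ⌊y⌋, ?_⟩
    · have h3 : (y - ⌊y⌋) / v ≤ 1 / v := by gcongr
      have h4 : ((⌊(y - ⌊y⌋) / v + 1 / 2⌋₊ : ℕ) : ℝ) ≤ M := by linarith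
      exact_mod_cast h4
    · rw [show y - (⌊(y - ⌊y⌋) / v + 1 / 2⌋₊ : ℕ) * v - ⌊y⌋ =
        y - ⌊y⌋ - (⌊(y - ⌊y⌋) / v + 1 / 2⌋₊ : ℕ) * v by ring]
      exact h1
  · have h1 := (key K (Nat.cast_nonneg K)).1
    rw [abs_sub_comm] at h1
    exact_mod_cast h1

/-- **strip form, any real label whose rotation meets the column** -/
theorem whole_rot (hF : FCT) (hL : CC.RowLift) {κ Λ b : ℝ} {H Φ : ℂ → ℂ} {r e : ℝ}
    {α p : ℂ → ℂ → ℂ} {J F q Q : ℂ → ℂ} (hC : Ctx κ Λ H Φ r e α p J) (na : ¬ HAlg κ H)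
    (hB : CC.Bs Λ b F q Q) {R : ℂ → ℝ} {e₁ b₀ x' D al b₁ u ε : ℝ} {A P A₁ P₁ : ℂ × ℂ → ℂ}
    (T : Rd α p R e₁ A P) (hP : ∀ v : ℝ, |v| < e₁ → v ≠ 0 → LP b F q A P v) (hu0 : u ≠ 0)
    (hrotE : ∃ ε₁ > 0, ∀ v : ℝ, |v - u| < ε₁ → ∃ M n : ℕ, M ≤ n ∧
      (∀ y : ℝ, ∃ i : ℕ, i ≤ M ∧ ∃ m : ℤ, |y - i * v - m| < min D (1 / 2) / 2) ∧
      ∃ m : ℤ, |n * v - m| < min D (1 / 2) / 2)
    (hue : |u| < e₁) (hb₀ : 0 < b₀) (hε : 0 < ε)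
    (hRb : ∀ w ∈ ball (u : ℂ) ε, ‖w‖ < e₁ → b₀ ≤ R w)
    (hD : 0 < D) (hal : 0 ≤ al) (hab : al < b₀) (hbb : b₀ < b₁)
    (hA₁ : AnalyticOnNhd ℂ A₁ (Cl x' D al b₁ ×ˢ ball (u : ℂ) ε))
    (hP₁ : AnalyticOnNhd ℂ P₁ (Cl x' D al b₁ ×ˢ ball (u : ℂ) ε))
    (heq : ∀ t w : ℂ, |t.re - x'| < D → al < t.im → t.im < b₀ → w ∈ ball (u : ℂ) ε → ‖w‖ < e₁ →
      A₁ (t, w) = A (t, w) ∧ P₁ (t, w) = P (t, w)) {b' : ℝ} (hb' : b' < b₁) :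
    ∃ ε' > 0, ε' ≤ ε ∧ ball (u : ℂ) ε' ⊆ ball 0 e₁ ∧ ∃ A₂ P₂ : ℂ × ℂ → ℂ,
      AnalyticOnNhd ℂ A₂ (Sr b₀ b' ×ˢ ball (u : ℂ) ε') ∧
      AnalyticOnNhd ℂ P₂ (Sr b₀ b' ×ˢ ball (u : ℂ) ε') ∧
      ∀ t w : ℂ, |t.im| < b₀ → w ∈ ball (u : ℂ) ε' → t ∈ Sr b₀ b' →
        A₂ (t, w) = A (t, w) ∧ P₂ (t, w) = P (t, w) := by
  have N := hC.ln
  set D' : ℝ := min D (1 / 2) with hD'
  have hD'1 : D' ≤ D := min_le_left _ _
  have hD'2 : D' ≤ 1 / 2 := min_le_right _ _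
  have hD'0 : 0 < D' := lt_min hD (by norm_num)
  obtain ⟨ε₁, hε₁, hrot⟩ := hrotE
  have hupos : 0 < |u| := abs_pos.2 hu0
  set ε₀ : ℝ := min (min ε ε₁) (min (e₁ - |u|) |u|) with hε₀
  have k1 : ε₀ ≤ ε := (min_le_left _ _).trans (min_le_left _ _)
  have k2 : ε₀ ≤ ε₁ := (min_le_left _ _).trans (min_le_right _ _)
  have k3 : ε₀ ≤ e₁ - |u| := (min_le_right _ _).trans (min_le_left _ _)
  have k4 : ε₀ ≤ |u| := (min_le_right _ _).trans (min_le_right _ _)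
  have k0 : 0 < ε₀ := lt_min (lt_min hε hε₁) (lt_min (by linarith) hupos)
  have hClsub : Cl x' D' al b₁ ×ˢ ball (u : ℂ) ε ⊆ Cl x' D al b₁ ×ˢ ball (u : ℂ) ε :=
    prod_mono (fun t ht => ⟨lt_of_lt_of_le ht.1 hD'1, ht.2⟩) Subset.rfl
  have heq' : ∀ t w : ℂ, |t.re - x'| < D' → al < t.im → t.im < b₀ → w ∈ ball (u : ℂ) ε →
      ‖w‖ < e₁ → A₁ (t, w) = A (t, w) ∧ P₁ (t, w) = P (t, w) := fun t w h1 h2 h3 h4 h5 =>
    heq t w (lt_of_lt_of_le h1 hD'1) h2 h3 h4 h5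
  have hwe : ∀ w ∈ ball (u : ℂ) ε₀, ‖w‖ < e₁ := by
    intro w hw
    rw [mem_ball, dist_eq_norm] at hw
    have h1 := norm_le_norm_add_norm_sub' w (u : ℂ)
    rw [norm_real, Real.norm_eq_abs] at h1
    linarith
  have hwD : ∀ t w : ℂ, |t.im| < b₀ → w ∈ ball (u : ℂ) ε₀ → (t, w) ∈ Dm R e₁ := by
    intro t w ht hw
    exact ⟨ht.trans_le (hRb w (ball_subset_ball k1 hw) (hwe w hw)), hwe w hw⟩
  -- the slices
  have hsl : ∀ v : ℝ, |v - u| < ε₀ → ∃ a s : ℂ → ℂ, AnalyticOnNhd ℂ a (Sr b₀ b₁) ∧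
      AnalyticOnNhd ℂ s (Sr b₀ b₁) ∧ ∀ t : ℂ, |t.im| < b₀ → a t = A (t, v) ∧ s t = P (t, v) := by
    intro v hv
    have hvu₀ : (v : ℂ) ∈ ball (u : ℂ) ε₀ := by
      rw [mem_ball, dist_eq_norm, ← ofReal_sub, norm_real, Real.norm_eq_abs]
      exact hv
    have hvu : (v : ℂ) ∈ ball (u : ℂ) ε := ball_subset_ball k1 hvu₀
    have hve : |v| < e₁ := by
      have := hwe _ hvu₀
      rwa [norm_real, Real.norm_eq_abs] at this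
    have hv0 : v ≠ 0 := by
      rintro rfl
      rw [zero_sub, abs_neg] at hv
      linarith
    have an : ∀ {f : ℂ × ℂ → ℂ}, AnalyticOnNhd ℂ f (Dm R e₁) →
        AnalyticOnNhd ℂ (fun t => f (t, (v : ℂ))) {t : ℂ | |t.im| < b₀} := fun hf t ht =>
      (hf (t, (v : ℂ)) (hwD t v ht hvu₀)).comp_of_eq (f := fun t : ℂ => (t, (v : ℂ)))
        (analyticAt_id.prod analyticAt_const) rfl
    obtain ⟨M, n, hMn, hr1, hr2⟩ := hrot v (hv.trans_le k2)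
    obtain ⟨a, s, ha, hs, -, -, hag⟩ := Vale.Agent.P097.H222.SpR.spR (f := fun t => A (t, (v : ℂ)))
      (g := fun t => P (t, (v : ℂ))) (k := 2 * Real.pi) (k' := 0) hb₀ hbb (an T.aA) (an T.aP)
      (fun t ht => (T.per N t v (hwD t v ht hvu₀)).1)
      (fun t ht => by simp only [(T.per N t v (hwD t v ht hvu₀)).2, add_zero])
      (fun c hc hc1 a s ha hs _ _ hag x => by
        obtain ⟨θ, hθ⟩ := exists_posC hL hB (hP v hve hv0) hb₀ hc ha hs hag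
        exact gd_allC hF hL hC na hB T hb₀ hRb hD'2 hal hab hbb.le (hA₁.mono hClsub)
          (hP₁.mono hClsub) heq' hve hvu hc hc1 ha hs hag hθ hMn hr1 hr2 x)
    exact ⟨a, s, ha, hs, hag⟩
  -- the joint extension
  have anJ : ∀ {f : ℂ × ℂ → ℂ}, AnalyticOnNhd ℂ f (Dm R e₁) →
      AnalyticOnNhd ℂ f ({t : ℂ | |t.im| < b₀} ×ˢ ball (u : ℂ) ε₀) := fun hf z hz =>
    hf z (hwD z.1 z.2 hz.1 hz.2)
  have hbm : max b' b₀ < b₁ := max_lt hb' hbb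
  obtain ⟨εA, hεA, hεA', GA, hGA, hGA'⟩ := spJ (f := A) (b := max b' b₀) (k := 2 * Real.pi) hb₀
    (le_max_right _ _) hbm k0 (anJ T.aA) (fun t w h1 h2 => (T.per N t w (hwD t w h1 h2)).1)
    (fun v hv => by
      obtain ⟨a, s, ha, hs, hag⟩ := hsl v hv
      exact ⟨a, ha, fun t ht => (hag t ht).1⟩)
  obtain ⟨εP, hεP, hεP', GP, hGP, hGP'⟩ := spJ (f := P) (b := max b' b₀) (k := 0) hb₀
    (le_max_right _ _) hbm k0 (anJ T.aP)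
    (fun t w h1 h2 => by rw [(T.per N t w (hwD t w h1 h2)).2, add_zero])
    (fun v hv => by
      obtain ⟨a, s, ha, hs, hag⟩ := hsl v hv
      exact ⟨s, hs, fun t ht => (hag t ht).2⟩)
  have hsub : ∀ {δ : ℝ}, min εA εP ≤ δ → Sr b₀ b' ×ˢ
      ball (u : ℂ) (min εA εP) ⊆ Sr b₀ (max b' b₀) ×ˢ ball (u : ℂ) δ := fun hδ =>
    prod_mono (fun t ht => ⟨ht.1, lt_of_lt_of_le ht.2 (le_max_left _ _)⟩) (ball_subset_ball hδ)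
  refine ⟨min εA εP, lt_min hεA hεP, (min_le_left _ _).trans (hεA'.trans k1), fun w hw => ?_,
    GA, GP, hGA.mono (hsub (min_le_left _ _)),
    hGP.mono (hsub (min_le_right _ _)), fun t w ht hw _ => ⟨?_, ?_⟩⟩
  · have := hwe w (ball_subset_ball ((min_le_left _ _).trans hεA') hw)
    simpa using this
  · exact hGA' t w ht (ball_subset_ball (min_le_left _ _) hw)
  · exact hGP' t w ht (ball_subset_ball (min_le_right _ _) hw)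


/-- **Row Sp, strip version** (case [c]): from one column to the whole line at a real label
`0 < u < D` (same text as `CD.RowSp`, over `CC.En`, `CC.Bs`) -/
def RowSpC : Prop := ∀ {κ Λ b : ℝ} {H Φ : ℂ → ℂ} {r e : ℝ} {α p : ℂ → ℂ → ℂ} {J F q Q : ℂ → ℂ},
  CC.En κ Λ b H Φ r e α p J F q → CC.Bs Λ b F q Q → ∃ e₁ > 0, ∀ {b₀ ρ : ℝ} {A P : ℂ × ℂ → ℂ},
  CD.Tu α p b₀ ρ A P → ∀ {x' D a b₁ u ε : ℝ} {A₁ P₁ : ℂ × ℂ → ℂ}, 0 < u → u < D → u < ρ → u ≤ e₁ →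
  0 < ε → a < b₀ → b₀ < b₁ →
  AnalyticOnNhd ℂ A₁ ({t : ℂ | |t.re - x'| < D ∧ a < t.im ∧ t.im < b₁} ×ˢ ball (u : ℂ) ε) →
  AnalyticOnNhd ℂ P₁ ({t : ℂ | |t.re - x'| < D ∧ a < t.im ∧ t.im < b₁} ×ˢ ball (u : ℂ) ε) →
  (∀ t w : ℂ, |t.re - x'| < D → a < t.im → t.im < b₀ → w ∈ ball (u : ℂ) ε → ‖w‖ < ρ →
    A₁ (t, w) = A (t, w) ∧ P₁ (t, w) = P (t, w)) → ∀ b' < b₁, ∃ ε' > 0, ∃ A₂ P₂ : ℂ × ℂ → ℂ,
    AnalyticOnNhd ℂ A₂ ({t : ℂ | -b₀ < t.im ∧ t.im < b'} ×ˢ ball (u : ℂ) ε') ∧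
    AnalyticOnNhd ℂ P₂ ({t : ℂ | -b₀ < t.im ∧ t.im < b'} ×ˢ ball (u : ℂ) ε') ∧
    ∀ t w : ℂ, |t.im| < b₀ → w ∈ ball (u : ℂ) ε' → ‖w‖ < ρ →
      A₂ (t, w) = A (t, w) ∧ P₂ (t, w) = P (t, w)

/-- a tube is a domain of the lines -/
theorem rd_of_tu {α p : ℂ → ℂ → ℂ} {y ρ e₁ : ℝ} {A P : ℂ × ℂ → ℂ} (T : CD.Tu α p y ρ A P)
    (he : 0 < e₁) (heρ : e₁ ≤ ρ) : Rd α p (fun _ => y) e₁ A P := by
  have hs : Dm (fun _ => y) e₁ ⊆ CD.Tb y ρ := fun z hz => ⟨hz.1, hz.2.trans_le heρ⟩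
  refine ⟨he, fun w _ => T.y0, ?_, T.aA.mono hs, T.aP.mono hs, T.eq⟩
  exact (isOpen_lt (f := fun z : ℂ × ℂ => |z.1.im|) (by fun_prop) continuous_const).inter
    (isOpen_lt (f := fun z : ℂ × ℂ => ‖z.2‖) (by fun_prop) continuous_const)

theorem rowSpC : RowSpC := by
  intro κ Λ b H Φ r e α p J F q Q hE hB
  obtain ⟨r₀, θ₀, L⟩ := exists_locC hE.ctx hE.b0 hE.dF hE.dq hE.re
  have hr₀ := L.r0
  refine ⟨min (r₀ / 2) (1 / 8), lt_min (by positivity) (by norm_num), ?_⟩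
  intro b₀ ρ A P T x' D a b₁ u ε A₁ P₁ hu huD huρ hue hε hab hbb hA₁ hP₁ heq b' hb'
  have hue1 : u ≤ r₀ / 2 := hue.trans (min_le_left _ _)
  have hue2 : u ≤ 1 / 8 := hue.trans (min_le_right _ _)
  have hb₀ := T.y0
  have N := hE.ctx.ln
  set e₁ : ℝ := min ρ r₀ with he₁
  have he₁ρ : e₁ ≤ ρ := min_le_left _ _
  have he₁r : e₁ ≤ r₀ := min_le_right _ _
  have hue₁ : u < e₁ := lt_min huρ (by linarith)
  have T' : Rd α p (fun _ => b₀) e₁ A P := rd_of_tu T (hu.trans hue₁) he₁ρ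
  have habs : |u| = u := abs_of_pos hu
  have hd : 0 < min D (1 / 2) := lt_min (hu.trans huD) (by norm_num)
  have hsub : Cl x' D (max a 0) b₁ ×ˢ ball (u : ℂ) ε ⊆
      {t : ℂ | |t.re - x'| < D ∧ a < t.im ∧ t.im < b₁} ×ˢ ball (u : ℂ) ε :=
    prod_mono (fun t ht => ⟨ht.1, (le_max_left _ _).trans_lt ht.2.1, ht.2.2⟩) Subset.rfl
  obtain ⟨ε', hε', -, hball, A₂, P₂, hA₂, hP₂, heq₂⟩ := whole_rot Fct.fct Vale.Agent.P097.CC.rowLift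
    hE.ctx hE.na hB T' (x' := x') (D := D) (al := max a 0) (b₁ := b₁) (b₀ := b₀) (u := u) (ε := ε)
    (A₁ := A₁) (P₁ := P₁) (fun v hv _ => lp_of_loc N L T' hv (hv.trans_le he₁r)) hu.ne'
    ⟨min u (min D (1 / 2) - u), lt_min hu (by
        have : u < min D (1 / 2) := lt_min huD (by linarith)
        linarith), fun v hv => by
      have h1 := abs_lt.1 (hv.trans_le (min_le_left _ _))
      have h2 := abs_lt.1 (hv.trans_le (min_le_right _ _))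
      exact dens_col (by linarith [h1.1]) (by linarith [h2.2])⟩
    (by rw [habs]; exact hue₁) hb₀ hε (fun w _ _ => le_refl _) (hu.trans huD) (le_max_right _ _)
    (max_lt hab hb₀) hbb (hA₁.mono hsub) (hP₁.mono hsub)
    (fun t w h1 h2 h3 h4 h5 => heq t w h1 ((le_max_left _ _).trans_lt h2) h3 h4
      (h5.trans_le he₁ρ)) (b' := max b' b₀) (max_lt hb' hbb)
  have hs2 : {t : ℂ | -b₀ < t.im ∧ t.im < b'} ×ˢ ball (u : ℂ) ε' ⊆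
      Sr b₀ (max b' b₀) ×ˢ ball (u : ℂ) ε' :=
    prod_mono (fun t ht => ⟨ht.1, lt_of_lt_of_le ht.2 (le_max_left _ _)⟩) Subset.rfl
  refine ⟨ε', hε', A₂, P₂, hA₂.mono hs2, hP₂.mono hs2, fun t w ht hw _ => heq₂ t w ht hw ?_⟩
  exact ⟨(abs_lt.1 ht).1, (abs_lt.1 ht).2.trans_le (le_max_right _ _)⟩

end Vale.Agent.P097.H456.C

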