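import Vale.Agent.P097.H456.C.End
import Vale.Agent.P097.H456.Fct.Main

/-! # P097 (helper456) / R0.4: whole line, unconditional -/

set_option linter.all false

open Complex Metric Filter Topology Set
open scoped ComplexConjugate

namespace Vale.Agent.P097.H456.C

open Vale.Agent.P097 Vale.Agent.P097.TA Vale.Agent.P097.H202 Vale.Agent.P097.SC

/-- **R0.4** (`Fct.fct` plugged in) -/
theorem whole_line' {κ Λ : ℝ} {H Φ : ℂ → ℂ} {r e : ℝ} {α p : ℂ → ℂ → ℂ} {J : ℂ → ℂ} {b : ℝ}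
    {F q Q : ℂ → ℂ} (hE : CC.En κ Λ b H Φ r e α p J F q) (hB : CC.Bs Λ b F q Q) :
    ∃ e₀ > 0, ∀ {R : ℂ → ℝ} {e₁ : ℝ} {A P : ℂ × ℂ → ℂ},
    Rd α p R e₁ A P → e₁ ≤ e₀ → (∀ w, R (conj w) = R w) → ∀ {u : ℝ}, Irrational u → |u| < e₁ →
    ∀ {x₀ : ℝ}, JR R e₁ A P ((x₀ : ℂ) + R u * I, (u : ℂ)) → ∃ b' > R u, ExtL R e₁ A P u b' :=
  whole_line H456.Fct.fct hE hB

end Vale.Agent.P097.H456.C
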