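import Vale.Agent.P097.H456.C.Step
import Vale.Agent.P097.H324.CD.P1a

/-! # P097 (helper456) / R0.2 local positions near the real axis, case [c] -/

set_option linter.all false

open Complex Metric Filter Topology Set
open scoped ComplexConjugate

namespace Vale.Agent.P097.H456.C

open Vale.Agent.P097 Vale.Agent.P097.TA Vale.Agent.P097.H202 Vale.Agent.P097.SC
open Vale.Agent.P097.H456.Fct Vale.Agent.P097.H324.CD
open Vale.Agent.P097.CD (Tb)

/-- a periodic open set which contains the real line contains a strip -/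
theorem strip_of_open {U : Set ℂ} (hU : IsOpen U) {P : ℝ} (hP : 0 < P)
    (hper : ∀ z : ℂ, z + P ∈ U ↔ z ∈ U) (hr : ∀ x : ℝ, (x : ℂ) ∈ U) :
    ∃ δ > 0, Str δ ⊆ U := by
  have hK : IsCompact (ofReal '' Icc (0 : ℝ) P) := isCompact_Icc.image continuous_ofReal
  have hKU : ofReal '' Icc (0 : ℝ) P ⊆ U := by
    rintro _ ⟨x, -, rfl⟩; exact hr x
  obtain ⟨δ, hδ, hδU⟩ := hK.exists_thickening_subset_open hU hKU
  have hint : ∀ (n : ℤ) (z : ℂ), z + n * P ∈ U ↔ z ∈ U := by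
    intro n
    induction n using Int.induction_on with
    | zero => intro z; simp
    | succ i ih =>
      intro z
      rw [← ih z, ← hper (z + (i : ℤ) * P)]
      push_cast
      rw [show z + ((i : ℂ) + 1) * P = z + i * P + P by ring]
    | pred i ih =>
      intro z
      rw [← ih z, ← hper (z + ((-(i : ℤ) - 1 : ℤ) : ℂ) * P)]
      push_cast
      rw [show z + (-(i : ℂ) - 1) * P + P = z + -(i : ℂ) * P by ring]
  refine ⟨δ, hδ, fun z hz => ?_⟩
  have hz' : |z.im| < δ := hz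
  set n : ℤ := ⌊z.re / P⌋ with hn
  have h1 : (n : ℝ) ≤ z.re / P := Int.floor_le _
  have h2 : z.re / P < n + 1 := Int.lt_floor_add_one _
  rw [le_div_iff₀ hP] at h1
  rw [div_lt_iff₀ hP] at h2
  have h3 := hint (-n) z
  rw [← h3]
  apply hδU
  rw [mem_thickening_iff]
  refine ⟨((z.re - n * P : ℝ) : ℂ), ⟨_, ⟨by linarith, by nlinarith⟩, rfl⟩, ?_⟩
  rw [dist_eq_norm]
  have e : z + ((-n : ℤ) : ℂ) * P - ((z.re - n * P : ℝ) : ℂ) = z.im * I := by
    push_cast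
    conv_lhs => rw [← re_add_im z]
    simp only [add_re, ofReal_re, mul_re, I_re, mul_zero, ofReal_im, I_im, mul_one, sub_self,
      add_zero]
    ring
  rw [e, norm_mul, norm_I, mul_one, norm_real, Real.norm_eq_abs]
  exact hz'

/-- a periodic open set of `ℂ × ℂ` which contains the points `(x, 0)` contains a tube -/
theorem tube_of_open {U : Set (ℂ × ℂ)} (hU : IsOpen U)
    (hper : ∀ t w : ℂ, (t + 1, w) ∈ U ↔ (t, w) ∈ U) (hr : ∀ x : ℝ, ((x : ℂ), (0 : ℂ)) ∈ U) :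
    ∃ δ > 0, Tb δ δ ⊆ U := by
  have hK : IsCompact ((ofReal '' Icc (0 : ℝ) 1) ×ˢ {(0 : ℂ)}) :=
    (isCompact_Icc.image continuous_ofReal).prod isCompact_singleton
  have hKU : (ofReal '' Icc (0 : ℝ) 1) ×ˢ {(0 : ℂ)} ⊆ U := by
    rintro ⟨t, w⟩ ⟨⟨x, -, rfl⟩, hw⟩
    rw [mem_singleton_iff] at hw
    subst hw
    exact hr x
  obtain ⟨δ, hδ, hδU⟩ := hK.exists_thickening_subset_open hU hKU
  have hint : ∀ (n : ℤ) (t w : ℂ), (t + n, w) ∈ U ↔ (t, w) ∈ U := by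
    intro n
    induction n using Int.induction_on with
    | zero => intro t w; simp
    | succ i ih =>
      intro t w
      rw [← ih t w, ← hper (t + (i : ℤ)) w]
      push_cast
      rw [show t + ((i : ℂ) + 1) = t + i + 1 by ring]
    | pred i ih =>
      intro t w
      rw [← ih t w, ← hper (t + ((-(i : ℤ) - 1 : ℤ) : ℂ)) w]
      push_cast
      rw [show t + (-(i : ℂ) - 1) + 1 = t + -(i : ℂ) by ring]
  refine ⟨δ, hδ, ?_⟩
  rintro ⟨t, w⟩ ⟨h1, h2⟩
  simp only [] at h1 h2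
  set n : ℤ := ⌊t.re⌋ with hn
  have h3 : (n : ℝ) ≤ t.re := Int.floor_le _
  have h4 : t.re < n + 1 := Int.lt_floor_add_one _
  rw [← hint (-n) t w]
  apply hδU
  rw [mem_thickening_iff]
  refine ⟨(((t.re - n : ℝ) : ℂ), 0), ⟨⟨_, ⟨by linarith, by linarith⟩, rfl⟩, rfl⟩, ?_⟩
  rw [Prod.dist_eq]
  refine max_lt ?_ (by simpa using h2)
  rw [dist_eq_norm]
  have e : t + ((-n : ℤ) : ℂ) - ((t.re - n : ℝ) : ℂ) = t.im * I := by
    push_cast
    conv_lhs => rw [← re_add_im t]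
    simp only [add_re, ofReal_re, mul_re, I_re, mul_zero, ofReal_im, I_im, mul_one, sub_self,
      add_zero]
    ring
  show ‖t + ((-n : ℤ) : ℂ) - ((t.re - n : ℝ) : ℂ)‖ < δ
  rw [e, norm_mul, norm_I, mul_one, norm_real, Real.norm_eq_abs]
  exact h1

/-- the inverse of the normal angle, `F` on a strip -/
theorem exists_psiC {h : ℝ → ℝ} {κ ρ Λ L : ℝ} {H HH lam Φ : ℂ → ℂ} {l φ : ℝ → ℝ}
    (T : LD h κ ρ Λ L H HH lam Φ l φ) {b : ℝ} (hb : 0 < b) {F q : ℂ → ℂ}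
    (dF : DifferentiableOn ℂ F (Str b)) (dq : DifferentiableOn ℂ q (Str b))
    (re : ∀ x : ℝ, F x = Φ x ∧ q x = H (Φ x)) :
    ∃ (κ' : ℝ) (Ψ : ℂ → ℂ), 0 < κ' ∧ κ' ≤ κ ∧ DifferentiableOn ℂ Ψ (Str κ') ∧
      MapsTo Ψ (Str κ') (Str b) ∧
      (∀ z ∈ Str κ', Ψ (z + 2 * Real.pi) = Ψ z + 1) ∧ (∀ z ∈ Str κ', F (Ψ z) = z) ∧
      (∀ z ∈ Str κ', q (Ψ z) = H z) ∧ (∀ z ∈ Str ρ, Ψ (Φ z) = z) ∧
      (∀ z ∈ Str κ', Ψ (conj z) = conj (Ψ z)) := by
  obtain ⟨Ψ0, h0⟩ := prim_convex (isOpen_Str κ) (convex_Str κ) (T.dlam.div_const (Λ : ℂ))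
  have hΛ : (Λ : ℂ) ≠ 0 := by exact_mod_cast T.Λ0.ne'
  have z0 : (0 : ℂ) ∈ Str ρ := by simpa using real_mem_Str T.ρ0 0
  set Ψ : ℂ → ℂ := fun z => Ψ0 z - Ψ0 (Φ 0) with hΨ
  have dΨ : ∀ z ∈ Str κ, HasDerivAt Ψ (lam z / Λ) z := fun z hz => (h0 z hz).sub_const _
  have dΨ' : DifferentiableOn ℂ Ψ (Str κ) := fun z hz => (dΨ z hz).differentiableAt.differentiableWithinAt
  have hid : ∀ z ∈ Str ρ, Ψ (Φ z) = z := by
    intro z hz
    have h1 : ∀ z ∈ Str ρ, HasDerivAt (fun z => Ψ (Φ z) - z) 0 z := by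
      intro z hz
      have h2 := ((dΨ _ (T.Φm' hz)).comp z (T.dΦ z hz)).sub (hasDerivAt_id z)
      refine h2.congr_deriv ?_
      have h3 := T.lam0 _ (T.Φm' hz)
      field_simp
      ring
    have h2 := const_of_deriv (convex_Str ρ) h1 hz z0
    simp only [hΨ, sub_self, sub_zero] at h2
    show Ψ0 (Φ z) - Ψ0 (Φ 0) = z
    linear_combination h2
  have hper : ∀ z ∈ Str κ, Ψ (z + 2 * Real.pi) = Ψ z + 1 := by
    intro z hz
    have h1 : ∀ z ∈ Str κ, HasDerivAt (fun z => Ψ (z + 2 * Real.pi) - Ψ z) 0 z := by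
      intro z hz
      have hz' : z + 2 * Real.pi ∈ Str κ := by
        have := add_real_mem_Str hz (2 * Real.pi)
        simpa using this
      have h2 := ((dΨ _ hz').comp_add_const z (2 * (Real.pi : ℂ))).sub (dΨ z hz)
      refine h2.congr_deriv ?_
      rw [T.lamp z hz, sub_self]
    have h2 := const_of_deriv (convex_Str κ) h1 hz (T.Φm' z0)
    have h3 : Φ 0 + 2 * Real.pi = Φ 1 := by
      rw [← T.Φp 0 z0, zero_add]
    have h4 : Ψ (Φ 1) = 1 := hid 1 (by simpa using real_mem_Str T.ρ0 1)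
    have h5 : Ψ (Φ 0) = 0 := hid 0 z0
    rw [h3, h4, h5] at h2
    linear_combination h2
  have hsurj : ∀ x : ℝ, ∃ s : ℝ, φ s = x := by
    intro x
    have hc : Continuous φ := continuous_iff_continuousAt.2 fun s => (T.dφ s).continuousAt
    have hg : Function.Periodic (fun s => φ s - 2 * Real.pi * s) 1 := by
      intro s
      simp only [T.φp s]
      ring
    have hn : ∀ n : ℤ, φ n = φ 0 + 2 * Real.pi * n := by
      intro n
      have h1 := hg.int_mul n 0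
      simp only [zero_add, mul_one, mul_zero, sub_zero] at h1
      linarith
    have hpi := Real.pi_pos
    obtain ⟨n, hn1⟩ := exists_int_gt ((x - φ 0) / (2 * Real.pi))
    obtain ⟨m, hm1⟩ := exists_int_lt ((x - φ 0) / (2 * Real.pi))
    rw [div_lt_iff₀ (by positivity)] at hn1
    rw [lt_div_iff₀ (by positivity)] at hm1
    have h1 : x ∈ range φ := mem_range_of_exists_le_of_exists_ge hc
      ⟨m, by rw [hn]; linarith⟩ ⟨n, by rw [hn]; linarith⟩
    exact h1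
  have hval : ∀ x : ℝ, ∃ s : ℝ, Φ s = x ∧ Ψ x = s := by
    intro x
    obtain ⟨s, hs⟩ := hsurj x
    have h1 : Φ s = x := by rw [T.Φr, hs]
    have h2 := hid s (real_mem_Str T.ρ0 s)
    rw [h1] at h2
    exact ⟨s, h1, h2⟩
  have hre : ∀ x : ℝ, F (Ψ x) = x ∧ q (Ψ x) = H x := by
    intro x
    obtain ⟨s, h1, h2⟩ := hval x
    rw [h2, (re s).1, (re s).2, h1]
    exact ⟨rfl, rfl⟩
  -- small strip
  have cΨ : ContinuousOn Ψ (Str κ) := dΨ'.continuousOn
  obtain ⟨κ', hκ', hκ'U⟩ := strip_of_open (U := Str κ ∩ Ψ ⁻¹' Str b) (P := 2 * Real.pi)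
    (cΨ.isOpen_inter_preimage (isOpen_Str κ) (isOpen_Str b)) (by positivity)
    (fun z => by
      have e : ((2 * Real.pi : ℝ) : ℂ) = 2 * Real.pi := by push_cast; ring
      rw [e]
      have h1 : z + 2 * Real.pi ∈ Str κ ↔ z ∈ Str κ := by
        show |(z + 2 * Real.pi).im| < κ ↔ |z.im| < κ
        simp
      constructor
      · rintro ⟨h2, h3⟩
        have h4 := h1.1 h2
        refine ⟨h4, ?_⟩
        rw [mem_preimage, hper z h4] at h3
        rw [mem_preimage]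
        have : |(Ψ z + 1).im| < b := h3
        show |(Ψ z).im| < b
        simpa using this
      · rintro ⟨h2, h3⟩
        refine ⟨h1.2 h2, ?_⟩
        rw [mem_preimage, hper z h2]
        have : |(Ψ z).im| < b := h3
        show |(Ψ z + 1).im| < b
        simpa using this)
    (fun x => by
      obtain ⟨s, h1, h2⟩ := hval x
      refine ⟨real_mem_Str T.κ0 x, ?_⟩
      rw [mem_preimage, h2]
      exact real_mem_Str hb s)
  set κ₁ : ℝ := min κ' κ with hκ₁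
  have hκ₁0 : 0 < κ₁ := lt_min hκ' T.κ0
  have hS : Str κ₁ ⊆ Str κ := Str_mono (min_le_right _ _)
  have hS' : Str κ₁ ⊆ Str κ' := Str_mono (min_le_left _ _)
  have hm : MapsTo Ψ (Str κ₁) (Str b) := fun z hz => (hκ'U (hS' hz)).2
  have dΨ₁ : DifferentiableOn ℂ Ψ (Str κ₁) := dΨ'.mono hS
  have hcs : ∀ z ∈ Str κ₁, conj z ∈ Str κ₁ := by
    intro z hz
    have : |z.im| < κ₁ := hz
    show |(conj z).im| < κ₁
    simpa using this
  refine ⟨κ₁, Ψ, hκ₁0, min_le_right _ _, dΨ₁, hm, fun z hz => hper z (hS hz), ?_, ?_, hid, ?_⟩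
  · exact fun z hz => eqOn_str hκ₁0 (f := fun z => F (Ψ z)) (g := fun z => z)
      (dF.comp dΨ₁ hm) differentiableOn_id (fun x => (hre x).1) hz
  · exact fun z hz => eqOn_str hκ₁0 (f := fun z => q (Ψ z)) (g := H)
      (dq.comp dΨ₁ hm) (T.dH.mono hS) (fun x => (hre x).2) hz
  · intro z hz
    have h1 : DifferentiableOn ℂ (fun z => conj (Ψ (conj z))) (Str κ₁) := by
      intro z hz
      have h2 : DifferentiableAt ℂ Ψ (conj z) :=
        dΨ₁.differentiableAt ((isOpen_Str κ₁).mem_nhds (hcs z hz))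
      have h3 := h2.conj_conj
      rw [Complex.conj_conj] at h3
      exact h3.differentiableWithinAt
    have h2 := eqOn_str hκ₁0 h1 dΨ₁ (fun x => by
      obtain ⟨s, h1, h2⟩ := hval x
      simp only [conj_ofReal, h2]) hz
    simp only [] at h2
    rw [← h2, conj_conj]

/-- local positions in two variables near the real axis -/
structure LocC (b r₀ r e : ℝ) (α p : ℂ → ℂ → ℂ) (F q : ℂ → ℂ) (θ : ℂ × ℂ → ℂ) : Prop where
  r0 : 0 < r₀
  hr : r₀ + r₀ / 2 ≤ r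
  ee : r₀ ≤ e
  an : AnalyticOnNhd ℂ θ (Tb r₀ r₀)
  mem : ∀ t w : ℂ, (t, w) ∈ Tb r₀ r₀ → θ (t, w) ∈ Str b
  z : ∀ t : ℂ, |t.im| < r₀ → θ (t, 0) = t
  per : ∀ t w : ℂ, (t, w) ∈ Tb r₀ r₀ → θ (t + 1, w) = θ (t, w) + 1
  ev : ∀ t w : ℂ, (t, w) ∈ Tb r₀ r₀ → θ (t, -w) = θ (t, w)
  sA : ∀ t w : ℂ, (t, w) ∈ Tb r₀ r₀ →
    α (t + w / 2) w + α (t - w / 2) w = 2 * F (θ (t, w))
  sP : ∀ t w : ℂ, (t, w) ∈ Tb r₀ r₀ → p (t + w / 2) w + p (t - w / 2) w =
    2 * q (θ (t, w)) * cos ((α (t + w / 2) w - α (t - w / 2) w) / 2)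
  cs : ∀ t w : ℂ, (t, w) ∈ Tb r₀ r₀ → cos ((α (t + w / 2) w - α (t - w / 2) w) / 2) ≠ 0
  dP : ∀ t w : ℂ, (t, w) ∈ Tb r₀ r₀ → deriv F (θ (t, w)) * (p (t + w / 2) w - p (t - w / 2) w) =
    2 * deriv q (θ (t, w)) * sin ((α (t + w / 2) w - α (t - w / 2) w) / 2)
  cj : ∀ t w : ℂ, (t, w) ∈ Tb r₀ r₀ → θ (conj t, conj w) = conj (θ (t, w))

theorem exists_locC {κ Λ b : ℝ} {H Φ : ℂ → ℂ} {r e : ℝ} {α p : ℂ → ℂ → ℂ} {J F q : ℂ → ℂ}
    (hC : Ctx κ Λ H Φ r e α p J) (hb : 0 < b) (dF : DifferentiableOn ℂ F (Str b))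
    (dq : DifferentiableOn ℂ q (Str b)) (re : ∀ x : ℝ, F x = Φ x ∧ q x = H (Φ x)) :
    ∃ (r₀ : ℝ) (θ : ℂ × ℂ → ℂ), LocC b r₀ r e α p F q θ := by
  obtain ⟨h, ρ, L, HH, lam, l, φ, T⟩ := hC.ld
  have N := hC.ln
  obtain ⟨κ', Ψ, hκ', hκκ, dΨ, mΨ, Ψp, FΨ, qΨ, ΨΦ, Ψc⟩ := exists_psiC T hb dF dq re
  have hr := N.hr
  have he := N.he
  have aΨ : AnalyticOnNhd ℂ Ψ (Str κ') := dΨ.analyticOnNhd (isOpen_Str κ')
  have aα : AnalyticOnNhd ℂ (fun u : ℂ × ℂ => α u.1 u.2) (WW 0 r e) :=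
    Hol.analyticOnNhd_of_differentiableOn (isOpen_WW _ _ _) N.jα
  -- membership
  have hmem : ∀ {t w s : ℂ}, (t, w) ∈ WW (1 / 2) r e → ‖s‖ ≤ 1 / 2 → s.im = 0 →
      (t + s * w, w) ∈ WW 0 r e := by
    intro t w s h hs hs0
    refine ⟨h.1, ?_⟩
    have h1 : |t.im| + 1 / 2 * |w.im| < r := h.2
    have h2 : (s * w).im = s.re * w.im := by rw [mul_im, hs0]; ring
    have h3 : |s.re| ≤ 1 / 2 := (abs_re_le_norm s).trans hs
    have h4 : |(s * w).im| ≤ 1 / 2 * |w.im| := by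
      rw [h2, abs_mul]
      exact mul_le_mul_of_nonneg_right h3 (abs_nonneg _)
    have h5 := abs_add_le t.im (s * w).im
    show |(t + s * w).im| + 0 * |w.im| < r
    rw [add_im, zero_mul, add_zero]
    linarith
  have hp1 : ∀ {t w : ℂ}, (t, w) ∈ WW (1 / 2) r e → (t + w / 2, w) ∈ WW 0 r e := by
    intro t w h
    have := hmem (s := 1 / 2) h (by simp) (by simp)
    rwa [show t + 1 / 2 * w = t + w / 2 by ring] at this
  have hm1 : ∀ {t w : ℂ}, (t, w) ∈ WW (1 / 2) r e → (t - w / 2, w) ∈ WW 0 r e := by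
    intro t w h
    have := hmem (s := -1 / 2) h (by simp [norm_div]) (by simp)
    rwa [show t + -1 / 2 * w = t - w / 2 by ring] at this
  set m : ℂ × ℂ → ℂ := fun u => (α (u.1 + u.2 / 2) u.2 + α (u.1 - u.2 / 2) u.2) / 2 with hm
  set dl : ℂ × ℂ → ℂ := fun u => (α (u.1 + u.2 / 2) u.2 - α (u.1 - u.2 / 2) u.2) / 2 with hdl
  have am : AnalyticOnNhd ℂ m (WW (1 / 2) r e) := by
    intro u hu
    have g3 := comp_add (aα _ (hp1 hu))
    have g4 := comp_sub (aα _ (hm1 hu))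
    exact (g3.add g4).div_const
  have adl : AnalyticOnNhd ℂ dl (WW (1 / 2) r e) := by
    intro u hu
    have g3 := comp_add (aα _ (hp1 hu))
    have g4 := comp_sub (aα _ (hm1 hu))
    exact (g3.sub g4).div_const
  have w1 : ∀ {t w : ℂ}, (t + 1, w) ∈ WW (1 / 2) r e ↔ (t, w) ∈ WW (1 / 2) r e := by
    intro t w
    simp [WW]
  have mper : ∀ {t w : ℂ}, (t, w) ∈ WW (1 / 2) r e → m (t + 1, w) = m (t, w) + 2 * Real.pi ∧
      dl (t + 1, w) = dl (t, w) := by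
    intro t w h
    have h1 := N.αper _ _ (hp1 h)
    have h2 := N.αper _ _ (hm1 h)
    simp only [hm, hdl]
    rw [show t + 1 + w / 2 = t + w / 2 + 1 by ring, show t + 1 - w / 2 = t - w / 2 + 1 by ring,
        h1, h2]
    constructor <;> ring
  -- the tube
  have hWo : IsOpen (WW (1 / 2) r e) := isOpen_WW _ _ _
  set U : Set (ℂ × ℂ) := WW (1 / 2) r e ∩ (fun u => (m u, dl u)) ⁻¹' (Str κ' ×ˢ {z | cos z ≠ 0})
    with hU
  have hUo : IsOpen U := by
    refine ContinuousOn.isOpen_inter_preimage (fun u hu =>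
      ((am u hu).continuousAt.prodMk (adl u hu).continuousAt).continuousWithinAt) hWo ?_
    exact (isOpen_Str κ').prod (isOpen_ne_fun continuous_cos continuous_const)
  obtain ⟨δ, hδ, hδU⟩ := tube_of_open hUo
    (fun t w => by
      constructor
      · rintro ⟨h1, h2⟩
        have h3 := w1.1 h1
        refine ⟨h3, ?_⟩
        have h4 := mper h3
        rw [mem_preimage] at h2 ⊢
        rw [h4.1, h4.2] at h2
        refine ⟨?_, h2.2⟩
        have h5 : |(m (t, w) + 2 * Real.pi).im| < κ' := h2.1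
        show |(m (t, w)).im| < κ'
        simpa using h5
      · rintro ⟨h1, h2⟩
        refine ⟨w1.2 h1, ?_⟩
        have h4 := mper h1
        rw [mem_preimage] at h2 ⊢
        rw [h4.1, h4.2]
        refine ⟨?_, h2.2⟩
        have h5 : |(m (t, w)).im| < κ' := h2.1
        show |(m (t, w) + 2 * Real.pi).im| < κ'
        simpa using h5)
    (fun x => by
      have h1 : ((x : ℂ), (0 : ℂ)) ∈ WW (1 / 2) r e := ⟨by simpa using he, by simpa using hr⟩
      refine ⟨h1, ?_⟩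
      have hxr : |((x : ℝ) : ℂ).im| < r := by simpa using hr
      have h2 : m ((x : ℂ), 0) = Φ x := by
        simp only [hm, zero_div, add_zero, sub_zero]
        rw [N.αzero _ hxr]; ring
      have h3 : dl ((x : ℂ), 0) = 0 := by
        simp only [hdl, zero_div, add_zero, sub_zero, sub_self]
      rw [mem_preimage]
      refine ⟨?_, ?_⟩
      · show m ((x : ℂ), 0) ∈ Str κ'
        rw [h2, T.Φr]
        exact real_mem_Str hκ' _
      · show cos (dl ((x : ℂ), 0)) ≠ 0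
        rw [h3]; simp)
  -- the radius
  set r₀ : ℝ := min δ (min (r / 2) (min e ρ)) with hr₀
  have k1 : r₀ ≤ δ := min_le_left _ _
  have k2 : r₀ ≤ r / 2 := (min_le_right _ _).trans (min_le_left _ _)
  have k3 : r₀ ≤ e := (min_le_right _ _).trans ((min_le_right _ _).trans (min_le_left _ _))
  have k4 : r₀ ≤ ρ := (min_le_right _ _).trans ((min_le_right _ _).trans (min_le_right _ _))
  have k0 : 0 < r₀ := lt_min hδ (lt_min (by positivity) (lt_min he T.ρ0))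
  have hTU : Tb r₀ r₀ ⊆ U := fun u hu =>
    hδU ⟨lt_of_lt_of_le hu.1 k1, lt_of_lt_of_le hu.2 k1⟩
  have hTW : ∀ {t w : ℂ}, (t, w) ∈ Tb r₀ r₀ → (t, w) ∈ WW (1 / 2) r e := fun h => (hTU h).1
  have hTm : ∀ {t w : ℂ}, (t, w) ∈ Tb r₀ r₀ → m (t, w) ∈ Str κ' := fun h => (hTU h).2.1
  refine ⟨r₀, fun u => Ψ (m u), ?_⟩
  constructor
  · exact k0
  · linarith
  · exact k3
  · exact fun u hu => (aΨ _ (hTm hu)).comp_of_eq (am u (hTW hu)) rfl
  · exact fun t w h => mΨ (hTm h)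
  · intro t ht
    have h0 : (t, (0 : ℂ)) ∈ Tb r₀ r₀ := ⟨ht, by simpa using k0⟩
    have h3 : m (t, 0) = Φ t := by
      simp only [hm, zero_div, add_zero, sub_zero]
      rw [N.αzero t (by linarith)]
      ring
    show Ψ (m (t, 0)) = t
    rw [h3, ΨΦ t (show |t.im| < ρ by linarith)]
  · intro t w h
    show Ψ (m (t + 1, w)) = Ψ (m (t, w)) + 1
    rw [(mper (hTW h)).1, Ψp _ (hTm h)]
  · intro t w h
    have h1 : m (t, -w) = m (t, w) := by
      simp only [hm]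
      rw [show t + -w / 2 = t - w / 2 by ring, show t - -w / 2 = t + w / 2 by ring,
        N.αev _ _ (hm1 (hTW h)), N.αev _ _ (hp1 (hTW h))]
      ring
    show Ψ (m (t, -w)) = Ψ (m (t, w))
    rw [h1]
  · intro t w h
    show _ = 2 * F (Ψ (m (t, w)))
    rw [FΨ _ (hTm h)]
    simp only [hm]
    ring
  · intro t w h
    show _ = 2 * q (Ψ (m (t, w))) * _
    rw [qΨ _ (hTm h)]
    exact N.sum t w (hTW h)
  · exact fun t w h => (hTU h).2.2
  · intro t w h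
    have hs := hTm h
    have hsκ : m (t, w) ∈ Str κ := Str_mono hκκ hs
    have hb' := mΨ hs
    have k1 : HasDerivAt Ψ (deriv Ψ (m (t, w))) (m (t, w)) := (aΨ _ hs).differentiableAt.hasDerivAt
    have k2 := ((dF.differentiableAt ((isOpen_Str b).mem_nhds hb')).hasDerivAt).comp (m (t, w)) k1
    have k3 := ((dq.differentiableAt ((isOpen_Str b).mem_nhds hb')).hasDerivAt).comp (m (t, w)) k1
    have c2 : (F ∘ Ψ) =ᶠ[𝓝 (m (t, w))] fun z => z := by
      filter_upwards [(isOpen_Str κ').mem_nhds hs] with z hz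
      exact FΨ z hz
    have c3 : (q ∘ Ψ) =ᶠ[𝓝 (m (t, w))] H := by
      filter_upwards [(isOpen_Str κ').mem_nhds hs] with z hz
      exact qΨ z hz
    have d2 : deriv F (Ψ (m (t, w))) * deriv Ψ (m (t, w)) = 1 := by
      rw [← k2.deriv, c2.deriv_eq]
      exact deriv_id _
    have d3 : deriv q (Ψ (m (t, w))) * deriv Ψ (m (t, w)) = deriv H (m (t, w)) := by
      rw [← k3.deriv, c3.deriv_eq]
    show deriv F (Ψ (m (t, w))) * _ = 2 * deriv q (Ψ (m (t, w))) * _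
    rw [N.diff t w (hTW h)]
    have d4 : deriv F (Ψ (m (t, w))) * deriv H (m (t, w)) = deriv q (Ψ (m (t, w))) := by
      rw [← d3]
      linear_combination deriv q (Ψ (m (t, w))) * d2
    have d5 : deriv H ((α (t + w / 2) w + α (t - w / 2) w) / 2) = deriv H (m (t, w)) := rfl
    rw [d5, ← d4]
    ring
  · intro t w h
    have h1 : m (conj t, conj w) = conj (m (t, w)) := by
      simp only [hm]
      rw [show conj t + conj w / 2 = conj (t + w / 2) by rw [map_add, map_div₀, map_ofNat],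
        show conj t - conj w / 2 = conj (t - w / 2) by rw [map_sub, map_div₀, map_ofNat],
        N.αre _ _ (hp1 (hTW h)), N.αre _ _ (hm1 (hTW h))]
      rw [map_div₀, map_add, map_ofNat]
    show Ψ (m (conj t, conj w)) = conj (Ψ (m (t, w)))
    rw [h1, Ψc _ (hTm h)]

/-- the lines agree with `α`, `p` near the real axis -/
theorem Rd.eq_lines {κ Λ : ℝ} {H Φ : ℂ → ℂ} {r e : ℝ} {α p : ℂ → ℂ → ℂ} {J : ℂ → ℂ}
    (N : Lines κ Λ H Φ r e α p J) {R : ℂ → ℝ} {e₁ : ℝ} {A P : ℂ × ℂ → ℂ} (T : Rd α p R e₁ A P)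
    {t w : ℂ} (ht : |t.im| < R w) (hw : ‖w‖ < e₁) (htr : |t.im| < r) (hwe : ‖w‖ < e) :
    A (t, w) = α t w ∧ P (t, w) = p t w := by
  have aα : AnalyticOnNhd ℂ (fun u : ℂ × ℂ => α u.1 u.2) (WW 0 r e) :=
    Hol.analyticOnNhd_of_differentiableOn (isOpen_WW _ _ _) N.jα
  have ap : AnalyticOnNhd ℂ (fun u : ℂ × ℂ => p u.1 u.2) (WW 0 r e) :=
    Hol.analyticOnNhd_of_differentiableOn (isOpen_WW _ _ _) N.jp
  set R' : ℂ → ℝ := fun w => min (R w) r with hR'
  set e' : ℝ := min e₁ e with he'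
  have hm1 : Dm R' e' ⊆ Dm R e₁ := fun z hz =>
    ⟨hz.1.trans_le (min_le_left _ _), hz.2.trans_le (min_le_left _ _)⟩
  have hm2 : Dm R' e' ⊆ WW 0 r e := fun z hz => by
    refine ⟨hz.2.trans_le (min_le_right _ _), ?_⟩
    have h1 : |z.1.im| < R' z.2 := hz.1
    have h2 : R' z.2 ≤ r := min_le_right _ _
    show |z.1.im| + 0 * |z.2.im| < r
    rw [zero_mul, add_zero]; linarith
  have hpc : IsPreconnected (Dm R' e') := Dm_pc (lt_min T.e0 N.he)
    (fun w hw => lt_min (T.R0 w (hw.trans_le (min_le_left _ _))) N.hr)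
  have h0 : ((0 : ℂ), (0 : ℂ)) ∈ Dm R' e' := ⟨by
    show |(0 : ℂ).im| < R' 0
    rw [zero_im, abs_zero]
    exact lt_min (T.R0 0 (by simpa using T.e0)) N.hr, by
    show ‖(0 : ℂ)‖ < e'
    rw [norm_zero]
    exact lt_min T.e0 N.he⟩
  have heq := T.eq 0
  rw [ofReal_zero] at heq
  have hmem : (t, w) ∈ Dm R' e' := ⟨lt_min ht htr, lt_min hw hwe⟩
  exact ⟨(T.aA.mono hm1).eqOn_of_preconnected_of_eventuallyEq (aα.mono hm2) hpc h0
      (heq.mono fun u hu => hu.1) hmem,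
    (T.aP.mono hm1).eqOn_of_preconnected_of_eventuallyEq (ap.mono hm2) hpc h0
      (heq.mono fun u hu => hu.2) hmem⟩

/-- **local positions at real labels** from the data of case [c] -/
theorem lp_of_loc {κ Λ b : ℝ} {H Φ : ℂ → ℂ} {r e : ℝ} {α p : ℂ → ℂ → ℂ} {J F q : ℂ → ℂ}
    (N : Lines κ Λ H Φ r e α p J) {r₀ : ℝ} {θ : ℂ × ℂ → ℂ} (L : LocC b r₀ r e α p F q θ)
    {R : ℂ → ℝ} {e₁ : ℝ} {A P : ℂ × ℂ → ℂ} (T : Rd α p R e₁ A P) {v : ℝ} (hv : |v| < e₁)
    (hv0 : |v| < r₀) : LP b F q A P v := by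
  have hvn : ‖(v : ℂ)‖ < e₁ := by rw [norm_real, Real.norm_eq_abs]; exact hv
  have hvn0 : ‖(v : ℂ)‖ < r₀ := by rw [norm_real, Real.norm_eq_abs]; exact hv0
  have hve : ‖(v : ℂ)‖ < e := hvn0.trans_le L.ee
  have hR := T.R0 v hvn
  have aα : AnalyticOnNhd ℂ (fun u : ℂ × ℂ => α u.1 u.2) (WW 0 r e) :=
    Hol.analyticOnNhd_of_differentiableOn (isOpen_WW _ _ _) N.jα
  have ap : AnalyticOnNhd ℂ (fun u : ℂ × ℂ => p u.1 u.2) (WW 0 r e) :=
    Hol.analyticOnNhd_of_differentiableOn (isOpen_WW _ _ _) N.jp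
  -- the lines agree on the intersection of the two domains
  have hline : ∀ t : ℂ, |t.im| < R v → |t.im| < r → A (t, v) = α t v ∧ P (t, v) = p t v := by
    set R' : ℂ → ℝ := fun w => min (R w) r with hR'
    set e' : ℝ := min e₁ e with he'
    have hm1 : Dm R' e' ⊆ Dm R e₁ := fun z hz =>
      ⟨hz.1.trans_le (min_le_left _ _), hz.2.trans_le (min_le_left _ _)⟩
    have hm2 : Dm R' e' ⊆ WW 0 r e := fun z hz => by
      refine ⟨hz.2.trans_le (min_le_right _ _), ?_⟩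
      have h1 : |z.1.im| < R' z.2 := hz.1
      have h2 : R' z.2 ≤ r := min_le_right _ _
      show |z.1.im| + 0 * |z.2.im| < r
      rw [zero_mul, add_zero]; linarith
    have hpc : IsPreconnected (Dm R' e') := Dm_pc (lt_min T.e0 N.he)
      (fun w hw => lt_min (T.R0 w (hw.trans_le (min_le_left _ _))) N.hr)
    have h0 : ((0 : ℂ), (0 : ℂ)) ∈ Dm R' e' := ⟨by
      show |(0 : ℂ).im| < R' 0
      rw [zero_im, abs_zero]
      exact lt_min (T.R0 0 (by simpa using T.e0)) N.hr, by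
      show ‖(0 : ℂ)‖ < e'
      rw [norm_zero]
      exact lt_min T.e0 N.he⟩
    have heq := T.eq 0
    rw [ofReal_zero] at heq
    intro t ht htr
    have hmem : (t, (v : ℂ)) ∈ Dm R' e' := ⟨lt_min ht htr, lt_min hvn hve⟩
    exact ⟨(T.aA.mono hm1).eqOn_of_preconnected_of_eventuallyEq (aα.mono hm2) hpc h0
        (heq.mono fun u hu => hu.1) hmem,
      (T.aP.mono hm1).eqOn_of_preconnected_of_eventuallyEq (ap.mono hm2) hpc h0
        (heq.mono fun u hu => hu.2) hmem⟩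
  set θb : ℂ → ℂ := fun t => θ (t - (v : ℂ) / 2, (v : ℂ)) with hθb
  have hmem : ∀ t : ℂ, |t.im| < r₀ → (t - (v : ℂ) / 2, (v : ℂ)) ∈ Tb r₀ r₀ := by
    intro t ht
    refine ⟨?_, hvn0⟩
    show |(t - (v : ℂ) / 2).im| < r₀
    have : (t - (v : ℂ) / 2).im = t.im := by simp
    rw [this]; exact ht
  have hv2 : |((v : ℂ) / 2).im| < r₀ := by
    have : ((v : ℂ) / 2).im = 0 := by simp
    rw [this, abs_zero]; exact L.r0
  have aθ : AnalyticOnNhd ℂ θb (Str r₀) := fun t ht =>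
    (L.an _ (hmem t ht)).comp_of_eq (f := fun t : ℂ => (t - (v : ℂ) / 2, (v : ℂ)))
      ((analyticAt_id.sub analyticAt_const).prod analyticAt_const) rfl
  refine ⟨θb, aθ _ hv2, L.mem _ _ (hmem _ hv2), ?_, ?_⟩
  · intro h
    have h2 := aθ.eqOn_of_preconnected_of_eventuallyEq (g := fun _ => θb ((v : ℂ) / 2))
      (fun _ _ => analyticAt_const) (convex_Str r₀).isPreconnected hv2 h
    have h3 : (v : ℂ) / 2 + 1 ∈ Str r₀ := by
      show |((v : ℂ) / 2 + 1).im| < r₀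
      simpa using hv2
    have h4 : θb ((v : ℂ) / 2 + 1) = θb ((v : ℂ) / 2) := h2 h3
    have h5 := L.per _ _ (hmem _ hv2)
    simp only [hθb] at h4
    rw [show (v : ℂ) / 2 + 1 - (v : ℂ) / 2 = (v : ℂ) / 2 - (v : ℂ) / 2 + 1 by ring, h5] at h4
    exact one_ne_zero (left_eq_add.1 h4.symm)
  · have e1 : ∀ᶠ t : ℂ in 𝓝 ((v : ℂ) / 2), |t.im| < R v := by
      refine (isOpen_lt (f := fun t : ℂ => |t.im|) (by fun_prop) continuous_const).mem_nhds ?_
      show |((v : ℂ) / 2).im| < R v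
      have : ((v : ℂ) / 2).im = 0 := by simp
      rw [this, abs_zero]; exact hR
    have e2 : ∀ᶠ t : ℂ in 𝓝 ((v : ℂ) / 2), |t.im| < r₀ :=
      (isOpen_lt (f := fun t : ℂ => |t.im|) (by fun_prop) continuous_const).mem_nhds hv2
    filter_upwards [e1, e2] with t h1 h2
    have hrr : r₀ < r := by
      have := L.hr
      have := L.r0
      linarith
    have h3 := hline t h1 (h2.trans hrr)
    have him : (t - (v : ℂ)).im = t.im := by simp
    have h4 := hline (t - v) (by rw [him]; exact h1) (by rw [him]; exact h2.trans hrr)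
    have h6 := hmem t h2
    have h7 := L.sA _ _ h6
    have h8 := L.sP _ _ h6
    have h9 := L.cs _ _ h6
    have k1 : t - (v : ℂ) / 2 + v / 2 = t := by ring
    have k2 : t - (v : ℂ) / 2 - v / 2 = t - v := by ring
    rw [k1, k2] at h7 h8 h9
    rw [h3.1, h3.2, h4.1, h4.2]
    exact ⟨h7, h8, h9⟩

end Vale.Agent.P097.H456.C
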