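import Vale.Agent.P097.H456.C.Main
import Vale.Agent.P097.H456.C.Loc
import Vale.Agent.P097.H286.C.RowLift

/-! # P097 (helper456) / R0.4: whole line, final form -/

set_option linter.all false

open Complex Metric Filter Topology Set
open scoped ComplexConjugate

namespace Vale.Agent.P097.H456.C

open Vale.Agent.P097 Vale.Agent.P097.TA Vale.Agent.P097.H202 Vale.Agent.P097.SC
open Vale.Agent.P097.H456.Fct Vale.Agent.P097.H456.Sp Vale.Agent.P097.CC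

theorem an_conj {f : ℂ × ℂ → ℂ} {S : Set (ℂ × ℂ)} (hS : IsOpen S) (hf : AnalyticOnNhd ℂ f S)
    {S' : Set (ℂ × ℂ)} (hS' : IsOpen S')
    (hsym : ∀ u ∈ S', (conj u.1, conj u.2) ∈ S) :
    AnalyticOnNhd ℂ (fun u : ℂ × ℂ => conj (f (conj u.1, conj u.2))) S' := by
  apply Hol.analyticOnNhd_of_differentiableOn hS'
  intro u hu
  have h1 : DifferentiableAt ℂ f (star u) := (hf _ (hsym u hu)).differentiableAt
  have h2 := h1.star_star
  rw [star_star] at h2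
  exact h2.differentiableWithinAt

/-- joint regularity at a boundary point of the domain -/
def JR (R : ℂ → ℝ) (e₁ : ℝ) (A P : ℂ × ℂ → ℂ) (z : ℂ × ℂ) : Prop :=
  ∃ ρ > 0, ∃ A₁ P₁ : ℂ × ℂ → ℂ, AnalyticOnNhd ℂ A₁ (ball z ρ) ∧ AnalyticOnNhd ℂ P₁ (ball z ρ) ∧
    ∀ y ∈ ball z ρ, y ∈ Dm R e₁ → A₁ y = A y ∧ P₁ y = P y

/-- `(A, P)` extend to the strip `|Im t| < b'` near the label `u` -/
def ExtL (R : ℂ → ℝ) (e₁ : ℝ) (A P : ℂ × ℂ → ℂ) (u : ℂ) (b' : ℝ) : Prop :=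
  ∃ ε > 0, ball u ε ⊆ ball 0 e₁ ∧ ∃ A₂ P₂ : ℂ × ℂ → ℂ,
    AnalyticOnNhd ℂ A₂ (Str b' ×ˢ ball u ε) ∧ AnalyticOnNhd ℂ P₂ (Str b' ×ˢ ball u ε) ∧
    ∀ t w : ℂ, t ∈ Str b' → w ∈ ball u ε → |t.im| < R w →
      A₂ (t, w) = A (t, w) ∧ P₂ (t, w) = P (t, w)

section
variable {κ Λ : ℝ} {H Φ : ℂ → ℂ} {r e : ℝ} {α p : ℂ → ℂ → ℂ} {J : ℂ → ℂ}
  {R : ℂ → ℝ} {e₁ : ℝ} {A P : ℂ × ℂ → ℂ}

theorem Dm_conj (hRc : ∀ w, R (conj w) = R w) {u : ℂ × ℂ} (hu : u ∈ Dm R e₁) :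
    (conj u.1, conj u.2) ∈ Dm R e₁ := by
  refine ⟨?_, ?_⟩
  · show |(conj u.1).im| < R (conj u.2)
    rw [conj_im, abs_neg, hRc]; exact hu.1
  · show ‖conj u.2‖ < e₁
    rw [norm_conj]; exact hu.2

/-- reality of the lines -/
theorem Rd.conj (N : Lines κ Λ H Φ r e α p J) (T : Rd α p R e₁ A P)
    (hRc : ∀ w, R (conj w) = R w) :
    ∀ t w : ℂ, (t, w) ∈ Dm R e₁ → conj (A (conj t, conj w)) = A (t, w) ∧
      conj (P (conj t, conj w)) = P (t, w) := by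
  have hs : Tendsto (fun u : ℂ × ℂ => (conj u.1, conj u.2)) (𝓝 ((0 : ℂ), (0 : ℂ)))
      (𝓝 ((0 : ℂ), (0 : ℂ))) := by
    have hc : Continuous (fun u : ℂ × ℂ => (conj u.1, conj u.2)) :=
      (continuous_conj.comp continuous_fst).prodMk (continuous_conj.comp continuous_snd)
    have h1 := hc.tendsto ((0 : ℂ), (0 : ℂ))
    simpa using h1
  have h0 := T.eq 0
  rw [ofReal_zero] at h0
  have h1 := hs.eventually h0
  have hW : ∀ᶠ u in 𝓝 ((0 : ℂ), (0 : ℂ)), u ∈ WW 0 r e :=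
    (isOpen_WW _ _ _).mem_nhds ⟨by simpa using N.he, by simpa using N.hr⟩
  have k1 := T.eqOn (an_conj T.op T.aA T.op fun u hu => Dm_conj hRc hu) T.aA (by
      filter_upwards [h1, h0, hW] with u a b c
      rw [a.1, b.1, N.αre _ _ c, conj_conj])
  have k2 := T.eqOn (an_conj T.op T.aP T.op fun u hu => Dm_conj hRc hu) T.aP (by
      filter_upwards [h1, h0, hW] with u a b c
      rw [a.2, b.2, N.pre _ _ c, conj_conj])
  exact fun t w ht => ⟨k1 ht, k2 ht⟩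

/-- gluing of the upper half with its mirror image -/
theorem glue_conj {f f₂ : ℂ × ℂ → ℂ} {b₀ b' ε : ℝ} {u : ℝ} (hb₀ : 0 < b₀) (hbb : b₀ < b')
    (hf₂ : AnalyticOnNhd ℂ f₂ (Sr b₀ b' ×ˢ ball (u : ℂ) ε))
    (heq : ∀ t w : ℂ, |t.im| < b₀ → w ∈ ball (u : ℂ) ε → f₂ (t, w) = f (t, w))
    (hre : ∀ t w : ℂ, |t.im| < b₀ → w ∈ ball (u : ℂ) ε → conj (f (conj t, conj w)) = f (t, w)) :
    ∃ g : ℂ × ℂ → ℂ, AnalyticOnNhd ℂ g (Str b' ×ˢ ball (u : ℂ) ε) ∧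
      ∀ t w : ℂ, |t.im| < b₀ → w ∈ ball (u : ℂ) ε → g (t, w) = f (t, w) := by
  classical
  have hcb : ∀ w : ℂ, w ∈ ball (u : ℂ) ε → conj w ∈ ball (u : ℂ) ε := by
    intro w hw
    rw [mem_ball, dist_eq_norm] at hw ⊢
    rw [← norm_conj, map_sub, conj_conj, conj_ofReal]
    exact hw
  set f₃ : ℂ × ℂ → ℂ := fun z => conj (f₂ (conj z.1, conj z.2)) with hf₃
  set S' : Set (ℂ × ℂ) := {t : ℂ | -b' < t.im ∧ t.im < b₀} ×ˢ ball (u : ℂ) ε with hS'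
  have hS'o : IsOpen S' := ((isOpen_lt continuous_const continuous_im).inter
    (isOpen_lt continuous_im continuous_const)).prod isOpen_ball
  have af₃ : AnalyticOnNhd ℂ f₃ S' := by
    refine an_conj ((isOpen_Sr _ _).prod isOpen_ball) hf₂ hS'o ?_
    rintro ⟨t, w⟩ ⟨⟨h1, h2⟩, h3⟩
    refine ⟨⟨?_, ?_⟩, hcb w h3⟩
    · show -b₀ < (conj t).im
      rw [conj_im]; linarith
    · show (conj t).im < b'
      rw [conj_im]; linarith
  have h23 : ∀ t w : ℂ, |t.im| < b₀ → w ∈ ball (u : ℂ) ε → f₂ (t, w) = f₃ (t, w) := by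
    intro t w h1 h2
    rw [heq t w h1 h2, ← hre t w h1 h2]
    show _ = conj (f₂ (conj t, conj w))
    rw [heq (conj t) (conj w) (by rw [conj_im, abs_neg]; exact h1) (hcb w h2)]
  set g : ℂ × ℂ → ℂ := fun z => if -b₀ < z.1.im then f₂ z else f₃ z with hg
  have g2 : ∀ z : ℂ × ℂ, -b₀ < z.1.im → g z = f₂ z := fun z hz => if_pos hz
  have g3 : ∀ z : ℂ × ℂ, z.1.im < b₀ → z.2 ∈ ball (u : ℂ) ε → g z = f₃ z := by
    intro z hz hzw
    by_cases h : -b₀ < z.1.im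
    · rw [g2 z h]
      exact h23 z.1 z.2 (abs_lt.2 ⟨h, hz⟩) hzw
    · exact if_neg h
  refine ⟨g, ?_, ?_⟩
  · rintro ⟨t, w⟩ ⟨h1, h2⟩
    have h1' := abs_lt.1 (show |t.im| < b' from h1)
    by_cases h : -b₀ < t.im
    · refine (hf₂ (t, w) ⟨⟨h, h1'.2⟩, h2⟩).congr ?_
      have e1 : ∀ᶠ z : ℂ × ℂ in 𝓝 (t, w), -b₀ < z.1.im :=
        (isOpen_lt continuous_const (continuous_im.comp continuous_fst)).mem_nhds h
      filter_upwards [e1] with z hz using (g2 z hz).symm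
    · push Not at h
      have h3 : t.im < b₀ := by linarith
      refine (af₃ (t, w) ⟨⟨h1'.1, h3⟩, h2⟩).congr ?_
      have e1 : ∀ᶠ z : ℂ × ℂ in 𝓝 (t, w), z.1.im < b₀ :=
        (isOpen_lt (continuous_im.comp continuous_fst) continuous_const).mem_nhds h3
      have e2 : ∀ᶠ z : ℂ × ℂ in 𝓝 (t, w), z.2 ∈ ball (u : ℂ) ε :=
        (isOpen_ball.preimage continuous_snd).mem_nhds h2
      filter_upwards [e1, e2] with z hz hz' using (g3 z hz hz').symm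
  · intro t w h1 h2
    rw [g2 (t, w) (abs_lt.1 h1).1]
    exact heq t w h1 h2

/-- **R0.4, whole line** : at an irrational label the lines cannot be regular at one point of the
first singular height without being regular on the whole line and above -/
theorem whole_line (hF : FCT) {b : ℝ} {F q Q : ℂ → ℂ} (hE : CC.En κ Λ b H Φ r e α p J F q)
    (hB : CC.Bs Λ b F q Q) : ∃ e₀ > 0, ∀ {R : ℂ → ℝ} {e₁ : ℝ} {A P : ℂ × ℂ → ℂ},
    Rd α p R e₁ A P → e₁ ≤ e₀ → (∀ w, R (conj w) = R w) → ∀ {u : ℝ}, Irrational u → |u| < e₁ →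
    ∀ {x₀ : ℝ}, JR R e₁ A P ((x₀ : ℂ) + R u * I, (u : ℂ)) → ∃ b' > R u, ExtL R e₁ A P u b' := by
  obtain ⟨r₀, θ, L⟩ := exists_locC hE.ctx hE.b0 hE.dF hE.dq hE.re
  have N := hE.ctx.ln
  refine ⟨r₀, L.r0, ?_⟩
  intro R e₁ A P T he hRc u hu hue x₀ hJ
  obtain ⟨ρ, hρ, A₁, P₁, hA₁, hP₁, hAP⟩ := hJ
  have hun : ‖(u : ℂ)‖ < e₁ := by rw [norm_real, Real.norm_eq_abs]; exact hue
  set c : ℝ := R u with hc
  have hc0 : 0 < c := T.R0 u hun
  set al : ℝ := max 0 (c - ρ / 2) with hal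
  set b₀ : ℝ := max (c / 2) (c - ρ / 4) with hb₀
  have hb₀0 : 0 < b₀ := lt_of_lt_of_le (by positivity) (le_max_left _ _)
  have hb₀c : b₀ < c := max_lt (by linarith) (by linarith)
  have hal0 : 0 ≤ al := le_max_left _ _
  have hal1 : c - ρ / 2 ≤ al := le_max_right _ _
  have hab : al < b₀ := max_lt hb₀0 (lt_of_lt_of_le (by linarith) (le_max_right _ _))
  -- lower semicontinuity of `R`
  obtain ⟨ε₁, hε₁, hlsc⟩ : ∃ ε₁ > 0, ∀ w ∈ ball (u : ℂ) ε₁, b₀ ≤ R w := by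
    have h1 : ((b₀ : ℂ) * I, (u : ℂ)) ∈ Dm R e₁ := by
      refine ⟨?_, hun⟩
      show |((b₀ : ℂ) * I).im| < R u
      have : ((b₀ : ℂ) * I).im = b₀ := by simp
      rw [this, abs_of_pos hb₀0]
      exact hb₀c
    obtain ⟨ε₁, hε₁, hsub⟩ := Metric.isOpen_iff.1 T.op _ h1
    refine ⟨ε₁, hε₁, fun w hw => ?_⟩
    have h2 : ((b₀ : ℂ) * I, w) ∈ ball ((b₀ : ℂ) * I, (u : ℂ)) ε₁ := by
      rw [mem_ball, Prod.dist_eq]
      exact max_lt (by simpa using hε₁) hw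
    have h3 : |((b₀ : ℂ) * I).im| < R w := (hsub h2).1
    have h4 : ((b₀ : ℂ) * I).im = b₀ := by simp
    rw [h4, abs_of_pos hb₀0] at h3
    exact h3.le
  set ε : ℝ := min ε₁ ρ with hε
  have hε0 : 0 < ε := lt_min hε₁ hρ
  have hRb : ∀ w ∈ ball (u : ℂ) ε, ‖w‖ < e₁ → b₀ ≤ R w := fun w hw _ =>
    hlsc w (ball_subset_ball (min_le_left _ _) hw)
  have hcol : Cl x₀ (ρ / 2) al (c + ρ / 2) ×ˢ ball (u : ℂ) ε ⊆
      ball ((x₀ : ℂ) + c * I, (u : ℂ)) ρ := by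
    rintro ⟨t, w⟩ ⟨⟨h1, h2, h3⟩, h4⟩
    rw [mem_ball, Prod.dist_eq]
    refine max_lt ?_ (lt_of_lt_of_le h4 (min_le_right _ _))
    rw [dist_eq_norm]
    refine (norm_le_abs_re_add_abs_im _).trans_lt ?_
    have f1 : (t - ((x₀ : ℂ) + c * I)).re = t.re - x₀ := by simp
    have f2 : (t - ((x₀ : ℂ) + c * I)).im = t.im - c := by simp
    show |(t - ((x₀ : ℂ) + c * I)).re| + |(t - ((x₀ : ℂ) + c * I)).im| < ρ
    rw [f1, f2]
    have h5 : |t.im - c| < ρ / 2 := abs_lt.2 ⟨by linarith, by linarith⟩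
    linarith
  have heq : ∀ t w : ℂ, |t.re - x₀| < ρ / 2 → al < t.im → t.im < b₀ → w ∈ ball (u : ℂ) ε →
      ‖w‖ < e₁ → A₁ (t, w) = A (t, w) ∧ P₁ (t, w) = P (t, w) := by
    intro t w h1 h2 h3 h4 h5
    refine hAP _ (hcol ⟨⟨h1, h2, by linarith⟩, h4⟩) ⟨?_, h5⟩
    show |t.im| < R w
    have := hRb w h4 h5
    exact abs_lt.2 ⟨by linarith, by linarith⟩
  have hlp : ∀ v : ℝ, |v| < e₁ → v ≠ 0 → LP b F q A P v := fun v hv _ =>
    lp_of_loc N L T hv (lt_of_lt_of_le hv he)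
  obtain ⟨ε', hε', hε'ε, hb, A₂, P₂, hA₂, hP₂, hAP₂⟩ := whole hF CC.rowLift hE.ctx hE.na hB T hlp hu
    hue hb₀0 hε0 hRb (half_pos hρ) hal0 hab (by linarith : b₀ < c + ρ / 2) (hA₁.mono hcol)
    (hP₁.mono hcol) heq (b' := c + ρ / 4) (by linarith)
  have hbb : b₀ < c + ρ / 4 := by linarith
  have hmem : ∀ t w : ℂ, |t.im| < b₀ → w ∈ ball (u : ℂ) ε' → (t, w) ∈ Dm R e₁ := by
    intro t w h1 h2
    have h3 : ‖w‖ < e₁ := by simpa using hb h2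
    exact ⟨h1.trans_le (hRb w (ball_subset_ball hε'ε h2) h3), h3⟩
  have hlow : ∀ t w : ℂ, |t.im| < b₀ → w ∈ ball (u : ℂ) ε' →
      A₂ (t, w) = A (t, w) ∧ P₂ (t, w) = P (t, w) := fun t w h1 h2 =>
    hAP₂ t w h1 h2 (Sr_of hbb.le h1)
  have hreal := T.conj N hRc
  obtain ⟨A₃, hA₃, hA₃'⟩ := glue_conj hb₀0 hbb hA₂ (fun t w h1 h2 => (hlow t w h1 h2).1)
    (fun t w h1 h2 => (hreal t w (hmem t w h1 h2)).1)
  obtain ⟨P₃, hP₃, hP₃'⟩ := glue_conj hb₀0 hbb hP₂ (fun t w h1 h2 => (hlow t w h1 h2).2)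
    (fun t w h1 h2 => (hreal t w (hmem t w h1 h2)).2)
  refine ⟨c + ρ / 4, by linarith, ε', hε', hb, A₃, P₃, hA₃, hP₃, fun t w ht hw htR => ?_⟩
  -- vertical identity theorem
  have hRw : b₀ ≤ R w := hRb w (ball_subset_ball hε'ε hw) (by simpa using hb hw)
  have hwe : ‖w‖ < e₁ := by simpa using hb hw
  set s : ℝ := min (R w) (c + ρ / 4) with hs
  have hs0 : 0 < s := lt_min (by linarith) (by linarith)
  have m0 : (0 : ℂ) ∈ Str s := by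
    show |(0 : ℂ).im| < s
    simpa using hs0
  have mt : t ∈ Str s := lt_min htR ht
  have c1 : ∀ {f : ℂ × ℂ → ℂ}, AnalyticOnNhd ℂ f (Dm R e₁) →
      AnalyticOnNhd ℂ (fun t => f (t, w)) (Str s) := fun hf t ht =>
    (hf (t, w) ⟨lt_of_lt_of_le ht (min_le_left _ _), hwe⟩).comp_of_eq (f := fun t : ℂ => (t, w))
      (analyticAt_id.prod analyticAt_const) rfl
  have c2 : ∀ {f : ℂ × ℂ → ℂ}, AnalyticOnNhd ℂ f (Str (c + ρ / 4) ×ˢ ball (u : ℂ) ε') →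
      AnalyticOnNhd ℂ (fun t => f (t, w)) (Str s) := fun hf t ht =>
    (hf (t, w) ⟨Str_mono (min_le_right _ _) ht, hw⟩).comp_of_eq (f := fun t : ℂ => (t, w))
      (analyticAt_id.prod analyticAt_const) rfl
  have hnear : ∀ᶠ t : ℂ in 𝓝 0, |t.im| < b₀ :=
    (isOpen_lt (f := fun t : ℂ => |t.im|) (by fun_prop) continuous_const).mem_nhds
      (by simpa using hb₀0)
  constructor
  · exact (c2 hA₃).eqOn_of_preconnected_of_eventuallyEq (c1 T.aA) (convex_Str s).isPreconnected m0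
      (hnear.mono fun t ht => hA₃' t w ht hw) mt
  · exact (c2 hP₃).eqOn_of_preconnected_of_eventuallyEq (c1 T.aP) (convex_Str s).isPreconnected m0
      (hnear.mono fun t ht => hP₃' t w ht hw) mt

end

end Vale.Agent.P097.H456.C
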