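import Mathlib

/-! # P097 (helper456) / R0.4: irrational rotations, uniform in the label -/

set_option linter.all false

open Filter Topology Metric Set

namespace Vale.Agent.P097.H456.C

/-- multiples of a small number are dense modulo `1` -/
theorem dens_small {η D : ℝ} (h0 : η ≠ 0) (hD : |η| < D) (y : ℝ) :
    ∃ i : ℕ, (i : ℝ) ≤ 1 / |η| ∧ ∃ m : ℤ, |y - i * η - m| < D := by
  have hη : 0 < |η| := abs_pos.2 h0
  rcases lt_or_gt_of_ne h0 with h | h
  · -- negative
    have he : |η| = -η := abs_of_neg h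
    set m : ℤ := ⌊y⌋ + 1 with hm
    have h1 : (0 : ℝ) ≤ m - y := by
      rw [hm]; push_cast; linarith [Int.lt_floor_add_one y]
    have h2 : (m : ℝ) - y ≤ 1 := by
      rw [hm]; push_cast; linarith [Int.floor_le y]
    refine ⟨⌊(m - y) / |η|⌋₊, ?_, m, ?_⟩
    · refine (Nat.floor_le (by positivity)).trans ?_
      gcongr
    · have h3 : (⌊(m - y) / |η|⌋₊ : ℝ) ≤ (m - y) / |η| := Nat.floor_le (by positivity)
      have h4 : (m - y) / |η| < ⌊(m - y) / |η|⌋₊ + 1 := Nat.lt_floor_add_one _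
      rw [le_div_iff₀ hη] at h3
      rw [div_lt_iff₀ hη] at h4
      rw [he] at h3 h4 hD
      have h5 : ((-η) : ℝ) = |η| := he.symm
      simp only [← he] at h3 h4 ⊢
      rw [abs_lt]
      rw [he] at h3 h4 ⊢
      constructor
      · nlinarith
      · nlinarith
  · have he : |η| = η := abs_of_pos h
    set m : ℤ := ⌊y⌋ with hm
    have h1 : (0 : ℝ) ≤ y - m := by linarith [Int.floor_le y]
    have h2 : y - m ≤ 1 := by linarith [Int.lt_floor_add_one y]
    refine ⟨⌊(y - m) / |η|⌋₊, ?_, m, ?_⟩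
    · refine (Nat.floor_le (by positivity)).trans ?_
      gcongr
    · have h3 : (⌊(y - m) / |η|⌋₊ : ℝ) ≤ (y - m) / |η| := Nat.floor_le (by positivity)
      have h4 : (y - m) / |η| < ⌊(y - m) / |η|⌋₊ + 1 := Nat.lt_floor_add_one _
      rw [le_div_iff₀ hη] at h3
      rw [div_lt_iff₀ hη] at h4
      rw [he] at h3 h4 ⊢
      rw [he] at hD
      rw [abs_lt]
      constructor
      · nlinarith
      · nlinarith

/-- **uniform density** of forward orbits near an irrational label -/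
theorem dens_unif {u D : ℝ} (hu : Irrational u) (hD : 0 < D) :
    ∃ N : ℕ, ∃ n : ℕ, N ≤ n ∧ ∃ ε > 0, ∀ v : ℝ, |v - u| < ε →
      (∀ y : ℝ, ∃ i : ℕ, i ≤ N ∧ ∃ m : ℤ, |y - i * v - m| < D) ∧ ∃ m : ℤ, |n * v - m| < D := by
  obtain ⟨n₀, hn₀⟩ := exists_nat_gt (2 / D)
  have hn₀0 : 0 < n₀ := by
    rcases Nat.eq_zero_or_pos n₀ with h | h
    · rw [h] at hn₀
      have : 0 < 2 / D := by positivity
      simp at hn₀
      linarith
    · exact h
  obtain ⟨j, k, hk, hkn, hjk⟩ := Real.exists_int_int_abs_mul_sub_le u hn₀0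
  obtain ⟨k, rfl⟩ := Int.eq_ofNat_of_zero_le hk.le
  have hk' : 0 < k := by exact_mod_cast hk
  have hkR : (0 : ℝ) < k := by exact_mod_cast hk'
  set η : ℝ := k * u - j with hη
  have hη1 : |η| < D / 2 := by
    have h1 : |η| ≤ 1 / ((n₀ : ℝ) + 1) := by
      have := hjk
      push_cast at this
      exact this
    refine h1.trans_lt ?_
    rw [div_lt_iff₀ hD] at hn₀
    rw [div_lt_iff₀ (by positivity)]
    nlinarith
  have hη0 : η ≠ 0 := by
    intro h
    have h1 : Irrational ((k : ℝ) * u - j) := by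
      have h2 : Irrational ((k : ℝ) * u) := by
        have := hu.natCast_mul (m := k) (by omega)
        exact this
      exact h2.sub_intCast j
    rw [← hη, h] at h1
    exact h1.ne_zero rfl
  have hηp : 0 < |η| := abs_pos.2 hη0
  obtain ⟨S, hS⟩ := exists_nat_gt (2 / |η|)
  set N : ℕ := k * S with hN
  obtain ⟨M, hM⟩ := exists_nat_gt (2 * N / D)
  have hM0 : 0 < M + 1 := Nat.succ_pos _
  obtain ⟨j', k', hk1, hk2, hjk'⟩ := Real.exists_int_int_abs_mul_sub_le u hM0
  obtain ⟨k', rfl⟩ := Int.eq_ofNat_of_zero_le hk1.le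
  have hk1' : 0 < k' := by exact_mod_cast hk1
  have hSp : 0 < S := by
    rcases Nat.eq_zero_or_pos S with h | h
    · rw [h] at hS
      have : 0 < 2 / |η| := by positivity
      simp at hS
      linarith
    · exact h
  have hNR : (0 : ℝ) < N := by
    rw [hN]; push_cast
    have : (0 : ℝ) < S := by exact_mod_cast hSp
    positivity
  have hclose : |((N * k' : ℕ) : ℝ) * u - ((N : ℤ) * j' : ℤ)| < D / 2 := by
    have h1 : |(k' : ℝ) * u - j'| ≤ 1 / ((M + 1 : ℕ) + 1 : ℝ) := by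
      have := hjk'
      push_cast at this
      push_cast
      exact this
    have h2 : ((N * k' : ℕ) : ℝ) * u - ((N : ℤ) * j' : ℤ) = N * ((k' : ℝ) * u - j') := by
      push_cast; ring
    rw [h2, abs_mul, abs_of_pos hNR]
    refine (mul_le_mul_of_nonneg_left h1 hNR.le).trans_lt ?_
    rw [mul_one_div, div_lt_iff₀ (by positivity)]
    rw [div_lt_iff₀ hD] at hM
    push_cast
    nlinarith
  -- neighbourhoods
  have e1 : ∀ᶠ v in 𝓝 u, |(k : ℝ) * v - j| < D := by
    have h : Continuous fun v : ℝ => |(k : ℝ) * v - j| := by fun_prop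
    exact (h.tendsto u).eventually_lt_const (by show |(k : ℝ) * u - j| < D; rw [← hη]; linarith)
  have e2 : ∀ᶠ v in 𝓝 u, |η| / 2 < |(k : ℝ) * v - j| := by
    have h : Continuous fun v : ℝ => |(k : ℝ) * v - j| := by fun_prop
    exact (h.tendsto u).eventually_const_lt (by show |η| / 2 < |(k : ℝ) * u - j|; rw [← hη]; linarith)
  have e3 : ∀ᶠ v in 𝓝 u, |((N * k' : ℕ) : ℝ) * v - ((N : ℤ) * j' : ℤ)| < D := by
    have h : Continuous fun v : ℝ => |((N * k' : ℕ) : ℝ) * v - ((N : ℤ) * j' : ℤ)| := by fun_prop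
    exact (h.tendsto u).eventually_lt_const (by
      show |((N * k' : ℕ) : ℝ) * u - ((N : ℤ) * j' : ℤ)| < D
      linarith)
  obtain ⟨ε, hε, hball⟩ := Metric.eventually_nhds_iff.1 (e1.and (e2.and e3))
  refine ⟨N, N * k', Nat.le_mul_of_pos_right _ hk1', ε, hε, fun v hv => ?_⟩
  obtain ⟨h1, h2, h3⟩ := hball (show dist v u < ε by rw [Real.dist_eq]; exact hv)
  refine ⟨fun y => ?_, _, h3⟩
  have h0 : (k : ℝ) * v - j ≠ 0 := by
    intro h
    rw [h, abs_zero] at h2
    linarith
  obtain ⟨i, hi, m, hm⟩ := dens_small h0 h1 y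
  refine ⟨i * k, ?_, m - i * j, ?_⟩
  · have h4 : (i : ℝ) ≤ S := by
      refine hi.trans (le_of_lt (lt_of_le_of_lt ?_ hS))
      rw [div_le_div_iff₀ (by linarith) hηp]
      linarith
    have h5 : i ≤ S := by exact_mod_cast h4
    rw [hN, mul_comm]
    exact Nat.mul_le_mul_left _ h5
  · have e : y - ((i * k : ℕ) : ℝ) * v - ((m - i * j : ℤ) : ℝ) = y - i * ((k : ℝ) * v - j) - m := by
      push_cast; ring
    rw [e]
    exact hm

end Vale.Agent.P097.H456.C
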