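import Vale.Agent.P097.H456.C.Step
import Vale.Agent.P097.H456.C.Rot
import Vale.Agent.P097.H456.Sp.Main
import Vale.Agent.P097.H456.Sp.Joint
import Vale.Agent.P097.H222.SpR

/-! # P097 (helper456) / R0.4: whole line, case [c] -/

set_option linter.all false

open Complex Metric Set Filter Topology

namespace Vale.Agent.P097.H456.C

open Vale.Agent.P097 Vale.Agent.P097.TA Vale.Agent.P097.H202 Vale.Agent.P097.SC
open Vale.Agent.P097.H456.Fct Vale.Agent.P097.H456.Sp Vale.Agent.P097.CC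

/-- the points of the column are good -/
theorem gd_colC {κ Λ : ℝ} {H Φ : ℂ → ℂ} {r e : ℝ} {α p : ℂ → ℂ → ℂ} {J : ℂ → ℂ}
    (N : Lines κ Λ H Φ r e α p J) {R : ℂ → ℝ} {e₁ b₀ x' D al b₁ u ε : ℝ} {A P A₁ P₁ : ℂ × ℂ → ℂ}
    (T : Rd α p R e₁ A P) (hb₀ : 0 < b₀) (hRb : ∀ w ∈ ball (u : ℂ) ε, ‖w‖ < e₁ → b₀ ≤ R w)
    (hab : al < b₀)
    (hA₁ : AnalyticOnNhd ℂ A₁ (Cl x' D al b₁ ×ˢ ball (u : ℂ) ε))
    (hP₁ : AnalyticOnNhd ℂ P₁ (Cl x' D al b₁ ×ˢ ball (u : ℂ) ε))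
    (heq : ∀ t w : ℂ, |t.re - x'| < D → al < t.im → t.im < b₀ → w ∈ ball (u : ℂ) ε → ‖w‖ < e₁ →
      A₁ (t, w) = A (t, w) ∧ P₁ (t, w) = P (t, w)) {v : ℝ} (hv : |v| < e₁)
    (hvu : (v : ℂ) ∈ ball (u : ℂ) ε) {c : ℝ} (hc : b₀ ≤ c) (hc1 : c < b₁) {a s : ℂ → ℂ}
    (ha : AnalyticOnNhd ℂ a (Sr b₀ c)) (hs : AnalyticOnNhd ℂ s (Sr b₀ c))
    (hag : ∀ t : ℂ, |t.im| < b₀ → a t = A (t, v) ∧ s t = P (t, v)) {x : ℝ} {m : ℤ}
    (hm : |x - x' - m| < D) : Gd c a s x := by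
  have hvn : ‖(v : ℂ)‖ < e₁ := by rw [norm_real, Real.norm_eq_abs]; exact hv
  have hRv : b₀ ≤ R v := hRb v hvu hvn
  set K : Set ℂ := {t : ℂ | |t.re - (x' + m)| < D ∧ (max al (-b₀) < t.im ∧ t.im < c)} with hK
  have hKo : IsOpen K := by
    refine (isOpen_lt (f := fun t : ℂ => |t.re - (x' + m)|) (by fun_prop) continuous_const).inter
      ((isOpen_lt continuous_const continuous_im).inter (isOpen_lt continuous_im continuous_const))
  have hKc : Convex ℝ K := by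
    have h1 : Convex ℝ {t : ℂ | |t.re - (x' + m)| < D} := by
      have e : {t : ℂ | |t.re - (x' + m)| < D} =
          {t : ℂ | (x' + m) - D < t.re} ∩ {t : ℂ | t.re < (x' + m) + D} := by
        ext t
        simp only [mem_setOf_eq, mem_inter_iff, abs_lt]
        constructor
        · rintro ⟨h1, h2⟩; exact ⟨by linarith, by linarith⟩
        · rintro ⟨h1, h2⟩; exact ⟨by linarith, by linarith⟩
      rw [e]
      exact (convex_halfSpace_re_gt _).inter (convex_halfSpace_re_lt _)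
    exact h1.inter ((convex_halfSpace_im_gt _).inter (convex_halfSpace_im_lt _))
  have hcol : ∀ t : ℂ, |t.re - (x' + m)| < D → al < t.im → t.im < b₁ →
      (t - m, (v : ℂ)) ∈ Cl x' D al b₁ ×ˢ ball (u : ℂ) ε := by
    intro t h1 h2 h3
    refine ⟨⟨?_, by simpa using h2, by simpa using h3⟩, hvu⟩
    rw [sub_re, intCast_re, show t.re - (m : ℝ) - x' = t.re - (x' + m) by ring]
    exact h1
  have an1 : ∀ {f : ℂ × ℂ → ℂ}, AnalyticOnNhd ℂ f (Cl x' D al b₁ ×ˢ ball (u : ℂ) ε) →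
      ∀ t : ℂ, |t.re - (x' + m)| < D → al < t.im → t.im < b₁ →
      AnalyticAt ℂ (fun t => f (t - m, (v : ℂ))) t := fun hf t h1 h2 h3 =>
    (hf _ (hcol t h1 h2 h3)).comp_of_eq (f := fun t : ℂ => (t - m, (v : ℂ)))
      ((analyticAt_id.sub analyticAt_const).prod analyticAt_const) rfl
  set a' : ℂ → ℂ := fun t => A₁ (t - m, (v : ℂ)) + m * (2 * Real.pi) with ha'
  set s' : ℂ → ℂ := fun t => P₁ (t - m, (v : ℂ)) with hs'
  -- equality at low points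
  have hlow : ∀ t : ℂ, |t.re - (x' + m)| < D → al < t.im → -b₀ < t.im → t.im < b₀ →
      a' t = a t ∧ s' t = s t := by
    intro t h1 h2 h3 h4
    have h5 : |t.im| < b₀ := abs_lt.2 ⟨h3, h4⟩
    have h6 := heq (t - m) v (by
      rw [sub_re, intCast_re, show t.re - (m : ℝ) - x' = t.re - (x' + m) by ring]
      exact h1) (by simpa using h2) (by simpa using h4) hvu hvn
    have h7 := int_per (f := A) (k := 2 * Real.pi) (w := v) (b₀ := b₀)
      (fun t ht => (T.per N t v ⟨ht.trans_le hRv, hvn⟩).1) m (t - m) (by simpa using h5)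
    have h8 := int_per (f := P) (k := 0) (w := v) (b₀ := b₀)
      (fun t ht => by rw [(T.per N t v ⟨ht.trans_le hRv, hvn⟩).2, add_zero]) m (t - m)
      (by simpa using h5)
    rw [sub_add_cancel] at h7 h8
    rw [(hag t h5).1, (hag t h5).2, h7, h8, ← h6.1, ← h6.2]
    exact ⟨rfl, by simp only [hs', mul_zero, add_zero]⟩
  have hmax : max al (-b₀) < b₀ := max_lt hab (by linarith)
  obtain ⟨y, hy1, hy2⟩ := exists_between hmax
  have hyK : ((x : ℂ) + y * I) ∈ K := by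
    refine ⟨?_, ?_, ?_⟩
    · show |((x : ℂ) + y * I).re - (x' + m)| < D
      have e : ((x : ℂ) + y * I).re - (x' + m) = x - x' - m := by simp; ring
      rw [e]; exact hm
    · show max al (-b₀) < ((x : ℂ) + y * I).im
      simpa using hy1
    · show ((x : ℂ) + y * I).im < c
      have : ((x : ℂ) + y * I).im = y := by simp
      rw [this]; linarith
  have hyim : ((x : ℂ) + y * I).im = y := by simp
  have hnear : ∀ᶠ t in 𝓝 ((x : ℂ) + y * I), a' t = a t ∧ s' t = s t := by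
    have g1 : ∀ᶠ t in 𝓝 ((x : ℂ) + y * I), t.im < b₀ :=
      (isOpen_lt continuous_im continuous_const).mem_nhds (by rw [mem_setOf_eq, hyim]; exact hy2)
    filter_upwards [hKo.mem_nhds hyK, g1] with t ht1 ht2
    exact hlow t ht1.1 ((le_max_left _ _).trans_lt ht1.2.1) ((le_max_right _ _).trans_lt ht1.2.1) ht2
  have hKS : K ⊆ Sr b₀ c := fun t ht => ⟨(le_max_right _ _).trans_lt ht.2.1, ht.2.2⟩
  have e1 : EqOn a' a K := by
    refine AnalyticOnNhd.eqOn_of_preconnected_of_eventuallyEq (fun t ht => ?_) (ha.mono hKS)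
      hKc.isPreconnected hyK (hnear.mono fun t ht => ht.1)
    exact (an1 hA₁ t ht.1 ((le_max_left _ _).trans_lt ht.2.1) (ht.2.2.trans hc1)).add analyticAt_const
  have e2 : EqOn s' s K := by
    refine AnalyticOnNhd.eqOn_of_preconnected_of_eventuallyEq (fun t ht => ?_) (hs.mono hKS)
      hKc.isPreconnected hyK (hnear.mono fun t ht => ht.2)
    exact an1 hP₁ t ht.1 ((le_max_left _ _).trans_lt ht.2.1) (ht.2.2.trans hc1)
  -- the ball
  set R' : ℝ := min (D - |x - x' - m|) (min (c - max al (-b₀)) (b₁ - c)) with hR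
  have hR0 : 0 < R' := lt_min (by linarith) (lt_min (by linarith) (by linarith))
  have hR1 : R' ≤ D - |x - x' - m| := min_le_left _ _
  have hR2 : R' ≤ c - max al (-b₀) := (min_le_right _ _).trans (min_le_left _ _)
  have hR3 : R' ≤ b₁ - c := (min_le_right _ _).trans (min_le_right _ _)
  have hball : ∀ t ∈ ball ((x : ℂ) + c * I) R', |t.re - (x' + m)| < D ∧ max al (-b₀) < t.im ∧
      t.im < b₁ := by
    intro t ht
    rw [mem_ball, dist_eq_norm] at ht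
    have h1 := (abs_re_le_norm (t - ((x : ℂ) + c * I))).trans_lt ht
    have h2 := (abs_im_le_norm (t - ((x : ℂ) + c * I))).trans_lt ht
    have f1 : (t - ((x : ℂ) + c * I)).re = t.re - x := by simp
    have f2 : (t - ((x : ℂ) + c * I)).im = t.im - c := by simp
    rw [f1] at h1
    rw [f2] at h2
    have h3 := abs_lt.1 h2
    refine ⟨?_, by linarith [h3.1], by linarith [h3.2]⟩
    have h4 := abs_add_le (t.re - x) (x - x' - m)
    rw [show t.re - (x' + m) = t.re - x + (x - x' - m) by ring]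
    linarith
  refine ⟨R', hR0, a', s', fun t ht => ?_, fun t ht => ?_, fun t ht htc => ?_⟩
  · obtain ⟨h1, h2, h3⟩ := hball t ht
    exact (an1 hA₁ t h1 ((le_max_left _ _).trans_lt h2) h3).add analyticAt_const
  · obtain ⟨h1, h2, h3⟩ := hball t ht
    exact an1 hP₁ t h1 ((le_max_left _ _).trans_lt h2) h3
  · obtain ⟨h1, h2, h3⟩ := hball t ht
    exact ⟨e1 ⟨h1, h2, htc⟩, e2 ⟨h1, h2, htc⟩⟩

/-- **all points of the line are good** -/
theorem gd_allC (hF : FCT) (hL : CC.RowLift) {κ Λ b : ℝ} {H Φ : ℂ → ℂ} {r e : ℝ}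
    {α p : ℂ → ℂ → ℂ} {J F q Q : ℂ → ℂ} (hC : Ctx κ Λ H Φ r e α p J) (na : ¬ HAlg κ H)
    (hB : CC.Bs Λ b F q Q) {R : ℂ → ℝ} {e₁ b₀ x' D al b₁ u ε : ℝ} {A P A₁ P₁ : ℂ × ℂ → ℂ}
    (T : Rd α p R e₁ A P) (hb₀ : 0 < b₀) (hRb : ∀ w ∈ ball (u : ℂ) ε, ‖w‖ < e₁ → b₀ ≤ R w)
    (hD : D ≤ 1 / 2) (hal : 0 ≤ al) (hab : al < b₀) (hbb : b₀ ≤ b₁)
    (hA₁ : AnalyticOnNhd ℂ A₁ (Cl x' D al b₁ ×ˢ ball (u : ℂ) ε))
    (hP₁ : AnalyticOnNhd ℂ P₁ (Cl x' D al b₁ ×ˢ ball (u : ℂ) ε))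
    (heq : ∀ t w : ℂ, |t.re - x'| < D → al < t.im → t.im < b₀ → w ∈ ball (u : ℂ) ε → ‖w‖ < e₁ →
      A₁ (t, w) = A (t, w) ∧ P₁ (t, w) = P (t, w)) {v : ℝ} (hv : |v| < e₁)
    (hvu : (v : ℂ) ∈ ball (u : ℂ) ε) {c : ℝ} (hc : b₀ ≤ c) (hc1 : c < b₁) {a s θ : ℂ → ℂ}
    (ha : AnalyticOnNhd ℂ a (Sr b₀ c)) (hs : AnalyticOnNhd ℂ s (Sr b₀ c))
    (hag : ∀ t : ℂ, |t.im| < b₀ → a t = A (t, v) ∧ s t = P (t, v))
    (hθ : PsC b F q v b₀ c a s θ) {M n : ℕ} (hMn : M ≤ n)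
    (hden : ∀ y : ℝ, ∃ i : ℕ, i ≤ M ∧ ∃ m : ℤ, |y - i * v - m| < D / 2)
    (hnv : ∃ m : ℤ, |n * v - m| < D / 2) (x : ℝ) : Gd c a s x := by
  have N := hC.ln
  have hvn : ‖(v : ℂ)‖ < e₁ := by rw [norm_real, Real.norm_eq_abs]; exact hv
  have hcol : ∀ (x : ℝ) (m : ℤ), |x - x' - m| < D → Gd c a s x := fun x m hm =>
    gd_colC N T hb₀ hRb hab hA₁ hP₁ heq hv hvu hc hc1 ha hs hag hm
  obtain ⟨A', P', Rg', hR⟩ := exists_Rk N T hD hal hab hbb hRb hA₁ hP₁ heq (v := v) hv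
  have hmemD : ∀ (y : ℝ) (m : ℤ), |y - x' - m| < D →
      ((y : ℂ) + c * I, (v : ℂ)) ∈ Dk R e₁ b₀ x' D b₁ u ε := by
    intro y m hm
    refine ⟨hvn, Or.inr ⟨hvu, ?_, ?_, m, ?_⟩⟩
    · show -b₀ < ((y : ℂ) + c * I).im
      simp; linarith
    · show ((y : ℂ) + c * I).im < b₁
      simpa using hc1
    · show |((y : ℂ) + c * I).re - x' - m| < D
      simpa using hm
  -- the base point
  obtain ⟨k, hkM, m, hm⟩ := hden (x - x')
  obtain ⟨mn, hmn⟩ := hnv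
  set xb : ℝ := x - k * v with hxb
  have hbase : |xb - x' - m| < D / 2 := by
    rw [hxb, show x - k * v - x' - m = x - x' - k * v - m by ring]; exact hm
  have hD0 : 0 < D := by
    have := (abs_nonneg _).trans_lt hbase
    linarith
  -- the chain
  have hchain : ∀ i : ℕ, i ≤ k → Gd c a s (xb + i * v) := by
    intro i
    induction i with
    | zero => intro _; simpa using hcol xb m (by linarith)
    | succ i ih =>
      intro hik
      have hin : i + 1 ≤ n := by omega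
      set x₁ : ℝ := xb + ((i + 1 : ℕ) : ℝ) * v with hx₁
      set t₁ : ℂ := (x₁ : ℂ) + c * I with ht₁
      have e1 : t₁ - ((i + 1 : ℕ) : ℂ) * v = (xb : ℂ) + c * I := by
        rw [ht₁, hx₁]; push_cast; ring
      have e2 : t₁ - ((i + 1 : ℕ) : ℂ) * v + n * v = ((xb + n * v : ℝ) : ℂ) + c * I := by
        rw [e1]; push_cast; ring
      have hre : t₁.re = x₁ := by simp [ht₁]
      have h0 : (t₁ - ((i + 1 : ℕ) : ℂ) * v, (v : ℂ)) ∈ Dk R e₁ b₀ x' D b₁ u ε := by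
        rw [e1]; exact hmemD xb m (by linarith)
      have h1 : (t₁ - ((i + 1 : ℕ) : ℂ) * v + n * v, (v : ℂ)) ∈ Dk R e₁ b₀ x' D b₁ u ε := by
        rw [e2]
        refine hmemD (xb + n * v) (m + mn) ?_
        push_cast
        have h4 := abs_add_le (xb - x' - m) (n * v - mn)
        rw [show xb + n * v - x' - (m + mn) = xb - x' - m + (n * v - mn) by ring]
        linarith
      obtain ⟨U, hU, hUc, hUs, MZ, MP, mZ, mP, hM⟩ := fct_slice hF hC na Rg' hin h0 h1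
      rw [hre] at hUs hM
      refine stepC hL hB hb₀ hc ha hs hθ ?_ hU hUc hUs mZ mP ?_
      · have e3 : x₁ - v = xb + i * v := by rw [hx₁]; push_cast; ring
        rw [e3]; exact ih (by omega)
      · have g1 : ∀ᶠ t in 𝓝[≠] (x₁ : ℂ), |t.im| < b₀ :=
          nhdsWithin_le_nhds ((isOpen_lt (f := fun t : ℂ => |t.im|) (by fun_prop)
            continuous_const).mem_nhds (by simpa using hb₀))
        filter_upwards [hM, g1] with t h2 h3
        have h3' : |t.im| < R v := h3.trans_le (hRb v hvu hvn)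
        rw [h2.1, h2.2, (hR t v h3').1, (hR t v h3').2, (hag t h3).1, (hag t h3).2]
        exact ⟨rfl, rfl⟩
  have h := hchain k le_rfl
  rwa [show xb + k * v = x by rw [hxb]; ring] at h

/-- **R0.4, strip form** : if the lines extend along one column from `|Im t| < b₀` to the height
`b₁`, near the irrational label `u`, they extend to the whole strip, jointly in the label -/
theorem whole (hF : FCT) (hL : CC.RowLift) {κ Λ b : ℝ} {H Φ : ℂ → ℂ} {r e : ℝ}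
    {α p : ℂ → ℂ → ℂ} {J F q Q : ℂ → ℂ} (hC : Ctx κ Λ H Φ r e α p J) (na : ¬ HAlg κ H)
    (hB : CC.Bs Λ b F q Q) {R : ℂ → ℝ} {e₁ b₀ x' D al b₁ u ε : ℝ} {A P A₁ P₁ : ℂ × ℂ → ℂ}
    (T : Rd α p R e₁ A P) (hP : ∀ v : ℝ, |v| < e₁ → v ≠ 0 → LP b F q A P v) (hu : Irrational u)
    (hue : |u| < e₁) (hb₀ : 0 < b₀) (hε : 0 < ε)
    (hRb : ∀ w ∈ ball (u : ℂ) ε, ‖w‖ < e₁ → b₀ ≤ R w)
    (hD : 0 < D) (hal : 0 ≤ al) (hab : al < b₀) (hbb : b₀ < b₁)
    (hA₁ : AnalyticOnNhd ℂ A₁ (Cl x' D al b₁ ×ˢ ball (u : ℂ) ε))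
    (hP₁ : AnalyticOnNhd ℂ P₁ (Cl x' D al b₁ ×ˢ ball (u : ℂ) ε))
    (heq : ∀ t w : ℂ, |t.re - x'| < D → al < t.im → t.im < b₀ → w ∈ ball (u : ℂ) ε → ‖w‖ < e₁ →
      A₁ (t, w) = A (t, w) ∧ P₁ (t, w) = P (t, w)) {b' : ℝ} (hb' : b' < b₁) :
    ∃ ε' > 0, ε' ≤ ε ∧ ball (u : ℂ) ε' ⊆ ball 0 e₁ ∧ ∃ A₂ P₂ : ℂ × ℂ → ℂ,
      AnalyticOnNhd ℂ A₂ (Sr b₀ b' ×ˢ ball (u : ℂ) ε') ∧
      AnalyticOnNhd ℂ P₂ (Sr b₀ b' ×ˢ ball (u : ℂ) ε') ∧
      ∀ t w : ℂ, |t.im| < b₀ → w ∈ ball (u : ℂ) ε' → t ∈ Sr b₀ b' →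
        A₂ (t, w) = A (t, w) ∧ P₂ (t, w) = P (t, w) := by
  have N := hC.ln
  set D' : ℝ := min D (1 / 2) with hD'
  have hD'1 : D' ≤ D := min_le_left _ _
  have hD'2 : D' ≤ 1 / 2 := min_le_right _ _
  have hD'0 : 0 < D' := lt_min hD (by norm_num)
  obtain ⟨M, n, hMn, ε₁, hε₁, hrot⟩ := dens_unif hu (half_pos hD'0)
  have hu0 : u ≠ 0 := hu.ne_zero
  have hupos : 0 < |u| := abs_pos.2 hu0
  set ε₀ : ℝ := min (min ε ε₁) (min (e₁ - |u|) |u|) with hε₀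
  have k1 : ε₀ ≤ ε := (min_le_left _ _).trans (min_le_left _ _)
  have k2 : ε₀ ≤ ε₁ := (min_le_left _ _).trans (min_le_right _ _)
  have k3 : ε₀ ≤ e₁ - |u| := (min_le_right _ _).trans (min_le_left _ _)
  have k4 : ε₀ ≤ |u| := (min_le_right _ _).trans (min_le_right _ _)
  have k0 : 0 < ε₀ := lt_min (lt_min hε hε₁) (lt_min (by linarith) hupos)
  have hClsub : Cl x' D' al b₁ ×ˢ ball (u : ℂ) ε ⊆ Cl x' D al b₁ ×ˢ ball (u : ℂ) ε :=
    prod_mono (fun t ht => ⟨lt_of_lt_of_le ht.1 hD'1, ht.2⟩) Subset.rfl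
  have heq' : ∀ t w : ℂ, |t.re - x'| < D' → al < t.im → t.im < b₀ → w ∈ ball (u : ℂ) ε →
      ‖w‖ < e₁ → A₁ (t, w) = A (t, w) ∧ P₁ (t, w) = P (t, w) := fun t w h1 h2 h3 h4 h5 =>
    heq t w (lt_of_lt_of_le h1 hD'1) h2 h3 h4 h5
  have hwe : ∀ w ∈ ball (u : ℂ) ε₀, ‖w‖ < e₁ := by
    intro w hw
    rw [mem_ball, dist_eq_norm] at hw
    have h1 := norm_le_norm_add_norm_sub' w (u : ℂ)
    rw [norm_real, Real.norm_eq_abs] at h1
    linarith
  have hwD : ∀ t w : ℂ, |t.im| < b₀ → w ∈ ball (u : ℂ) ε₀ → (t, w) ∈ Dm R e₁ := by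
    intro t w ht hw
    exact ⟨ht.trans_le (hRb w (ball_subset_ball k1 hw) (hwe w hw)), hwe w hw⟩
  -- the slices
  have hsl : ∀ v : ℝ, |v - u| < ε₀ → ∃ a s : ℂ → ℂ, AnalyticOnNhd ℂ a (Sr b₀ b₁) ∧
      AnalyticOnNhd ℂ s (Sr b₀ b₁) ∧ ∀ t : ℂ, |t.im| < b₀ → a t = A (t, v) ∧ s t = P (t, v) := by
    intro v hv
    have hvu₀ : (v : ℂ) ∈ ball (u : ℂ) ε₀ := by
      rw [mem_ball, dist_eq_norm, ← ofReal_sub, norm_real, Real.norm_eq_abs]
      exact hv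
    have hvu : (v : ℂ) ∈ ball (u : ℂ) ε := ball_subset_ball k1 hvu₀
    have hve : |v| < e₁ := by
      have := hwe _ hvu₀
      rwa [norm_real, Real.norm_eq_abs] at this
    have hv0 : v ≠ 0 := by
      rintro rfl
      rw [zero_sub, abs_neg] at hv
      linarith
    have an : ∀ {f : ℂ × ℂ → ℂ}, AnalyticOnNhd ℂ f (Dm R e₁) →
        AnalyticOnNhd ℂ (fun t => f (t, (v : ℂ))) {t : ℂ | |t.im| < b₀} := fun hf t ht =>
      (hf (t, (v : ℂ)) (hwD t v ht hvu₀)).comp_of_eq (f := fun t : ℂ => (t, (v : ℂ)))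
        (analyticAt_id.prod analyticAt_const) rfl
    obtain ⟨hr1, hr2⟩ := hrot v (hv.trans_le k2)
    obtain ⟨a, s, ha, hs, -, -, hag⟩ := Vale.Agent.P097.H222.SpR.spR (f := fun t => A (t, (v : ℂ)))
      (g := fun t => P (t, (v : ℂ))) (k := 2 * Real.pi) (k' := 0) hb₀ hbb (an T.aA) (an T.aP)
      (fun t ht => (T.per N t v (hwD t v ht hvu₀)).1)
      (fun t ht => by simp only [(T.per N t v (hwD t v ht hvu₀)).2, add_zero])
      (fun c hc hc1 a s ha hs _ _ hag x => by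
        obtain ⟨θ, hθ⟩ := exists_posC hL hB (hP v hve hv0) hb₀ hc ha hs hag
        exact gd_allC hF hL hC na hB T hb₀ hRb hD'2 hal hab hbb.le (hA₁.mono hClsub)
          (hP₁.mono hClsub) heq' hve hvu hc hc1 ha hs hag hθ hMn hr1 hr2 x)
    exact ⟨a, s, ha, hs, hag⟩
  -- the joint extension
  have anJ : ∀ {f : ℂ × ℂ → ℂ}, AnalyticOnNhd ℂ f (Dm R e₁) →
      AnalyticOnNhd ℂ f ({t : ℂ | |t.im| < b₀} ×ˢ ball (u : ℂ) ε₀) := fun hf z hz =>
    hf z (hwD z.1 z.2 hz.1 hz.2)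
  have hbm : max b' b₀ < b₁ := max_lt hb' hbb
  obtain ⟨εA, hεA, hεA', GA, hGA, hGA'⟩ := spJ (f := A) (b := max b' b₀) (k := 2 * Real.pi) hb₀
    (le_max_right _ _) hbm k0 (anJ T.aA) (fun t w h1 h2 => (T.per N t w (hwD t w h1 h2)).1)
    (fun v hv => by
      obtain ⟨a, s, ha, hs, hag⟩ := hsl v hv
      exact ⟨a, ha, fun t ht => (hag t ht).1⟩)
  obtain ⟨εP, hεP, hεP', GP, hGP, hGP'⟩ := spJ (f := P) (b := max b' b₀) (k := 0) hb₀
    (le_max_right _ _) hbm k0 (anJ T.aP)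
    (fun t w h1 h2 => by rw [(T.per N t w (hwD t w h1 h2)).2, add_zero])
    (fun v hv => by
      obtain ⟨a, s, ha, hs, hag⟩ := hsl v hv
      exact ⟨s, hs, fun t ht => (hag t ht).2⟩)
  have hsub : ∀ {δ : ℝ}, min εA εP ≤ δ → Sr b₀ b' ×ˢ
      ball (u : ℂ) (min εA εP) ⊆ Sr b₀ (max b' b₀) ×ˢ ball (u : ℂ) δ := fun hδ =>
    prod_mono (fun t ht => ⟨ht.1, lt_of_lt_of_le ht.2 (le_max_left _ _)⟩) (ball_subset_ball hδ)
  refine ⟨min εA εP, lt_min hεA hεP, (min_le_left _ _).trans (hεA'.trans k1), fun w hw => ?_,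
    GA, GP, hGA.mono (hsub (min_le_left _ _)),
    hGP.mono (hsub (min_le_right _ _)), fun t w ht hw _ => ⟨?_, ?_⟩⟩
  · have := hwe w (ball_subset_ball ((min_le_left _ _).trans hεA') hw)
    simpa using this
  · exact hGA' t w ht (ball_subset_ball (min_le_left _ _) hw)
  · exact hGP' t w ht (ball_subset_ball (min_le_right _ _) hw)

end Vale.Agent.P097.H456.C
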