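import Vale.Agent.P097.H456.C.End

/-! # P097 (helper456) / R0.2: positions in two variables, case [c] -/

set_option linter.all false

open Complex Metric Filter Topology Set
open scoped ComplexConjugate

namespace Vale.Agent.P097.H456.C

open Vale.Agent.P097 Vale.Agent.P097.TA Vale.Agent.P097.H202 Vale.Agent.P097.SC
open Vale.Agent.P097.H456.Fct Vale.Agent.P097.H456.Sp Vale.Agent.P097.CC
open Vale.Agent.P097.CD (Tb)

/-- joint analyticity from the slices, upper half -/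
theorem joint_up {θ : ℂ × ℂ → ℂ} {w₁ : ℂ} {b₀ h₁ h₂ ε : ℝ} {k : ℂ} (hb₀ : 0 < b₀)
    (hb : b₀ ≤ h₁) (hh : h₁ < h₂) (hε : 0 < ε)
    (h0 : AnalyticOnNhd ℂ θ ({t : ℂ | |t.im| < b₀} ×ˢ ball w₁ ε))
    (per : ∀ t w : ℂ, |t.im| < b₀ → w ∈ ball w₁ ε → θ (t + 1, w) = θ (t, w) + k)
    (sl : ∀ w ∈ ball w₁ ε, AnalyticOnNhd ℂ (fun t => θ (t, w)) (Sr b₀ h₂)) :
    ∀ t₁ ∈ Sr b₀ h₁, AnalyticAt ℂ θ (t₁, w₁) := by
  have hsh : ∀ {s : ℂ} {δ : ℝ}, s ∈ ball ((0 : ℝ) : ℂ) δ → w₁ + s ∈ ball w₁ δ := by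
    intro s δ hs
    rw [mem_ball, dist_eq_norm] at hs ⊢
    simpa using hs
  obtain ⟨ε', hε', hεε, G, hG, hG'⟩ := spJ (f := fun z : ℂ × ℂ => θ (z.1, w₁ + z.2)) (u := 0)
    (b := h₁) (b₁ := h₂) (k := k) hb₀ hb hh hε
    (fun z hz => (h0 (z.1, w₁ + z.2) ⟨hz.1, hsh hz.2⟩).comp_of_eq
      (f := fun z : ℂ × ℂ => (z.1, w₁ + z.2))
      (analyticAt_fst.prod (analyticAt_const.add analyticAt_snd)) rfl)
    (fun t w ht hw => per t (w₁ + w) ht (hsh hw))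
    (fun v hv => ⟨fun t => θ (t, w₁ + v), sl _ (hsh (by
      rw [mem_ball, dist_eq_norm, ← ofReal_sub, norm_real, Real.norm_eq_abs]; exact hv)),
      fun t _ => rfl⟩)
  have hlowS : ∀ t : ℂ, |t.im| < b₀ → t ∈ Sr b₀ h₁ := fun t ht => Sr_of hb ht
  have hback : ∀ {w : ℂ} {δ : ℝ}, w ∈ ball w₁ δ → w - w₁ ∈ ball ((0 : ℝ) : ℂ) δ := by
    intro w δ hw
    rw [mem_ball, dist_eq_norm] at hw ⊢
    simpa using hw
  have hnear : ∀ᶠ t : ℂ in 𝓝 0, |t.im| < b₀ :=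
    (isOpen_lt (f := fun t : ℂ => |t.im|) (by fun_prop) continuous_const).mem_nhds
      (by simpa using hb₀)
  -- equality on the strip
  have hE : ∀ w ∈ ball w₁ ε', ∀ t ∈ Sr b₀ h₁, G (t, w - w₁) = θ (t, w) := by
    intro w hw t ht
    have a1 : AnalyticOnNhd ℂ (fun t => G (t, w - w₁)) (Sr b₀ h₁) := slice_an hG (hback hw)
    have a2 : AnalyticOnNhd ℂ (fun t => θ (t, w)) (Sr b₀ h₁) :=
      (sl w (ball_subset_ball hεε hw)).mono fun t ht =>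
        ⟨ht.1, by
          have : t.im < h₁ := ht.2
          show t.im < h₂
          linarith⟩
    refine a1.eqOn_of_preconnected_of_eventuallyEq a2 (convex_Sr _ _).isPreconnected
      (Sr_of hb (by simpa using hb₀) : (0 : ℂ) ∈ Sr b₀ h₁) ?_ ht
    filter_upwards [hnear] with s hs
    have := hG' s (w - w₁) hs (hback hw)
    rw [this]
    show θ (s, w₁ + (w - w₁)) = θ (s, w)
    rw [add_sub_cancel]
  intro t₁ ht₁
  have a1 : AnalyticAt ℂ (fun z : ℂ × ℂ => G (z.1, z.2 - w₁)) (t₁, w₁) :=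
    (hG (t₁, w₁ - w₁) ⟨ht₁, hback (mem_ball_self hε')⟩).comp_of_eq
      (f := fun z : ℂ × ℂ => (z.1, z.2 - w₁))
      (analyticAt_fst.prod (analyticAt_snd.sub analyticAt_const)) rfl
  refine a1.congr ?_
  have e1 : ∀ᶠ z : ℂ × ℂ in 𝓝 (t₁, w₁), z.1 ∈ Sr b₀ h₁ :=
    ((isOpen_Sr _ _).preimage continuous_fst).mem_nhds ht₁
  have e2 : ∀ᶠ z : ℂ × ℂ in 𝓝 (t₁, w₁), z.2 ∈ ball w₁ ε' :=
    (isOpen_ball.preimage continuous_snd).mem_nhds (mem_ball_self hε')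
  filter_upwards [e1, e2] with z h1 h2 using hE z.2 h2 z.1 h1

/-- joint analyticity from the slices, both halves -/
theorem joint_both {θ : ℂ × ℂ → ℂ} {w₁ : ℂ} {b₀ h₁ h₂ ε : ℝ} {k : ℂ} (hb₀ : 0 < b₀)
    (hb : b₀ ≤ h₁) (hh : h₁ < h₂) (hε : 0 < ε)
    (h0 : AnalyticOnNhd ℂ θ ({t : ℂ | |t.im| < b₀} ×ˢ ball w₁ ε))
    (per : ∀ t w : ℂ, |t.im| < b₀ → w ∈ ball w₁ ε → θ (t + 1, w) = θ (t, w) + k)
    (sl : ∀ w ∈ ball w₁ ε, AnalyticOnNhd ℂ (fun t => θ (t, w)) (Str h₂)) :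
    ∀ t₁ : ℂ, |t₁.im| < h₁ → AnalyticAt ℂ θ (t₁, w₁) := by
  intro t₁ ht₁
  have h1 := abs_lt.1 ht₁
  have hsub : Sr b₀ h₂ ⊆ Str h₂ := by
    rintro t ⟨k1, k2⟩
    exact abs_lt.2 ⟨by linarith, k2⟩
  by_cases h : -b₀ < t₁.im
  · exact joint_up hb₀ hb hh hε h0 per (fun w hw => (sl w hw).mono hsub) t₁ ⟨h, h1.2⟩
  · push Not at h
    have a1 := joint_up (θ := fun z : ℂ × ℂ => -θ (-z.1, z.2)) (k := k) hb₀ hb hh hε
      (fun z hz => ((h0 (-z.1, z.2) ⟨by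
          show |(-z.1).im| < b₀
          rw [neg_im, abs_neg]; exact hz.1, hz.2⟩).comp_of_eq (f := fun z : ℂ × ℂ => (-z.1, z.2))
        (analyticAt_fst.neg.prod analyticAt_snd) rfl).neg)
      (fun t w ht hw => by
        have e1 := per (-(t + 1)) w (by simpa using ht) hw
        rw [show -(t + 1) + 1 = -t by ring] at e1
        show -θ (-(t + 1), w) = -θ (-t, w) + k
        rw [e1]; ring)
      (fun w hw t ht => by
        have e1 : -t ∈ Str h₂ := by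
          have := hsub ht
          show |(-t).im| < h₂
          rw [neg_im, abs_neg]; exact this
        exact ((sl w hw (-t) e1).comp_of_eq (f := fun t : ℂ => -t) (analyticAt_id.neg) rfl).neg)
      (-t₁) ⟨by rw [neg_im]; linarith, by rw [neg_im]; linarith⟩
    have a2 : AnalyticAt ℂ (fun z : ℂ × ℂ => -(fun z : ℂ × ℂ => -θ (-z.1, z.2)) (-z.1, z.2))
        (t₁, w₁) := (a1.comp_of_eq (f := fun z : ℂ × ℂ => (-z.1, z.2))
          (analyticAt_fst.neg.prod analyticAt_snd) rfl).neg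
    refine a2.congr ?_
    filter_upwards with z
    simp

/-- the domain of the positions -/
def Pd (R : ℂ → ℝ) (e₁ : ℝ) : Set (ℂ × ℂ) := {z | |z.1.im| + |z.2.im| / 2 < R z.2 ∧ ‖z.2‖ < e₁}

section
variable {κ Λ : ℝ} {H Φ : ℂ → ℂ} {r e : ℝ} {α p : ℂ → ℂ → ℂ} {J : ℂ → ℂ}
  {R : ℂ → ℝ} {e₁ : ℝ} {A P : ℂ × ℂ → ℂ}

theorem Rd.lsc (T : Rd α p R e₁ A P) {w₁ : ℂ} (hw : ‖w₁‖ < e₁) {h : ℝ} (hh : h < R w₁) :
    ∀ᶠ w in 𝓝 w₁, h < R w ∧ ‖w‖ < e₁ := by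
  have hR := T.R0 w₁ hw
  set h' : ℝ := max h 0 with hh'
  have h0 : 0 ≤ h' := le_max_right _ _
  have h1 : h' < R w₁ := max_lt hh hR
  have him : ((h' : ℂ) * I).im = h' := by simp
  have hm : ((h' : ℂ) * I, w₁) ∈ Dm R e₁ := by
    refine ⟨?_, hw⟩
    show |((h' : ℂ) * I).im| < R w₁
    rw [him, abs_of_nonneg h0]; exact h1
  have hc : Continuous fun w : ℂ => ((h' : ℂ) * I, w) := by fun_prop
  filter_upwards [(T.op.preimage hc).mem_nhds hm] with w hw'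
  have h2 : |((h' : ℂ) * I).im| < R w := hw'.1
  rw [him, abs_of_nonneg h0] at h2
  exact ⟨(le_max_left _ _).trans_lt h2, hw'.2⟩

theorem isOpen_Pd (T : Rd α p R e₁ A P) : IsOpen (Pd R e₁) := by
  rw [isOpen_iff_mem_nhds]
  rintro ⟨t, w⟩ ⟨h1, h2⟩
  obtain ⟨h, hh1, hh2⟩ := exists_between h1
  have e1 : ∀ᶠ z : ℂ × ℂ in 𝓝 (t, w), h < R z.2 ∧ ‖z.2‖ < e₁ :=
    (continuous_snd.tendsto (t, w)).eventually (T.lsc h2 hh2)
  have e2 : ∀ᶠ z : ℂ × ℂ in 𝓝 (t, w), |z.1.im| + |z.2.im| / 2 < h :=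
    (isOpen_lt (f := fun z : ℂ × ℂ => |z.1.im| + |z.2.im| / 2) (by fun_prop)
      continuous_const).mem_nhds hh1
  filter_upwards [e1, e2] with z k1 k2 using ⟨k2.trans k1.1, k1.2⟩

theorem im_half (t w : ℂ) : |(t + w / 2).im| ≤ |t.im| + |w.im| / 2 ∧
    |(t - w / 2).im| ≤ |t.im| + |w.im| / 2 := by
  have e1 : (w / 2).im = w.im / 2 := by simp
  have e2 : |w.im / 2| = |w.im| / 2 := by rw [abs_div, abs_two]
  constructor
  · rw [add_im, e1]
    exact (abs_add_le _ _).trans (by rw [e2])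
  · rw [sub_im, e1]
    exact (abs_sub _ _).trans (by rw [e2])

theorem Pd_half {z : ℂ × ℂ} (hz : z ∈ Pd R e₁) :
    (z.1 + z.2 / 2, z.2) ∈ Dm R e₁ ∧ (z.1 - z.2 / 2, z.2) ∈ Dm R e₁ :=
  ⟨⟨(im_half z.1 z.2).1.trans_lt hz.1, hz.2⟩, ⟨(im_half z.1 z.2).2.trans_lt hz.1, hz.2⟩⟩

theorem half_an' {f : ℂ × ℂ → ℂ} (hf : AnalyticOnNhd ℂ f (Dm R e₁)) :
    AnalyticOnNhd ℂ (fun z : ℂ × ℂ => f (z.1 + z.2 / 2, z.2)) (Pd R e₁) ∧
    AnalyticOnNhd ℂ (fun z : ℂ × ℂ => f (z.1 - z.2 / 2, z.2)) (Pd R e₁) :=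
  ⟨fun z hz => H324.CD.comp_add (hf _ (Pd_half hz).1),
    fun z hz => H324.CD.comp_sub (hf _ (Pd_half hz).2)⟩

/-- slices of functions on `Pd` -/
theorem Pd_slice {f : ℂ × ℂ → ℂ} (hf : AnalyticOnNhd ℂ f (Pd R e₁)) {w : ℂ} (hw : ‖w‖ < e₁) :
    AnalyticOnNhd ℂ (fun t => f (t, w)) (Str (R w - |w.im| / 2)) := fun t ht =>
  (hf (t, w) ⟨by
    have : |t.im| < R w - |w.im| / 2 := ht
    show |t.im| + |w.im| / 2 < R w
    linarith, hw⟩).comp_of_eq (f := fun t : ℂ => (t, w)) (analyticAt_id.prod analyticAt_const) rfl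

/-- relations near the real axis -/
theorem loc_rel (N : Lines κ Λ H Φ r e α p J) (T : Rd α p R e₁ A P) {b r₀ : ℝ} {F q : ℂ → ℂ}
    {θ₀ : ℂ × ℂ → ℂ} (L : LocC b r₀ r e α p F q θ₀) (he : e₁ ≤ r₀) {t w : ℂ}
    (h : (t, w) ∈ Pd R e₁) (ht : |t.im| < r₀) : (t, w) ∈ Tb r₀ r₀ ∧
    A (t + w / 2, w) + A (t - w / 2, w) = 2 * F (θ₀ (t, w)) ∧
    P (t + w / 2, w) + P (t - w / 2, w) =
      2 * q (θ₀ (t, w)) * cos ((A (t + w / 2, w) - A (t - w / 2, w)) / 2) ∧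
    cos ((A (t + w / 2, w) - A (t - w / 2, w)) / 2) ≠ 0 ∧
    deriv F (θ₀ (t, w)) * (P (t + w / 2, w) - P (t - w / 2, w)) =
      2 * deriv q (θ₀ (t, w)) * sin ((A (t + w / 2, w) - A (t - w / 2, w)) / 2) := by
  have hw : ‖w‖ < e₁ := h.2
  have hw0 : ‖w‖ < r₀ := hw.trans_le he
  have hwe : ‖w‖ < e := hw0.trans_le L.ee
  have hm : (t, w) ∈ Tb r₀ r₀ := ⟨ht, hw0⟩
  have h3 : |w.im| ≤ ‖w‖ := abs_im_le_norm w
  have h4 := im_half t w
  have hr := L.hr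
  have k1 := T.eq_lines N (Pd_half h).1.1 hw (by
    show |(t + w / 2).im| < r
    linarith [h4.1]) hwe
  have k2 := T.eq_lines N (Pd_half h).2.1 hw (by
    show |(t - w / 2).im| < r
    linarith [h4.2]) hwe
  simp only [] at k1 k2
  rw [k1.1, k1.2, k2.1, k2.2]
  exact ⟨hm, L.sA _ _ hm, L.sP _ _ hm, L.cs _ _ hm, L.dP _ _ hm⟩

/-- slice positions -/
theorem slice2 {Λ' b : ℝ} {F q Q : ℂ → ℂ} (hB : CC.Bs Λ' b F q Q) (N : Lines κ Λ H Φ r e α p J)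
    (T : Rd α p R e₁ A P) {r₀ : ℝ} {θ₀ : ℂ × ℂ → ℂ} (L : LocC b r₀ r e α p F q θ₀) (he : e₁ ≤ r₀)
    {w : ℂ} (hw : ‖w‖ < e₁) (hRw : |w.im| / 2 < R w) :
    ∃ θw : ℂ → ℂ, AnalyticOnNhd ℂ θw (Str (R w - |w.im| / 2)) ∧
      MapsTo θw (Str (R w - |w.im| / 2)) (Str b) ∧
      ∀ t ∈ Str (R w - |w.im| / 2), |t.im| < r₀ → θw t = θ₀ (t, w) := by
  set S : Set ℂ := Str (R w - |w.im| / 2) with hS
  have hSo : IsOpen S := isOpen_Str _
  have hSc : Convex ℝ S := convex_Str _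
  have h0S : (0 : ℂ) ∈ S := by
    show |(0 : ℂ).im| < _
    rw [zero_im, abs_zero]; linarith
  have a1 : AnalyticOnNhd ℂ (fun t => A (t + w / 2, w)) S := Pd_slice (half_an' T.aA).1 hw
  have a2 : AnalyticOnNhd ℂ (fun t => A (t - w / 2, w)) S := Pd_slice (half_an' T.aA).2 hw
  have p1 : AnalyticOnNhd ℂ (fun t => P (t + w / 2, w)) S := Pd_slice (half_an' T.aP).1 hw
  have p2 : AnalyticOnNhd ℂ (fun t => P (t - w / 2, w)) S := Pd_slice (half_an' T.aP).2 hw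
  have hmem : ∀ t ∈ S, (t, w) ∈ Pd R e₁ := fun t ht => ⟨by
    have : |t.im| < R w - |w.im| / 2 := ht
    show |t.im| + |w.im| / 2 < R w
    linarith, hw⟩
  have hcos : AnalyticOnNhd ℂ (fun t => cos ((A (t + w / 2, w) - A (t - w / 2, w)) / 2)) S :=
    fun t ht => an_cos1 (((a1 t ht).sub (a2 t ht)).div_const)
  have m1 : MeromorphicOn (fun t => exp (2 * I * ((A (t + w / 2, w) + A (t - w / 2, w)) / 2))) S :=
    fun t ht => ((analyticAt_const.mul (((a1 t ht).add (a2 t ht)).div_const)).cexp).meromorphicAt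
  have m2 : MeromorphicOn (fun t => (P (t + w / 2, w) + P (t - w / 2, w)) /
      (2 * cos ((A (t + w / 2, w) - A (t - w / 2, w)) / 2)) *
      exp (-I * ((A (t + w / 2, w) + A (t - w / 2, w)) / 2))) S := fun t ht =>
    (((p1 t ht).add (p2 t ht)).meromorphicAt.div (analyticAt_const.mul (hcos t ht)).meromorphicAt).mul
      ((analyticAt_const.mul (((a1 t ht).add (a2 t ht)).div_const)).cexp).meromorphicAt
  have hw0 : ‖w‖ < r₀ := hw.trans_le he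
  have hTb : ∀ t : ℂ, |t.im| < r₀ → (t, w) ∈ Tb r₀ r₀ := fun t ht => ⟨ht, hw0⟩
  have aθ₀ : AnalyticOnNhd ℂ (fun t => θ₀ (t, w)) (Str r₀) := fun t ht =>
    (L.an _ (hTb t ht)).comp_of_eq (f := fun t : ℂ => (t, w))
      (analyticAt_id.prod analyticAt_const) rfl
  have h0r : (0 : ℂ) ∈ Str r₀ := by
    show |(0 : ℂ).im| < r₀
    simpa using L.r0
  have hnc : ¬ ∀ᶠ t in 𝓝 (0 : ℂ), θ₀ (t, w) = θ₀ (0, w) := by
    intro h
    have h2 := aθ₀.eqOn_of_preconnected_of_eventuallyEq (g := fun _ => θ₀ (0, w))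
      (fun _ _ => analyticAt_const) (convex_Str r₀).isPreconnected h0r h
    have h3 : (1 : ℂ) ∈ Str r₀ := by
      show |(1 : ℂ).im| < r₀
      simpa using L.r0
    have h4 : θ₀ (1, w) = θ₀ (0, w) := h2 h3
    have h5 := L.per 0 w (hTb 0 h0r)
    rw [zero_add, h4] at h5
    exact one_ne_zero (left_eq_add.1 h5)
  have hnear : ∀ᶠ t : ℂ in 𝓝 0, t ∈ S ∧ |t.im| < r₀ := by
    filter_upwards [hSo.mem_nhds h0S, (isOpen_Str r₀).mem_nhds h0r] with t k1 k2 using ⟨k1, k2⟩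
  have hev : ∀ᶠ t in 𝓝 (0 : ℂ), exp (2 * I * ((A (t + w / 2, w) + A (t - w / 2, w)) / 2)) =
        exp (2 * I * F (θ₀ (t, w))) ∧
      (P (t + w / 2, w) + P (t - w / 2, w)) /
      (2 * cos ((A (t + w / 2, w) - A (t - w / 2, w)) / 2)) *
      exp (-I * ((A (t + w / 2, w) + A (t - w / 2, w)) / 2)) =
        q (θ₀ (t, w)) * exp (-I * F (θ₀ (t, w))) := by
    filter_upwards [hnear] with t ht
    obtain ⟨-, h1, h2, h3, -⟩ := loc_rel N T L he (hmem t ht.1) ht.2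
    rw [h1, h2, show 2 * F (θ₀ (t, w)) / 2 = F (θ₀ (t, w)) by ring]
    refine ⟨rfl, ?_⟩
    congr 1
    generalize cos ((A (t + w / 2, w) - A (t - w / 2, w)) / 2) = c at h3 ⊢
    field_simp
  obtain ⟨θ, dθ, mθ, hθ, -⟩ := CC.rowLift hB hSo hSc m1 m2 h0S (aθ₀ 0 h0r)
    (L.mem _ _ (hTb 0 h0r)) hnc hev
  have aθ : AnalyticOnNhd ℂ θ S := dθ.analyticOnNhd hSo
  refine ⟨θ, aθ, mθ, fun t ht htr => ?_⟩
  exact (aθ.mono inter_subset_left).eqOn_of_preconnected_of_eventuallyEq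
    (aθ₀.mono inter_subset_right) (hSc.inter (convex_Str r₀)).isPreconnected
    (⟨h0S, h0r⟩ : (0 : ℂ) ∈ S ∩ Str r₀) hθ ⟨ht, htr⟩

end

/-- **positions in two variables** on the domain `|Im t| + |Im w| / 2 < R w` -/
structure PoC (b : ℝ) (F q : ℂ → ℂ) (R : ℂ → ℝ) (e₁ : ℝ) (A P θ : ℂ × ℂ → ℂ) : Prop where
  an : AnalyticOnNhd ℂ θ (Pd R e₁)
  mem : ∀ z ∈ Pd R e₁, θ z ∈ Str b
  z : ∀ t : ℂ, (t, (0 : ℂ)) ∈ Pd R e₁ → θ (t, 0) = t
  per : ∀ t w : ℂ, (t, w) ∈ Pd R e₁ → θ (t + 1, w) = θ (t, w) + 1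
  ev : ∀ t w : ℂ, (t, w) ∈ Pd R e₁ → θ (t, -w) = θ (t, w)
  cj : ∀ t w : ℂ, (t, w) ∈ Pd R e₁ → θ (conj t, conj w) = conj (θ (t, w))
  sA : ∀ t w : ℂ, (t, w) ∈ Pd R e₁ →
    A (t + w / 2, w) + A (t - w / 2, w) = 2 * F (θ (t, w))
  sP : ∀ t w : ℂ, (t, w) ∈ Pd R e₁ → P (t + w / 2, w) + P (t - w / 2, w) =
    2 * q (θ (t, w)) * cos ((A (t + w / 2, w) - A (t - w / 2, w)) / 2)
  dP : ∀ t w : ℂ, (t, w) ∈ Pd R e₁ → deriv F (θ (t, w)) * (P (t + w / 2, w) - P (t - w / 2, w)) =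
    2 * deriv q (θ (t, w)) * sin ((A (t + w / 2, w) - A (t - w / 2, w)) / 2)
  cs : ∀ w : ℂ, (0, w) ∈ Pd R e₁ → cos ((A (w / 2, w) - A (-(w / 2), w)) / 2) ≠ 0

/-- **R0.2** : existence of the positions -/
theorem exists_poC {κ Λ b : ℝ} {H Φ : ℂ → ℂ} {r e : ℝ} {α p : ℂ → ℂ → ℂ} {J : ℂ → ℂ}
    {F q Q : ℂ → ℂ} (hE : CC.En κ Λ b H Φ r e α p J F q) (hB : CC.Bs Λ b F q Q) :
    ∃ e₀ > 0, e₀ ≤ e ∧ ∀ {R : ℂ → ℝ} {e₁ : ℝ} {A P : ℂ × ℂ → ℂ}, Rd α p R e₁ A P → e₁ ≤ e₀ →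
      (∀ w, R (conj w) = R w) → (∀ w, R (-w) = R w) → ∃ θ, PoC b F q R e₁ A P θ := by
  obtain ⟨r₀, θ₀, L⟩ := exists_locC hE.ctx hE.b0 hE.dF hE.dq hE.re
  have N := hE.ctx.ln
  refine ⟨r₀, L.r0, L.ee, ?_⟩
  intro R e₁ A P T he hRc hRn
  have hsl : ∀ w : ℂ, ‖w‖ < e₁ ∧ |w.im| / 2 < R w → ∃ θw : ℂ → ℂ,
      AnalyticOnNhd ℂ θw (Str (R w - |w.im| / 2)) ∧
      MapsTo θw (Str (R w - |w.im| / 2)) (Str b) ∧
      ∀ t ∈ Str (R w - |w.im| / 2), |t.im| < r₀ → θw t = θ₀ (t, w) := fun w hw =>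
    slice2 hB N T L he hw.1 hw.2
  choose! θw hθ1 hθ2 hθ3 using hsl
  set θ : ℂ × ℂ → ℂ := fun z => θw z.2 z.1 with hθ
  have hpos : ∀ {t w : ℂ}, (t, w) ∈ Pd R e₁ → ‖w‖ < e₁ ∧ |w.im| / 2 < R w := fun {t w} h =>
    ⟨h.2, by
      have h1 : |t.im| + |w.im| / 2 < R w := h.1
      have := abs_nonneg t.im
      linarith⟩
  have hstr : ∀ {t w : ℂ}, (t, w) ∈ Pd R e₁ → t ∈ Str (R w - |w.im| / 2) := fun {t w} h => by
    have h1 : |t.im| + |w.im| / 2 < R w := h.1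
    show |t.im| < _
    linarith
  have hzero : ∀ {t w : ℂ}, (t, w) ∈ Pd R e₁ → (0, w) ∈ Pd R e₁ := fun {t w} h => by
    refine ⟨?_, h.2⟩
    show |(0 : ℂ).im| + |w.im| / 2 < R w
    rw [zero_im, abs_zero, zero_add]
    exact (hpos h).2
  have hlow : ∀ {t w : ℂ}, (t, w) ∈ Pd R e₁ → |t.im| < r₀ → θ (t, w) = θ₀ (t, w) := fun h ht =>
    hθ3 _ (hpos h) _ (hstr h) ht
  have hsla : ∀ {w : ℂ}, (0, w) ∈ Pd R e₁ → AnalyticOnNhd ℂ (fun t => θ (t, w))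
      (Str (R w - |w.im| / 2)) := fun h => hθ1 _ (hpos h)
  -- slicewise identity theorem
  have hid : ∀ {f g : ℂ → ℂ} {w : ℂ}, (0, w) ∈ Pd R e₁ →
      AnalyticOnNhd ℂ f (Str (R w - |w.im| / 2)) → AnalyticOnNhd ℂ g (Str (R w - |w.im| / 2)) →
      (∀ t : ℂ, (t, w) ∈ Pd R e₁ → |t.im| < r₀ → f t = g t) →
      ∀ t : ℂ, (t, w) ∈ Pd R e₁ → f t = g t := by
    intro f g w h0 hf hg h t ht
    have h0S : (0 : ℂ) ∈ Str (R w - |w.im| / 2) := hstr h0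
    refine hf.eqOn_of_preconnected_of_eventuallyEq hg (convex_Str _).isPreconnected h0S ?_ (hstr ht)
    have h0r : (0 : ℂ) ∈ Str r₀ := by
      show |(0 : ℂ).im| < r₀
      simpa using L.r0
    filter_upwards [(isOpen_Str _).mem_nhds h0S, (isOpen_Str r₀).mem_nhds h0r] with s k1 k2
    refine h s ⟨?_, h0.2⟩ k2
    have k3 : |s.im| < R w - |w.im| / 2 := k1
    show |s.im| + |w.im| / 2 < R w
    linarith
  have hPo := isOpen_Pd T
  -- joint analyticity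
  have an : AnalyticOnNhd ℂ θ (Pd R e₁) := by
    rintro ⟨t₁, w₁⟩ h
    obtain ⟨h₂, hh1, hh2⟩ := exists_between
      (show |t₁.im| < R w₁ - |w₁.im| / 2 from hstr h)
    obtain ⟨h₁, hh3, hh4⟩ := exists_between hh1
    have h₁0 : 0 < h₁ := (abs_nonneg _).trans_lt hh3
    -- neighbourhood
    obtain ⟨m, hm1, hm2⟩ := exists_between (show h₂ + |w₁.im| / 2 < R w₁ by linarith)
    have e2 : ∀ᶠ w : ℂ in 𝓝 w₁, h₂ + |w.im| / 2 < m :=
      (isOpen_lt (f := fun w : ℂ => h₂ + |w.im| / 2) (by fun_prop) continuous_const).mem_nhds hm1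
    obtain ⟨ε, hε, hball⟩ := Metric.eventually_nhds_iff_ball.1 ((T.lsc h.2 hm2).and e2)
    have hPd : ∀ t w : ℂ, |t.im| < h₂ → w ∈ ball w₁ ε → (t, w) ∈ Pd R e₁ := by
      intro t w ht hw
      obtain ⟨⟨k1, k2⟩, k3⟩ := hball w hw
      refine ⟨?_, k2⟩
      show |t.im| + |w.im| / 2 < R w
      linarith
    set b₀ : ℝ := min r₀ h₁ with hb₀
    have hb₀0 : 0 < b₀ := lt_min L.r0 h₁0
    have hb₀r : b₀ ≤ r₀ := min_le_left _ _
    have hb₀h : b₀ ≤ h₁ := min_le_right _ _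
    refine joint_both (k := 1) hb₀0 hb₀h hh4 hε ?_ ?_ ?_ t₁ hh3
    · rintro ⟨t, w⟩ ⟨k1, k2⟩
      have k1' : |t.im| < b₀ := k1
      have k3 : (t, w) ∈ Pd R e₁ := hPd t w (by linarith) k2
      have k4 : (t, w) ∈ Tb r₀ r₀ := ⟨by
        show |t.im| < r₀
        linarith, k3.2.trans_le he⟩
      refine (L.an _ k4).congr ?_
      have e3 : ∀ᶠ z : ℂ × ℂ in 𝓝 (t, w), |z.1.im| < r₀ :=
        (isOpen_lt (f := fun z : ℂ × ℂ => |z.1.im|) (by fun_prop) continuous_const).mem_nhds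
          (show |t.im| < r₀ by linarith)
      filter_upwards [hPo.mem_nhds k3, e3] with z k5 k6
      exact (hlow (t := z.1) (w := z.2) k5 k6).symm
    · intro t w k1 k2
      have k3 : (t, w) ∈ Pd R e₁ := hPd t w (by linarith) k2
      have k4 : (t + 1, w) ∈ Pd R e₁ := hPd (t + 1) w (by simp; linarith) k2
      rw [hlow k4 (by simp; linarith), hlow k3 (by linarith)]
      exact L.per t w ⟨by
        show |t.im| < r₀
        linarith, k3.2.trans_le he⟩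
    · intro w k2
      have k3 : (0, w) ∈ Pd R e₁ := hPd 0 w (by simp; linarith) k2
      refine (hsla k3).mono fun t ht => ?_
      have k4 : |t.im| < h₂ := ht
      exact hstr (hPd t w k4 k2)
  -- compositions
  have aF : ∀ {w : ℂ}, (0, w) ∈ Pd R e₁ → ∀ {g : ℂ → ℂ}, DifferentiableOn ℂ g (Str b) →
      AnalyticOnNhd ℂ (fun t => g (θ (t, w))) (Str (R w - |w.im| / 2)) := by
    intro w h g hg t ht
    exact ((hg.analyticOnNhd (isOpen_Str b)) _ (hθ2 _ (hpos h) ht)).comp_of_eq (hsla h t ht) rfl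
  have ddF : DifferentiableOn ℂ (deriv F) (Str b) := hB.dF.deriv (isOpen_Str b)
  have ddq : DifferentiableOn ℂ (deriv q) (Str b) := hB.dq.deriv (isOpen_Str b)
  have a1 : ∀ {w : ℂ}, (0, w) ∈ Pd R e₁ → AnalyticOnNhd ℂ (fun t => A (t + w / 2, w))
    (Str (R w - |w.im| / 2)) := fun h => Pd_slice (half_an' T.aA).1 h.2
  have a2 : ∀ {w : ℂ}, (0, w) ∈ Pd R e₁ → AnalyticOnNhd ℂ (fun t => A (t - w / 2, w))
    (Str (R w - |w.im| / 2)) := fun h => Pd_slice (half_an' T.aA).2 h.2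
  have p1 : ∀ {w : ℂ}, (0, w) ∈ Pd R e₁ → AnalyticOnNhd ℂ (fun t => P (t + w / 2, w))
    (Str (R w - |w.im| / 2)) := fun h => Pd_slice (half_an' T.aP).1 h.2
  have p2 : ∀ {w : ℂ}, (0, w) ∈ Pd R e₁ → AnalyticOnNhd ℂ (fun t => P (t - w / 2, w))
    (Str (R w - |w.im| / 2)) := fun h => Pd_slice (half_an' T.aP).2 h.2
  have hPd1 : ∀ {t w : ℂ}, (t, w) ∈ Pd R e₁ → (t + 1, w) ∈ Pd R e₁ := fun {t w} h => by
    refine ⟨?_, h.2⟩
    have h1 : |t.im| + |w.im| / 2 < R w := h.1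
    show |(t + 1).im| + |w.im| / 2 < R w
    simpa using h1
  have hPdn : ∀ {t w : ℂ}, (t, w) ∈ Pd R e₁ → (t, -w) ∈ Pd R e₁ := fun {t w} h => by
    refine ⟨?_, by
      show ‖-w‖ < e₁
      rw [norm_neg]; exact h.2⟩
    have h1 : |t.im| + |w.im| / 2 < R w := h.1
    show |t.im| + |(-w).im| / 2 < R (-w)
    rw [neg_im, abs_neg, hRn]; exact h1
  have hPdc : ∀ {t w : ℂ}, (t, w) ∈ Pd R e₁ → (conj t, conj w) ∈ Pd R e₁ := fun {t w} h => by
    refine ⟨?_, by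
      show ‖conj w‖ < e₁
      rw [norm_conj]; exact h.2⟩
    have h1 : |t.im| + |w.im| / 2 < R w := h.1
    show |(conj t).im| + |(conj w).im| / 2 < R (conj w)
    rw [conj_im, conj_im, abs_neg, abs_neg, hRc]; exact h1
  have hTb : ∀ {t w : ℂ}, (t, w) ∈ Pd R e₁ → |t.im| < r₀ → (t, w) ∈ Tb r₀ r₀ := fun h ht =>
    ⟨ht, h.2.trans_le he⟩
  refine ⟨θ, ?_⟩
  constructor
  · exact an
  · rintro ⟨t, w⟩ h
    exact hθ2 _ (hpos h) (hstr h)
  · intro t h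
    refine hid (f := fun t => θ (t, 0)) (g := fun t => t) (hzero h) (hsla (hzero h))
      (fun _ _ => analyticAt_id) (fun t k1 k2 => ?_) t h
    rw [hlow k1 k2]
    exact L.z t k2
  · intro t w h
    have h1 : AnalyticOnNhd ℂ (fun t => θ (t + 1, w)) (Str (R w - |w.im| / 2)) := fun t ht =>
      (hsla (hzero h) (t + 1) (by
        have : |t.im| < R w - |w.im| / 2 := ht
        show |(t + 1).im| < R w - |w.im| / 2
        simpa using this)).comp_of_eq (f := fun t : ℂ => t + 1) (analyticAt_id.add analyticAt_const)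
          rfl
    refine hid (f := fun t => θ (t + 1, w)) (g := fun t => θ (t, w) + 1) (hzero h) h1
      (fun t ht => (hsla (hzero h) t ht).add analyticAt_const) (fun t k1 k2 => ?_) t h
    show θ (t + 1, w) = θ (t, w) + 1
    rw [hlow (hPd1 k1) (by simpa using k2), hlow k1 k2]
    exact L.per t w (hTb k1 k2)
  · intro t w h
    have e1 : R (-w) - |(-w).im| / 2 = R w - |w.im| / 2 := by rw [neg_im, abs_neg, hRn]
    have h1 : AnalyticOnNhd ℂ (fun t => θ (t, -w)) (Str (R w - |w.im| / 2)) := by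
      have := hsla (hPdn (hzero h))
      rwa [e1] at this
    refine hid (f := fun t => θ (t, -w)) (g := fun t => θ (t, w)) (hzero h) h1
      (hsla (hzero h)) (fun t k1 k2 => ?_) t h
    show θ (t, -w) = θ (t, w)
    rw [hlow (hPdn k1) k2, hlow k1 k2]
    exact L.ev t w (hTb k1 k2)
  · intro t w h
    have e1 : R (conj w) - |(conj w).im| / 2 = R w - |w.im| / 2 := by
      rw [conj_im, abs_neg, hRc]
    have h1 : AnalyticOnNhd ℂ (fun t => conj (θ (conj t, conj w))) (Str (R w - |w.im| / 2)) := by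
      have h20 : (0, conj w) ∈ Pd R e₁ := by
        have := hPdc (hzero h)
        rwa [map_zero] at this
      have h2 := hsla h20
      rw [e1] at h2
      have h3 : DifferentiableOn ℂ (fun t => conj (θ (conj t, conj w))) (Str (R w - |w.im| / 2)) := by
        intro t ht
        have h4 : conj t ∈ Str (R w - |w.im| / 2) := by
          have : |t.im| < R w - |w.im| / 2 := ht
          show |(conj t).im| < _
          rw [conj_im, abs_neg]; exact this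
        have h5 := (h2 _ h4).differentiableAt.conj_conj
        rw [Complex.conj_conj] at h5
        exact h5.differentiableWithinAt
      exact h3.analyticOnNhd (isOpen_Str _)
    have h2 := hid (f := fun t => conj (θ (conj t, conj w))) (g := fun t => θ (t, w)) (hzero h) h1
      (hsla (hzero h)) (fun t k1 k2 => ?_) t h
    · have h2' : conj (θ (conj t, conj w)) = θ (t, w) := h2
      rw [← h2', Complex.conj_conj]
    · show conj (θ (conj t, conj w)) = θ (t, w)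
      rw [hlow (hPdc k1) (by simpa using k2), hlow k1 k2, L.cj t w (hTb k1 k2), Complex.conj_conj]
  · intro t w h
    refine hid (f := fun t => A (t + w / 2, w) + A (t - w / 2, w)) (g := fun t => 2 * F (θ (t, w)))
      (hzero h) ((a1 (hzero h)).add (a2 (hzero h)))
      (fun t ht => analyticAt_const.mul (aF (hzero h) hB.dF t ht)) (fun t k1 k2 => ?_) t h
    show A (t + w / 2, w) + A (t - w / 2, w) = 2 * F (θ (t, w))
    rw [hlow k1 k2]
    exact (loc_rel N T L he k1 k2).2.1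
  · intro t w h
    refine hid (f := fun t => P (t + w / 2, w) + P (t - w / 2, w))
      (g := fun t => 2 * q (θ (t, w)) * cos ((A (t + w / 2, w) - A (t - w / 2, w)) / 2))
      (hzero h) ((p1 (hzero h)).add (p2 (hzero h)))
      (fun t ht => (analyticAt_const.mul (aF (hzero h) hB.dq t ht)).mul
        (an_cos1 (((a1 (hzero h) t ht).sub (a2 (hzero h) t ht)).div_const)))
      (fun t k1 k2 => ?_) t h
    show P (t + w / 2, w) + P (t - w / 2, w) =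
      2 * q (θ (t, w)) * cos ((A (t + w / 2, w) - A (t - w / 2, w)) / 2)
    rw [hlow k1 k2]
    exact (loc_rel N T L he k1 k2).2.2.1
  · intro t w h
    refine hid (f := fun t => deriv F (θ (t, w)) * (P (t + w / 2, w) - P (t - w / 2, w)))
      (g := fun t => 2 * deriv q (θ (t, w)) * sin ((A (t + w / 2, w) - A (t - w / 2, w)) / 2))
      (hzero h) (fun t ht => (aF (hzero h) ddF t ht).mul
        ((p1 (hzero h) t ht).sub (p2 (hzero h) t ht)))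
      (fun t ht => (analyticAt_const.mul (aF (hzero h) ddq t ht)).mul
        ((differentiable_sin.analyticAt _).comp_of_eq
          (((a1 (hzero h) t ht).sub (a2 (hzero h) t ht)).div_const) rfl))
      (fun t k1 k2 => ?_) t h
    show deriv F (θ (t, w)) * (P (t + w / 2, w) - P (t - w / 2, w)) =
      2 * deriv q (θ (t, w)) * sin ((A (t + w / 2, w) - A (t - w / 2, w)) / 2)
    rw [hlow k1 k2]
    exact (loc_rel N T L he k1 k2).2.2.2.2
  · intro w h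
    have := (loc_rel N T L he h (by simpa using L.r0)).2.2.2.1
    rwa [zero_add, zero_sub] at this

end Vale.Agent.P097.H456.C
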