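import Vale.Agent.P097.H456.Sp.Dom
import Vale.Agent.P097.H286.C.Defs

/-! # P097 (helper456) / R0.4: the domain of the lines and the region with the columns -/

set_option linter.all false

open Complex Metric Set Filter Topology

namespace Vale.Agent.P097.H456.C

open Vale.Agent.P097 Vale.Agent.P097.TA Vale.Agent.P097.H202 Vale.Agent.P097.SC
open Vale.Agent.P097.H456.Fct Vale.Agent.P097.H456.Sp

/-- the domain `|Im t| < R w`, `‖w‖ < e₁` -/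
def Dm (R : ℂ → ℝ) (e₁ : ℝ) : Set (ℂ × ℂ) := {z | |z.1.im| < R z.2 ∧ ‖z.2‖ < e₁}

/-- the lines on a domain `|Im t| < R w`, `‖w‖ < e₁` -/
structure Rd (α p : ℂ → ℂ → ℂ) (R : ℂ → ℝ) (e₁ : ℝ) (A P : ℂ × ℂ → ℂ) : Prop where
  e0 : 0 < e₁
  R0 : ∀ w : ℂ, ‖w‖ < e₁ → 0 < R w
  op : IsOpen (Dm R e₁)
  aA : AnalyticOnNhd ℂ A (Dm R e₁)
  aP : AnalyticOnNhd ℂ P (Dm R e₁)
  eq : ∀ t : ℝ, ∀ᶠ u in 𝓝 ((t : ℂ), (0 : ℂ)), A u = α u.1 u.2 ∧ P u = p u.1 u.2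

theorem Dm_pc {R : ℂ → ℝ} {e₁ : ℝ} (he : 0 < e₁) (hR : ∀ w : ℂ, ‖w‖ < e₁ → 0 < R w) :
    IsPreconnected (Dm R e₁) := by
  set K : Set (ℂ × ℂ) := (ofReal '' univ) ×ˢ ball (0 : ℂ) e₁ with hK
  have hKp : IsPreconnected K :=
    (isPreconnected_univ.image _ continuous_ofReal.continuousOn).prod
      (convex_ball _ _).isPreconnected
  have hKs : K ⊆ Dm R e₁ := by
    rintro ⟨t, w⟩ ⟨⟨x, -, rfl⟩, hw⟩
    have hw' : ‖w‖ < e₁ := by simpa using hw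
    refine ⟨?_, hw'⟩
    show |((x : ℝ) : ℂ).im| < R w
    rw [ofReal_im, abs_zero]
    exact hR w hw'
  refine isPreconnected_of_forall ((0 : ℂ), (0 : ℂ)) ?_
  rintro ⟨t, w⟩ ⟨h1, h2⟩
  simp only [] at h1 h2
  have h0K : ((0 : ℂ), (0 : ℂ)) ∈ K := ⟨⟨0, mem_univ _, by simp⟩, by simpa using he⟩
  have h1K : ((t.re : ℂ), w) ∈ K := ⟨⟨t.re, mem_univ _, rfl⟩, by simpa using h2⟩
  have hS : (segment ℝ (t.re : ℂ) t) ×ˢ {w} ⊆ Dm R e₁ := by
    rintro ⟨y, w'⟩ ⟨⟨a, b, ha, hb, hab, rfl⟩, hw'⟩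
    rw [mem_singleton_iff] at hw'
    subst hw'
    refine ⟨?_, h2⟩
    show |(a • ((t.re : ℝ) : ℂ) + b • t).im| < R w'
    have e : (a • ((t.re : ℝ) : ℂ) + b • t).im = b * t.im := by simp
    rw [e, abs_mul, abs_of_nonneg hb]
    have : b * |t.im| ≤ 1 * |t.im| := mul_le_mul_of_nonneg_right (by linarith) (abs_nonneg _)
    linarith
  refine ⟨K ∪ (segment ℝ (t.re : ℂ) t) ×ˢ {w}, union_subset hKs hS, Or.inl h0K,
    Or.inr ⟨right_mem_segment _ _ _, rfl⟩, ?_⟩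
  exact hKp.union ((t.re : ℂ), w) h1K ⟨left_mem_segment _ _ _, rfl⟩
    ((convex_segment _ _).isPreconnected.prod isPreconnected_singleton)

section
variable {κ Λ : ℝ} {H Φ : ℂ → ℂ} {r e : ℝ} {α p : ℂ → ℂ → ℂ} {J : ℂ → ℂ}
  {R : ℂ → ℝ} {e₁ : ℝ} {A P : ℂ × ℂ → ℂ}

theorem Rd.eqOn (T : Rd α p R e₁ A P) {f g : ℂ × ℂ → ℂ} (hf : AnalyticOnNhd ℂ f (Dm R e₁))
    (hg : AnalyticOnNhd ℂ g (Dm R e₁)) (h : f =ᶠ[𝓝 ((0 : ℂ), (0 : ℂ))] g) :
    EqOn f g (Dm R e₁) :=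
  hf.eqOn_of_preconnected_of_eventuallyEq hg (Dm_pc T.e0 T.R0)
    ⟨by
      show |(0 : ℂ).im| < R 0
      rw [zero_im, abs_zero]; exact T.R0 0 (by simpa using T.e0), by simpa using T.e0⟩ h

theorem Dm_add1 {R : ℂ → ℝ} {e₁ : ℝ} (t w : ℂ) : (t + 1, w) ∈ Dm R e₁ ↔ (t, w) ∈ Dm R e₁ := by
  simp [Dm]

theorem Rd.per (N : Lines κ Λ H Φ r e α p J) (T : Rd α p R e₁ A P) :
    ∀ t w : ℂ, (t, w) ∈ Dm R e₁ → A (t + 1, w) = A (t, w) + 2 * Real.pi ∧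
      P (t + 1, w) = P (t, w) := by
  have hW : ∀ᶠ u in 𝓝 ((0 : ℂ), (0 : ℂ)), u ∈ WW 0 r e :=
    (isOpen_WW _ _ _).mem_nhds ⟨by simpa using N.he, by simpa using N.hr⟩
  have h0 := T.eq 0
  rw [ofReal_zero] at h0
  have h1 := T.eq 1
  have ht : Tendsto (fun u : ℂ × ℂ => (u.1 + 1, u.2)) (𝓝 ((0 : ℂ), (0 : ℂ)))
      (𝓝 (((1 : ℝ) : ℂ), (0 : ℂ))) := by
    have hc : ContinuousAt (fun u : ℂ × ℂ => (u.1 + 1, u.2)) ((0 : ℂ), (0 : ℂ)) := by fun_prop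
    simpa [ContinuousAt] using hc
  have h1' := ht.eventually h1
  have sh : ∀ {f : ℂ × ℂ → ℂ}, AnalyticOnNhd ℂ f (Dm R e₁) →
      AnalyticOnNhd ℂ (fun u : ℂ × ℂ => f (u.1 + 1, u.2)) (Dm R e₁) := by
    intro f hf u hu
    exact (hf (u.1 + 1, u.2) ((Dm_add1 u.1 u.2).2 hu)).comp_of_eq
      (f := fun u : ℂ × ℂ => (u.1 + 1, u.2))
      ((analyticAt_fst.add analyticAt_const).prod analyticAt_snd) rfl
  intro t w htw
  constructor
  · refine T.eqOn (sh T.aA) (T.aA.add analyticOnNhd_const) ?_ htw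
    filter_upwards [h0, h1', hW] with u g0 g1 g2
    show A (u.1 + 1, u.2) = A u + 2 * Real.pi
    rw [g1.1, g0.1]
    exact N.αper u.1 u.2 g2
  · refine T.eqOn (sh T.aP) T.aP ?_ htw
    filter_upwards [h0, h1', hW] with u g0 g1 g2
    show P (u.1 + 1, u.2) = P u
    rw [g1.2, g0.2]
    exact N.pper u.1 u.2 g2

end

/-- the region with the columns -/
def Dk (R : ℂ → ℝ) (e₁ b₀ x' D b₁ u ε : ℝ) : Set (ℂ × ℂ) :=
  {z | ‖z.2‖ < e₁ ∧ (|z.1.im| < R z.2 ∨ (z.2 ∈ ball (u : ℂ) ε ∧ -b₀ < z.1.im ∧ z.1.im < b₁ ∧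
    ∃ m : ℤ, |z.1.re - x' - m| < D))}

/-- extension of one function to the region -/
theorem ext_one' {R : ℂ → ℝ} {e₁ b₀ x' D a b₁ u ε : ℝ} {f f₁ : ℂ × ℂ → ℂ} {k : ℂ} (hD : D ≤ 1 / 2)
    (hop : IsOpen (Dm R e₁)) (hb₀ : ∀ w ∈ ball (u : ℂ) ε, ‖w‖ < e₁ → b₀ ≤ R w)
    (hab : a < b₀) (hf : AnalyticOnNhd ℂ f (Dm R e₁))
    (hper : ∀ t w : ℂ, (t, w) ∈ Dm R e₁ → f (t + 1, w) = f (t, w) + k)
    (hf₁ : AnalyticOnNhd ℂ f₁ (Cl x' D a b₁ ×ˢ ball (u : ℂ) ε))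
    (heq : ∀ t w : ℂ, |t.re - x'| < D → a < t.im → t.im < b₁ → |t.im| < R w →
      w ∈ ball (u : ℂ) ε → ‖w‖ < e₁ → f₁ (t, w) = f (t, w)) :
    ∃ f' : ℂ × ℂ → ℂ, AnalyticOnNhd ℂ f' (Dk R e₁ b₀ x' D b₁ u ε) ∧
      (∀ t w : ℂ, |t.im| < R w → f' (t, w) = f (t, w)) ∧
      ∀ (t w : ℂ) (m : ℤ), ‖w‖ < e₁ → w ∈ ball (u : ℂ) ε → -b₀ < t.im → a < t.im → t.im < b₁ →
        |t.re - x' - m| < D → f' (t, w) = f₁ (t - m, w) + m * k := by
  classical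
  set f' : ℂ × ℂ → ℂ := fun z => if |z.1.im| < R z.2 then f z else
    if h : ∃ m : ℤ, |z.1.re - x' - m| < D then f₁ (z.1 - h.choose, z.2) + h.choose * k else 0
    with hf'
  have h1 : ∀ t w : ℂ, |t.im| < R w → f' (t, w) = f (t, w) := by
    intro t w ht
    simp only [hf']
    rw [if_pos ht]
  have h2 : ∀ (t w : ℂ) (m : ℤ), ‖w‖ < e₁ → w ∈ ball (u : ℂ) ε → -b₀ < t.im → a < t.im →
      t.im < b₁ → |t.re - x' - m| < D → f' (t, w) = f₁ (t - m, w) + m * k := by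
    intro t w m hw hwu ht0 hta ht1 htm
    by_cases h : |t.im| < R w
    · rw [h1 t w h]
      have h3 := int_per (f := f) (k := k) (w := w) (b₀ := R w)
        (fun t ht => hper t w ⟨ht, hw⟩) m (t - m) (by simpa using h)
      have h4 := heq (t - m) w (by
        rw [sub_re, intCast_re]
        rw [show t.re - (m : ℝ) - x' = t.re - x' - m by ring]
        exact htm) (by simpa using hta) (by simpa using ht1) (by simpa using h) hwu hw
      rw [h4, ← h3, sub_add_cancel]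
    · have hex : ∃ m : ℤ, |t.re - x' - m| < D := ⟨m, htm⟩
      have hm : hex.choose = m := by
        have h5 := abs_lt.1 hex.choose_spec
        have h6 := abs_lt.1 htm
        have h7 : ((hex.choose : ℤ) : ℝ) - m < 1 := by linarith [h5.1, h6.2]
        have h8 : (-1 : ℝ) < ((hex.choose : ℤ) : ℝ) - m := by linarith [h5.2, h6.1]
        have h9 : hex.choose - m < 1 := by exact_mod_cast h7
        have h10 : -1 < hex.choose - m := by exact_mod_cast h8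
        omega
      simp only [hf']
      rw [if_neg h, dif_pos hex, hm]
  refine ⟨f', ?_, h1, h2⟩
  rintro ⟨t, w⟩ ⟨hw, hz⟩
  simp only [] at hw hz
  by_cases h : |t.im| < R w
  · refine (hf (t, w) ⟨h, hw⟩).congr ?_
    filter_upwards [hop.mem_nhds (⟨h, hw⟩ : (t, w) ∈ Dm R e₁)] with z hz'
    exact (h1 z.1 z.2 hz'.1).symm
  · rcases hz with hz | ⟨hwu, hz0, hz1, m, hm⟩
    · exact absurd hz h
    · have hb : b₀ ≤ t.im := by
        by_contra hcon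
        push Not at hcon
        exact h ((abs_lt.2 ⟨hz0, hcon⟩).trans_le (hb₀ w hwu hw))
      have hta : a < t.im := by linarith
      have h3 : AnalyticAt ℂ (fun z : ℂ × ℂ => f₁ (z.1 - m, z.2) + m * k) (t, w) := by
        have h4 : (t - m, w) ∈ Cl x' D a b₁ ×ˢ ball (u : ℂ) ε := by
          refine ⟨⟨?_, by simpa using hta, by simpa using hz1⟩, hwu⟩
          rw [sub_re, intCast_re]
          rw [show t.re - (m : ℝ) - x' = t.re - x' - m by ring]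
          exact hm
        have h5 : AnalyticAt ℂ (fun z : ℂ × ℂ => f₁ (z.1 - m, z.2)) (t, w) :=
          (hf₁ _ h4).comp_of_eq (f := fun z : ℂ × ℂ => (z.1 - m, z.2))
            ((analyticAt_fst.sub analyticAt_const).prod analyticAt_snd) rfl
        exact h5.add analyticAt_const
      refine h3.congr ?_
      have e1 : ∀ᶠ z : ℂ × ℂ in 𝓝 (t, w), ‖z.2‖ < e₁ :=
        (isOpen_lt (continuous_norm.comp continuous_snd) continuous_const).mem_nhds hw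
      have e2 : ∀ᶠ z : ℂ × ℂ in 𝓝 (t, w), z.2 ∈ ball (u : ℂ) ε :=
        (isOpen_ball.preimage continuous_snd).mem_nhds hwu
      have e3 : ∀ᶠ z : ℂ × ℂ in 𝓝 (t, w), -b₀ < z.1.im :=
        (isOpen_lt continuous_const (continuous_im.comp continuous_fst)).mem_nhds hz0
      have e4 : ∀ᶠ z : ℂ × ℂ in 𝓝 (t, w), a < z.1.im :=
        (isOpen_lt continuous_const (continuous_im.comp continuous_fst)).mem_nhds hta
      have e5 : ∀ᶠ z : ℂ × ℂ in 𝓝 (t, w), z.1.im < b₁ :=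
        (isOpen_lt (continuous_im.comp continuous_fst) continuous_const).mem_nhds hz1
      have e6 : ∀ᶠ z : ℂ × ℂ in 𝓝 (t, w), |z.1.re - x' - m| < D :=
        (isOpen_lt (f := fun z : ℂ × ℂ => |z.1.re - x' - m|) (by fun_prop)
          continuous_const).mem_nhds hm
      filter_upwards [e1, e2, e3, e4, e5, e6] with z g1 g2 g3 g4 g5 g6
      exact (h2 z.1 z.2 m g1 g2 g3 g4 g5 g6).symm

theorem isOpen_Dk {R : ℂ → ℝ} {e₁ b₀ x' D b₁ u ε : ℝ} (hop : IsOpen (Dm R e₁)) :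
    IsOpen (Dk R e₁ b₀ x' D b₁ u ε) := by
  have e : Dk R e₁ b₀ x' D b₁ u ε = Dm R e₁ ∪ ({z : ℂ × ℂ | ‖z.2‖ < e₁} ∩
      ({z : ℂ × ℂ | z.2 ∈ ball (u : ℂ) ε} ∩ ({z : ℂ × ℂ | -b₀ < z.1.im} ∩
        ({z : ℂ × ℂ | z.1.im < b₁} ∩ ⋃ m : ℤ, {z : ℂ × ℂ | |z.1.re - x' - m| < D})))) := by
    ext z
    simp only [Dk, Dm, mem_setOf_eq, mem_inter_iff, mem_union, mem_iUnion]
    tauto
  rw [e]
  refine hop.union (IsOpen.inter (isOpen_lt (by fun_prop) (by fun_prop))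
    (IsOpen.inter (isOpen_ball.preimage continuous_snd)
      (IsOpen.inter (isOpen_lt (by fun_prop) (by fun_prop)) (IsOpen.inter
        (isOpen_lt (by fun_prop) (by fun_prop)) (isOpen_iUnion fun m => ?_)))))
  exact isOpen_lt (by fun_prop) (by fun_prop)

/-- on the convex piece of a column below `R w` the identity theorem in `t` -/
theorem heq_up {R : ℂ → ℝ} {e₁ b₀ x' D a b₁ u ε : ℝ} {f f₁ : ℂ × ℂ → ℂ} (ha0 : 0 ≤ a)
    (hb₀ : ∀ w ∈ ball (u : ℂ) ε, ‖w‖ < e₁ → b₀ ≤ R w) (hab : a < b₀) (hbb : b₀ ≤ b₁)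
    (hf : AnalyticOnNhd ℂ f (Dm R e₁))
    (hf₁ : AnalyticOnNhd ℂ f₁ (Cl x' D a b₁ ×ˢ ball (u : ℂ) ε))
    (heq : ∀ t w : ℂ, |t.re - x'| < D → a < t.im → t.im < b₀ →
      w ∈ ball (u : ℂ) ε → ‖w‖ < e₁ → f₁ (t, w) = f (t, w)) :
    ∀ t w : ℂ, |t.re - x'| < D → a < t.im → t.im < b₁ → |t.im| < R w →
      w ∈ ball (u : ℂ) ε → ‖w‖ < e₁ → f₁ (t, w) = f (t, w) := by
  intro t w h1 h2 h3 h4 h5 h6
  set K : Set ℂ := {t : ℂ | |t.re - x'| < D} ∩ ({t | a < t.im} ∩ ({t | t.im < b₁} ∩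
    {t | t.im < R w})) with hK
  have hKc : Convex ℝ K := by
    have g1 : Convex ℝ {t : ℂ | |t.re - x'| < D} := by
      have e : {t : ℂ | |t.re - x'| < D} = {t : ℂ | x' - D < t.re} ∩ {t : ℂ | t.re < x' + D} := by
        ext t
        simp only [mem_setOf_eq, mem_inter_iff, abs_lt]
        constructor
        · rintro ⟨h1, h2⟩; exact ⟨by linarith, by linarith⟩
        · rintro ⟨h1, h2⟩; exact ⟨by linarith, by linarith⟩
      rw [e]
      exact (convex_halfSpace_re_gt _).inter (convex_halfSpace_re_lt _)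
    exact g1.inter ((convex_halfSpace_im_gt _).inter ((convex_halfSpace_im_lt _).inter
      (convex_halfSpace_im_lt _)))
  have hKm : ∀ z ∈ K, (z, w) ∈ Dm R e₁ := by
    rintro z ⟨k1, k2, k3, k4⟩
    refine ⟨?_, h6⟩
    show |z.im| < R w
    rw [abs_lt]
    have k2' : a < z.im := k2
    have k4' : z.im < R w := k4
    exact ⟨by linarith, k4'⟩
  have a1 : AnalyticOnNhd ℂ (fun z => f (z, w)) K := fun z hz =>
    (hf _ (hKm z hz)).comp_of_eq (f := fun z : ℂ => (z, w)) (analyticAt_id.prod analyticAt_const) rfl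
  have a2 : AnalyticOnNhd ℂ (fun z => f₁ (z, w)) K := fun z hz =>
    (hf₁ (z, w) ⟨⟨hz.1, hz.2.1, hz.2.2.1⟩, h5⟩).comp_of_eq (f := fun z : ℂ => (z, w))
      (analyticAt_id.prod analyticAt_const) rfl
  have hR := hb₀ w h5 h6
  set z₀ : ℂ := (t.re : ℂ) + ((a + b₀) / 2 : ℝ) * I with hz₀
  have him : z₀.im = (a + b₀) / 2 := by simp [hz₀]
  have hre : z₀.re = t.re := by simp [hz₀]
  have hz₀K : z₀ ∈ K := by
    refine ⟨?_, ?_, ?_, ?_⟩
    · show |z₀.re - x'| < D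
      rw [hre]; exact h1
    · show a < z₀.im
      rw [him]; linarith
    · show z₀.im < b₁
      rw [him]; linarith
    · show z₀.im < R w
      rw [him]; linarith
  have hev : (fun z => f₁ (z, w)) =ᶠ[𝓝 z₀] fun z => f (z, w) := by
    have e1 : ∀ᶠ z : ℂ in 𝓝 z₀, |z.re - x'| < D :=
      (isOpen_lt (f := fun z : ℂ => |z.re - x'|) (by fun_prop) continuous_const).mem_nhds
        (by show |z₀.re - x'| < D; rw [hre]; exact h1)
    have e2 : ∀ᶠ z : ℂ in 𝓝 z₀, a < z.im :=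
      (isOpen_lt continuous_const continuous_im).mem_nhds (by show a < z₀.im; rw [him]; linarith)
    have e3 : ∀ᶠ z : ℂ in 𝓝 z₀, z.im < b₀ :=
      (isOpen_lt continuous_im continuous_const).mem_nhds (by show z₀.im < b₀; rw [him]; linarith)
    filter_upwards [e1, e2, e3] with z k1 k2 k3 using heq z w k1 k2 k3 h5 h6
  refine a2.eqOn_of_preconnected_of_eventuallyEq a1 hKc.isPreconnected hz₀K hev
    ⟨h1, h2, h3, ?_⟩
  exact (abs_lt.1 h4).2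

/-- **the region of regularity** -/
theorem exists_Rk {κ Λ : ℝ} {H Φ : ℂ → ℂ} {r e : ℝ} {α p : ℂ → ℂ → ℂ} {J : ℂ → ℂ}
    (N : Lines κ Λ H Φ r e α p J) {R : ℂ → ℝ} {e₁ b₀ x' D a b₁ u ε : ℝ} {A P A₁ P₁ : ℂ × ℂ → ℂ}
    (T : Rd α p R e₁ A P) (hD : D ≤ 1 / 2) (ha0 : 0 ≤ a) (hab : a < b₀) (hbb : b₀ ≤ b₁)
    (hb₀ : ∀ w ∈ ball (u : ℂ) ε, ‖w‖ < e₁ → b₀ ≤ R w)
    (hA₁ : AnalyticOnNhd ℂ A₁ (Cl x' D a b₁ ×ˢ ball (u : ℂ) ε))
    (hP₁ : AnalyticOnNhd ℂ P₁ (Cl x' D a b₁ ×ˢ ball (u : ℂ) ε))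
    (heq : ∀ t w : ℂ, |t.re - x'| < D → a < t.im → t.im < b₀ → w ∈ ball (u : ℂ) ε → ‖w‖ < e₁ →
      A₁ (t, w) = A (t, w) ∧ P₁ (t, w) = P (t, w)) {v : ℝ} (hv : |v| < e₁) :
    ∃ A' P' : ℂ × ℂ → ℂ, Rg α p (Dk R e₁ b₀ x' D b₁ u ε) v A' P' ∧
      ∀ t w : ℂ, |t.im| < R w → A' (t, w) = A (t, w) ∧ P' (t, w) = P (t, w) := by
  obtain ⟨A', hA', hA'1, hA'2⟩ := ext_one' (k := 2 * Real.pi) hD T.op hb₀ hab T.aA
    (fun t w h => (T.per N t w h).1) hA₁ (heq_up ha0 hb₀ hab hbb T.aA hA₁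
      (fun t w h1 h2 h3 h4 h5 => (heq t w h1 h2 h3 h4 h5).1))
  obtain ⟨P', hP', hP'1, hP'2⟩ := ext_one' (k := 0) hD T.op hb₀ hab T.aP
    (fun t w h => by rw [(T.per N t w h).2, add_zero]) hP₁ (heq_up ha0 hb₀ hab hbb T.aP hP₁
      (fun t w h1 h2 h3 h4 h5 => (heq t w h1 h2 h3 h4 h5).2))
  refine ⟨A', P', ?_, fun t w h => ⟨hA'1 t w h, hP'1 t w h⟩⟩
  refine ⟨isOpen_Dk T.op, ?_, ?_, ?_, hA', hP', ?_⟩
  · intro t w
    constructor
    · rintro ⟨h1, h2⟩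
      refine ⟨h1, ?_⟩
      rcases h2 with h2 | ⟨h2, h3, h4, m, hm⟩
      · exact Or.inl (by simpa using h2)
      · refine Or.inr ⟨h2, by simpa using h3, by simpa using h4, m + 1, ?_⟩
        have e : (t + 1).re - x' - ((m + 1 : ℤ) : ℝ) = t.re - x' - m := by
          push_cast
          rw [add_re, one_re]; ring
        show |(t + 1).re - x' - ((m + 1 : ℤ) : ℝ)| < D
        rw [e]; exact hm
    · rintro ⟨h1, h2⟩
      refine ⟨h1, ?_⟩
      rcases h2 with h2 | ⟨h2, h3, h4, m, hm⟩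
      · exact Or.inl (by simpa using h2)
      · refine Or.inr ⟨h2, by simpa using h3, by simpa using h4, m - 1, ?_⟩
        have e : t.re - x' - ((m - 1 : ℤ) : ℝ) = (t + 1).re - x' - m := by
          push_cast
          rw [add_re, one_re]; ring
        show |t.re - x' - ((m - 1 : ℤ) : ℝ)| < D
        rw [e]; exact hm
  · rintro t w ⟨h1, h2⟩ s ⟨hs0, hs1⟩
    refine ⟨h1, ?_⟩
    have him : ((t.re : ℂ) + s * t.im * I).im = s * t.im := by simp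
    have hre : ((t.re : ℂ) + s * t.im * I).re = t.re := by simp
    simp only [] at h1 h2
    have hlow : |t.im| < R w → |((t.re : ℂ) + s * t.im * I).im| < R w := by
      intro h2
      rw [him, abs_mul, abs_of_nonneg hs0]
      have : s * |t.im| ≤ 1 * |t.im| := mul_le_mul_of_nonneg_right hs1 (abs_nonneg _)
      linarith
    rcases h2 with h2 | ⟨h2, h3, h4, m, hm⟩
    · exact Or.inl (hlow h2)
    · by_cases hneg : t.im < 0
      · refine Or.inl (hlow ?_)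
        rw [abs_of_neg hneg]
        have := hb₀ w h2 h1
        linarith
      · push Not at hneg
        have h5 : s * t.im ≤ 1 * t.im := mul_le_mul_of_nonneg_right hs1 hneg
        have h6 : 0 ≤ s * t.im := mul_nonneg hs0 hneg
        refine Or.inr ⟨h2, ?_, ?_, m, ?_⟩
        · show -b₀ < ((t.re : ℂ) + s * t.im * I).im
          rw [him]; linarith
        · show ((t.re : ℂ) + s * t.im * I).im < b₁
          rw [him]; linarith
        · show |((t.re : ℂ) + s * t.im * I).re - x' - m| < D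
          rw [hre]; exact hm
  · intro x s hs
    have h1 : ‖(s : ℂ)‖ < e₁ := by
      rw [norm_real, Real.norm_eq_abs]
      linarith
    refine ⟨h1, Or.inl ?_⟩
    show |((x : ℝ) : ℂ).im| < R s
    rw [ofReal_im, abs_zero]
    exact T.R0 _ h1
  · intro t
    have h1 : ∀ᶠ u : ℂ × ℂ in 𝓝 ((t : ℂ), (0 : ℂ)), u ∈ Dm R e₁ := by
      refine T.op.mem_nhds ⟨?_, by simpa using T.e0⟩
      show |((t : ℝ) : ℂ).im| < R 0
      rw [ofReal_im, abs_zero]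
      exact T.R0 _ (by simpa using T.e0)
    filter_upwards [h1, T.eq t] with u g1 g2
    rw [← g2.1, ← g2.2]
    exact ⟨hA'1 u.1 u.2 g1.1, hP'1 u.1 u.2 g1.1⟩

end Vale.Agent.P097.H456.C
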