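import Vale.Agent.P097.H456.C.RowSp

/-! # P097 (helper456) / case [c]: Row P (positions on tubes) of the growth row, strip version -/

set_option linter.all false

open Complex Metric Set Filter Topology
open scoped ComplexConjugate

namespace Vale.Agent.P097.H456.C

open Vale.Agent.P097 Vale.Agent.P097.TA Vale.Agent.P097.H202 Vale.Agent.P097.SC
open Vale.Agent.P097.H456.Fct Vale.Agent.P097.H456.Sp
open Vale.Agent.P097.H830.CD (Inc Incx Inca loc_inj)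
open Vale.Agent.P097.CD (Tb)

/-! ### local uniqueness of the position on a line -/

section
variable {F q : ℂ → ℂ}

theorem analyticAt_Inc' (v : ℂ × ℂ × ℂ) (aF : AnalyticAt ℂ F v.1) (aq : AnalyticAt ℂ q v.1) :
    AnalyticAt ℂ (Inc F q) v := by
  have a1 : AnalyticAt ℂ (fun v : ℂ × ℂ × ℂ => v.1) v := analyticAt_fst
  have a2 : AnalyticAt ℂ (fun v : ℂ × ℂ × ℂ => v.2.1) v := analyticAt_fst.comp analyticAt_snd
  have a3 : AnalyticAt ℂ (fun v : ℂ × ℂ × ℂ => v.2.2) v := analyticAt_snd.comp analyticAt_snd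
  have h1 : AnalyticAt ℂ (fun v : ℂ × ℂ × ℂ => deriv F v.1) v := aF.deriv.comp_of_eq a1 rfl
  have h2 : AnalyticAt ℂ (fun v : ℂ × ℂ × ℂ => deriv q v.1) v := aq.deriv.comp_of_eq a1 rfl
  have h3 : AnalyticAt ℂ (fun v : ℂ × ℂ × ℂ => q v.1) v := aq.comp_of_eq a1 rfl
  have h4 : AnalyticAt ℂ (fun v : ℂ × ℂ × ℂ => F v.1) v := aF.comp_of_eq a1 rfl
  have h5 : AnalyticAt ℂ (fun v : ℂ × ℂ × ℂ => cos (v.2.1 - F v.1)) v :=
    (Complex.differentiable_cos.analyticAt _).comp (a2.sub h4)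
  have h6 : AnalyticAt ℂ (fun v : ℂ × ℂ × ℂ => sin (v.2.1 - F v.1)) v :=
    (Complex.differentiable_sin.analyticAt _).comp (a2.sub h4)
  exact (h1.mul ((h3.mul h5).sub a3)).add (h2.mul h6)

/-- local uniqueness of the position on a line -/
theorem Inc_unique' {v : ℂ × ℂ × ℂ} (aF : AnalyticAt ℂ F v.1) (aq : AnalyticAt ℂ q v.1)
    (h : Incx F q v ≠ 0) :
    ∀ᶠ z in 𝓝 (v, v), Inc F q z.1 = 0 → Inc F q z.2 = 0 → z.1.2 = z.2.2 → z.1.1 = z.2.1 := by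
  have hs := (analyticAt_Inc' v aF aq).hasStrictFDerivAt
  set D := fderiv ℂ (Inc F q) v with hD
  have hD1 : D (1, 0, 0) = Incx F q v := by
    have c1 : HasDerivAt (fun s : ℂ => ((s, v.2) : ℂ × ℂ × ℂ)) (1, 0) v.1 :=
      (hasDerivAt_id v.1).prodMk (hasDerivAt_const v.1 v.2)
    have e0 : HasFDerivAt (Inc F q) D ((fun s : ℂ => ((s, v.2) : ℂ × ℂ × ℂ)) v.1) :=
      hs.hasFDerivAt
    have e1 := e0.comp_hasDerivAt v.1 c1
    have e2 := hasDerivAt_Inc' (x := fun s => s) (s := v.1) aF aq (hasDerivAt_id v.1)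
      (hasDerivAt_const v.1 v.2.1) (hasDerivAt_const v.1 v.2.2)
    have e3 : D (1, 0) = _ := HasDerivAt.unique e1 e2
    have : ((1, 0, 0) : ℂ × ℂ × ℂ) = (1, 0) := rfl
    rw [this, e3]
    simp
  have hk : 0 < ‖Incx F q v‖ / 2 := by positivity
  have h1 := hs.isLittleO.def hk
  filter_upwards [h1] with z hz e1 e2 e3
  by_contra hne
  have hd : z.1 - z.2 = (z.1.1 - z.2.1) • ((1, 0, 0) : ℂ × ℂ × ℂ) := by
    refine Prod.ext ?_ ?_
    · simp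
    · have : (z.1 - z.2).2 = z.1.2 - z.2.2 := rfl
      rw [this, e3, sub_self]
      ext <;> simp
  have hn : ‖z.1 - z.2‖ = ‖z.1.1 - z.2.1‖ := by
    rw [hd, norm_smul]
    have : ‖((1, 0, 0) : ℂ × ℂ × ℂ)‖ = 1 := by simp [Prod.norm_def]
    rw [this, mul_one]
  rw [e1, e2, hn, hd, map_smul, hD1, sub_self, zero_sub, norm_neg, norm_smul] at hz
  have hp : 0 < ‖z.1.1 - z.2.1‖ := by
    rw [norm_pos_iff, sub_ne_zero]
    exact hne
  have hi : 0 < ‖Incx F q v‖ := by positivity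
  nlinarith [mul_pos hp hi]

end

/-! ### periodicity -/

theorem str_add_int {b : ℝ} {z : ℂ} (hz : z ∈ Str b) (n : ℤ) : z + n ∈ Str b := by
  have h : |z.im| < b := hz
  show |(z + n).im| < b
  simpa using h

theorem F_intC {Λ b : ℝ} {F q Q : ℂ → ℂ} (B : CC.Bs Λ b F q Q) (n : ℤ) {z : ℂ} (hz : z ∈ Str b) :
    F (z + n) = F z + 2 * Real.pi * n ∧ q (z + n) = q z ∧ deriv F (z + n) = deriv F z ∧
      deriv q (z + n) = deriv q z := by
  have hper : ∀ {f : ℂ → ℂ} {k : ℂ}, (∀ z ∈ Str b, f (z + 1) = f z + k) → ∀ (n : ℤ) (z : ℂ),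
      z ∈ Str b → f (z + n) = f z + n * k := by
    intro f k hf n z hz
    exact int_per (f := fun u : ℂ × ℂ => f u.1) (k := k) (w := 0) (b₀ := b) (fun t ht => hf t ht)
      n z hz
  have e1 : ∀ z ∈ Str b, F (z + n) = F z + 2 * Real.pi * n := by
    intro z hz
    rw [hper (f := F) (k := 2 * Real.pi) B.Fp n z hz]
    ring
  have e2 : ∀ z ∈ Str b, q (z + n) = q z := by
    intro z hz
    rw [hper (f := q) (k := 0) (fun z hz => by rw [B.qp z hz, add_zero]) n z hz]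
    ring
  have hn := (isOpen_Str b).mem_nhds hz
  refine ⟨e1 z hz, e2 z hz, ?_, ?_⟩
  · have h3 : (fun s => F (s + n)) =ᶠ[𝓝 z] fun s => F s + 2 * Real.pi * n := by
      filter_upwards [hn] with s hs using e1 s hs
    have h4 : deriv (fun s => F (s + n)) z = deriv F (z + n) := deriv_comp_add_const F (n : ℂ) z
    rw [← h4, h3.deriv_eq]
    exact deriv_add_const _
  · have h3 : (fun s => q (s + n)) =ᶠ[𝓝 z] fun s => q s := by
      filter_upwards [hn] with s hs using e2 s hs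
    have h4 : deriv (fun s => q (s + n)) z = deriv q (z + n) := deriv_comp_add_const q (n : ℂ) z
    rw [← h4, h3.deriv_eq]

theorem Inc_intC {Λ b : ℝ} {F q Q : ℂ → ℂ} (B : CC.Bs Λ b F q Q) (n : ℤ) {x : ℂ}
    (hx : x ∈ Str b) (a c : ℂ) : Inc F q (x - n, a, c) = Inc F q (x, a, c) := by
  have hx' : x - n ∈ Str b := by
    have := str_add_int hx (-n)
    simpa [sub_eq_add_neg] using this
  obtain ⟨h1, h2, h3, h4⟩ := F_intC B n hx'
  rw [sub_add_cancel] at h1 h2 h3 h4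
  have h5 : a - F x = a - F (x - n) - n * (2 * Real.pi) := by rw [h1]; ring
  simp only [Inc, ← h2, ← h3, ← h4]
  rw [h5, Complex.cos_sub_int_mul_two_pi, Complex.sin_sub_int_mul_two_pi]

/-! ### tubes -/

theorem convex_PdC (y ρ : ℝ) : Convex ℝ (Pd (fun _ => y) ρ) := by
  have h1 : ConvexOn ℝ univ fun z : ℂ × ℂ => |z.1.im| + |z.2.im| / 2 := by
    refine ⟨convex_univ, ?_⟩
    intro x _ z _ a c ha hc hac
    have e1 : (a • x + c • z).1.im = a * x.1.im + c * z.1.im := by simp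
    have e2 : (a • x + c • z).2.im = a * x.2.im + c * z.2.im := by simp
    simp only [e1, e2, smul_eq_mul]
    have k1 := abs_add_le (a * x.1.im) (c * z.1.im)
    have k2 := abs_add_le (a * x.2.im) (c * z.2.im)
    rw [abs_mul, abs_mul, abs_of_nonneg ha, abs_of_nonneg hc] at k1 k2
    linarith
  have h2 : ConvexOn ℝ univ fun z : ℂ × ℂ => ‖z.2‖ := by
    refine ⟨convex_univ, ?_⟩
    intro x _ z _ a c ha hc hac
    have e2 : (a • x + c • z).2 = a • x.2 + c • z.2 := by simp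
    simp only [e2, smul_eq_mul]
    have k2 := norm_add_le (a • x.2) (c • z.2)
    rw [norm_smul, norm_smul, Real.norm_of_nonneg ha, Real.norm_of_nonneg hc] at k2
    exact k2
  have e : Pd (fun _ => y) ρ = {z ∈ univ | |z.1.im| + |z.2.im| / 2 < y} ∩ {z ∈ univ | ‖z.2‖ < ρ} := by
    ext z
    simp [Pd]
  rw [e]
  exact (h1.convex_lt y).inter (h2.convex_lt ρ)

theorem Tb_sub_Pd {y ρ : ℝ} : Tb (y - ρ) ρ ⊆ Pd (fun _ => y) ρ := by
  rintro ⟨t, w⟩ ⟨h1, h2⟩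
  refine ⟨?_, h2⟩
  have h1' : |t.im| < y - ρ := h1
  have h2' : ‖w‖ < ρ := h2
  have h3 := abs_im_le_norm w
  show |t.im| + |w.im| / 2 < y
  have := norm_nonneg w
  linarith

section
variable {κ Λ : ℝ} {H Φ : ℂ → ℂ} {r e : ℝ} {α p : ℂ → ℂ → ℂ} {J : ℂ → ℂ}
  {y ρ : ℝ} {A P : ℂ × ℂ → ℂ} {Λ' b : ℝ} {F q Q : ℂ → ℂ} {θ : ℂ × ℂ → ℂ}

/-- the positions on a tube agree with the local positions -/
theorem PoC.eq_loc (N : Lines κ Λ H Φ r e α p J) (T : Rd α p (fun _ => y) ρ A P)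
    (hB : CC.Bs Λ' b F q Q) {r₀ : ℝ} {θ₀ : ℂ × ℂ → ℂ} (L : LocC b r₀ r e α p F q θ₀) (he : ρ ≤ r₀)
    (hθ : PoC b F q (fun _ => y) ρ A P θ) {t w : ℂ} (h : (t, w) ∈ Pd (fun _ => y) ρ)
    (ht : |t.im| < r₀) : θ (t, w) = θ₀ (t, w) := by
  have hr₀ := L.r0
  have hρ := T.e0
  have hy : 0 < y := T.R0 0 (by simpa using hρ)
  set S : Set (ℂ × ℂ) := Pd (fun _ => y) ρ ∩ Tb r₀ r₀ with hS
  have hSc : Convex ℝ S := (convex_PdC y ρ).inter (H324.CD.convex_Tb r₀ r₀)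
  have h0 : ((0 : ℂ), (0 : ℂ)) ∈ S := ⟨⟨by simpa using hy, by simpa using hρ⟩,
    ⟨by simpa using hr₀, by simpa using hr₀⟩⟩
  have hSo : IsOpen S := (isOpen_Pd T).inter (H324.CD.isOpen_Tb r₀ r₀)
  have z1 : θ (0, 0) = 0 := hθ.z 0 h0.1
  have z2 : θ₀ (0, 0) = 0 := L.z 0 (by simpa using hr₀)
  have hB0 : (0 : ℂ) ∈ Str b := by
    show |(0 : ℂ).im| < b
    simpa using hB.b0
  have aF : AnalyticAt ℂ F 0 := (hB.dF.analyticOnNhd (isOpen_Str b)) 0 hB0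
  have hg : deriv F 0 ≠ 0 := by
    intro h
    have := hB.gpos 0
    rw [ofReal_zero, h] at this
    simp at this
  have hinj := loc_inj aF hg
  have c1 : Tendsto (fun u : ℂ × ℂ => (θ u, θ₀ u)) (𝓝 ((0 : ℂ), (0 : ℂ))) (𝓝 ((0 : ℂ), (0 : ℂ))) := by
    have k1 := (hθ.an _ h0.1).continuousAt.tendsto
    have k2 := (L.an _ h0.2).continuousAt.tendsto
    rw [z1] at k1
    rw [z2] at k2
    exact k1.prodMk_nhds k2
  have hev : θ =ᶠ[𝓝 ((0 : ℂ), (0 : ℂ))] θ₀ := by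
    filter_upwards [c1.eventually hinj, hSo.mem_nhds h0] with u h1 h2
    refine h1 ?_
    show F (θ u) = F (θ₀ u)
    have h2' : (u.1, u.2) ∈ Pd (fun _ => y) ρ := h2.1
    have h3 := hθ.sA u.1 u.2 h2'
    have h4 := (loc_rel N T L he h2' h2.2.1).2.1
    have e : ((u.1, u.2) : ℂ × ℂ) = u := rfl
    rw [e] at h3 h4
    linear_combination (1 / 2 : ℂ) * h4 - (1 / 2 : ℂ) * h3
  exact (hθ.an.mono inter_subset_left).eqOn_of_preconnected_of_eventuallyEq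
    (L.an.mono inter_subset_right) hSc.isPreconnected h0 hev
    ⟨h, ht, h.2.trans_le he⟩

/-- **consecutive vertices are different** -/
theorem PoC.om (N : Lines κ Λ H Φ r e α p J) (T : Rd α p (fun _ => y) ρ A P) (he : ρ ≤ e)
    (hB : CC.Bs Λ' b F q Q) (hy : 2 * ρ < y)
    (hθ : PoC b F q (fun _ => y) ρ A P θ) {t w : ℂ} (ht : |t.im| < y - 2 * ρ) (hw : ‖w‖ < ρ)
    (hne : w ≠ 0) (n : ℤ) : θ (t + w / 2, w) - θ (t - w / 2, w) ≠ n := by
  intro hn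
  have hρ0 := T.e0
  have hPo := isOpen_Pd T
  set S : Set (ℂ × ℂ) := Tb (y - 2 * ρ) ρ with hS
  have hSo : IsOpen S := H324.CD.isOpen_Tb _ _
  have hSc : IsPreconnected S := (H324.CD.convex_Tb _ _).isPreconnected
  have hu : ((t, w) : ℂ × ℂ) ∈ S := ⟨ht, hw⟩
  have sh : ∀ u ∈ S, (u.1 + u.2 / 2, u.2) ∈ Pd (fun _ => y) ρ ∧
      (u.1 - u.2 / 2, u.2) ∈ Pd (fun _ => y) ρ := by
    rintro ⟨t, w⟩ ⟨h1, h2⟩
    have h1' : |t.im| < y - 2 * ρ := h1
    have h2' : ‖w‖ < ρ := h2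
    have h3 := abs_im_le_norm w
    have h4 := im_half t w
    have h5 := norm_nonneg w
    refine ⟨⟨?_, h2⟩, ⟨?_, h2⟩⟩
    · show |(t + w / 2).im| + |w.im| / 2 < y
      linarith [h4.1]
    · show |(t - w / 2).im| + |w.im| / 2 < y
      linarith [h4.2]
  have hDm : ∀ u ∈ S, u ∈ Dm (fun _ => y) ρ := fun u hu => ⟨by
    have : |u.1.im| < y - 2 * ρ := hu.1
    show |u.1.im| < y
    linarith, hu.2⟩
  have aθp : AnalyticOnNhd ℂ (fun u : ℂ × ℂ => θ (u.1 + u.2 / 2, u.2)) S := fun u hu =>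
    H324.CD.comp_add (hθ.an _ (sh u hu).1)
  have aθm : AnalyticOnNhd ℂ (fun u : ℂ × ℂ => θ (u.1 - u.2 / 2, u.2)) S := fun u hu =>
    H324.CD.comp_sub (hθ.an _ (sh u hu).2)
  have tr : Incx F q (θ (t - w / 2, w), A (t, w), P (t, w)) ≠ 0 := by
    have := (hθ.tr N hB T he (sh _ hu).2 hne).1
    simp only [sub_add_cancel] at this
    exact this
  have hmb : θ (t - w / 2, w) ∈ Str b := hθ.mem _ (sh _ hu).2
  have un := Inc_unique' (v := (θ (t - w / 2, w), A (t, w), P (t, w)))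
    ((hB.dF.analyticOnNhd (isOpen_Str b)) _ hmb) ((hB.dq.analyticOnNhd (isOpen_Str b)) _ hmb) tr
  have k1 : ContinuousAt (fun u : ℂ × ℂ => (θ (u.1 - u.2 / 2, u.2), A u, P u)) (t, w) :=
    (aθm _ hu).continuousAt.prodMk
      ((T.aA _ (hDm _ hu)).continuousAt.prodMk (T.aP _ (hDm _ hu)).continuousAt)
  have k2 : ContinuousAt (fun u : ℂ × ℂ => (θ (u.1 + u.2 / 2, u.2) - n, A u, P u)) (t, w) :=
    ((aθp _ hu).continuousAt.sub continuousAt_const).prodMk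
      ((T.aA _ (hDm _ hu)).continuousAt.prodMk (T.aP _ (hDm _ hu)).continuousAt)
  have hn' : θ (t + w / 2, w) - n = θ (t - w / 2, w) := by linear_combination hn
  have k3 : Tendsto (fun u : ℂ × ℂ => ((θ (u.1 + u.2 / 2, u.2) - n, A u, P u),
      (θ (u.1 - u.2 / 2, u.2), A u, P u))) (𝓝 (t, w))
      (𝓝 ((θ (t - w / 2, w), A (t, w), P (t, w)), (θ (t - w / 2, w), A (t, w), P (t, w)))) := by
    have h1 := k2.tendsto
    simp only [hn'] at h1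
    exact h1.prodMk_nhds k1.tendsto
  have near : (fun u : ℂ × ℂ => θ (u.1 + u.2 / 2, u.2) - n) =ᶠ[𝓝 ((t, w) : ℂ × ℂ)]
      fun u => θ (u.1 - u.2 / 2, u.2) := by
    filter_upwards [k3.eventually un, hSo.mem_nhds hu] with u h1 h2
    refine h1 ?_ ?_ rfl
    · show Inc F q (θ (u.1 + u.2 / 2, u.2) - n, A u, P u) = 0
      rw [Inc_intC hB n (hθ.mem _ (sh u h2).1)]
      have := (hθ.inc (sh u h2).1).2
      rwa [add_sub_cancel_right] at this
    · show Inc F q (θ (u.1 - u.2 / 2, u.2), A u, P u) = 0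
      have := (hθ.inc (sh u h2).2).1
      rwa [sub_add_cancel] at this
  have glob := (aθp.sub analyticOnNhd_const).eqOn_of_preconnected_of_eventuallyEq aθm
    hSc hu near
  have hy2 : 0 < y - 2 * ρ := by linarith
  have z1 : ((0 : ℂ), (0 : ℂ)) ∈ S := ⟨by simpa using hy2, by simpa using hρ0⟩
  have z1' : ((0 : ℂ), (0 : ℂ)) ∈ Pd (fun _ => y) ρ := ⟨by
    show |(0 : ℂ).im| + |(0 : ℂ).im| / 2 < y
    simp; linarith, by simpa using hρ0⟩
  have h0 : θ (0, 0) = 0 := hθ.z 0 z1'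
  have n0 : (n : ℂ) = 0 := by
    have h1 := glob z1
    simp [h0] at h1
    simpa using h1
  -- the derivative in `w`
  have nr : ∀ᶠ s : ℂ in 𝓝 0, θ (s / 2, s) = θ (-(s / 2), s) := by
    have cc : Tendsto (fun s : ℂ => ((0, s) : ℂ × ℂ)) (𝓝 0) (𝓝 ((0 : ℂ), (0 : ℂ))) := by
      have : Continuous fun s : ℂ => ((0, s) : ℂ × ℂ) := by fun_prop
      exact this.tendsto 0
    filter_upwards [cc.eventually (hSo.mem_nhds z1)] with s hs
    have hs' : ((0, s) : ℂ × ℂ) ∈ S := hs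
    have h1 := glob hs'
    simp only [n0, Pi.sub_apply] at h1
    simpa using h1
  have zn : ∀ᶠ t in 𝓝 (0 : ℂ), θ (t, 0) = t := by
    have cc : Tendsto (fun s : ℂ => ((s, 0) : ℂ × ℂ)) (𝓝 0) (𝓝 ((0 : ℂ), (0 : ℂ))) := by
      have : Continuous fun s : ℂ => ((s, 0) : ℂ × ℂ) := by fun_prop
      exact this.tendsto 0
    filter_upwards [cc.eventually (hPo.mem_nhds z1')] with s hs using hθ.z s hs
  have dθ := (hθ.an _ z1').differentiableAt.hasFDerivAt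
  set Dθ := fderiv ℂ θ ((0 : ℂ), (0 : ℂ)) with hDθ
  have p1 : HasDerivAt (fun s : ℂ => ((s / 2, s) : ℂ × ℂ)) (1 / 2, 1) 0 :=
    ((hasDerivAt_id (0 : ℂ)).div_const 2).prodMk (hasDerivAt_id 0)
  have p2 : HasDerivAt (fun s : ℂ => ((-(s / 2), s) : ℂ × ℂ)) (-(1 / 2), 1) 0 :=
    ((hasDerivAt_id (0 : ℂ)).div_const 2).neg.prodMk (hasDerivAt_id 0)
  have p3 : HasDerivAt (fun s : ℂ => ((s, 0) : ℂ × ℂ)) (1, 0) 0 :=
    (hasDerivAt_id (0 : ℂ)).prodMk (hasDerivAt_const 0 0)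
  have q1 : HasDerivAt (fun s : ℂ => θ (s / 2, s)) (Dθ (1 / 2, 1)) 0 :=
    HasFDerivAt.comp_hasDerivAt_of_eq (f := fun s : ℂ => ((s / 2, s) : ℂ × ℂ)) (0 : ℂ) dθ p1
      (by simp)
  have q2 : HasDerivAt (fun s : ℂ => θ (-(s / 2), s)) (Dθ (-(1 / 2), 1)) 0 :=
    HasFDerivAt.comp_hasDerivAt_of_eq (f := fun s : ℂ => ((-(s / 2), s) : ℂ × ℂ)) (0 : ℂ) dθ p2
      (by simp)
  have q3 : HasDerivAt (fun s : ℂ => θ (s, 0)) (Dθ (1, 0)) 0 :=
    HasFDerivAt.comp_hasDerivAt_of_eq (f := fun s : ℂ => ((s, 0) : ℂ × ℂ)) (0 : ℂ) dθ p3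
      (by simp)
  have e1 : Dθ (1 / 2, 1) = Dθ (-(1 / 2), 1) := by
    have h1 : (fun s : ℂ => θ (s / 2, s)) =ᶠ[𝓝 0] fun s => θ (-(s / 2), s) := nr
    exact (q1.congr_of_eventuallyEq h1.symm).unique q2
  have e2 : Dθ (1, 0) = 1 := by
    have h1 : (fun s : ℂ => θ (s, 0)) =ᶠ[𝓝 0] fun s => s := zn
    exact (q3.congr_of_eventuallyEq h1.symm).unique (hasDerivAt_id 0)
  have e3 : ((1, 0) : ℂ × ℂ) = (1 / 2, 1) - (-(1 / 2), 1) := by
    refine Prod.ext ?_ ?_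
    · show (1 : ℂ) = 1 / 2 - -(1 / 2)
      norm_num
    · show (0 : ℂ) = 1 - 1
      norm_num
  rw [e3, map_sub, e1, sub_self] at e2
  exact zero_ne_one e2

end

/-- **Row P, strip version** (case [c]) : positions on tubes, with `CD.Po` and `CD.Lo1` of case
[d], and my `PoC` (values in `Str b`) -/
def RowPC : Prop := ∀ {κ Λ b : ℝ} {H Φ : ℂ → ℂ} {r e : ℝ} {α p : ℂ → ℂ → ℂ} {J F q Q : ℂ → ℂ},
  CC.En κ Λ b H Φ r e α p J F q → CC.Bs Λ b F q Q → ∃ e₁ > 0, ∃ C₁ ≥ 1,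
  ∀ {y ρ : ℝ} {A P : ℂ × ℂ → ℂ}, CD.Tu α p y ρ A P → ρ ≤ e₁ → 2 * ρ < y →
  ∃ θ, PoC b F q (fun _ => y) ρ A P θ ∧ CD.Po F q y ρ A P θ ∧ CD.Lo1 ρ C₁ θ ∧
    ∀ z ∈ CD.Tb (y - ρ) ρ, θ z ∈ Str b

theorem rowPC : RowPC := by
  intro κ Λ b H Φ r e α p J F q Q hE hB
  obtain ⟨e₀, he₀, he₀e, hex⟩ := exists_poC hE hB
  obtain ⟨r₀, θ₀, L⟩ := exists_locC hE.ctx hE.b0 hE.dF hE.dq hE.re
  have hr₀ := L.r0
  have N := hE.ctx.ln
  have hWW : ∀ t w : ℂ, (t, w) ∈ WW (1 / 2) r₀ r₀ → (t, w) ∈ Tb r₀ r₀ := by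
    rintro t w ⟨h1, h2⟩
    have h2' : |t.im| + 1 / 2 * |w.im| < r₀ := h2
    refine ⟨?_, h1⟩
    have := abs_nonneg w.im
    show |t.im| < r₀
    linarith
  obtain ⟨r₁, e₁, C, hr₁0, he₁0, hr₁r, hr₁ρ, he₁e, he₁r, hC, hMw⟩ := H324.CD.lo_pre hr₀ hr₀ hr₀
    (fun z hz => L.an z (hWW z.1 z.2 hz)) (fun t w h => L.per t w (hWW t w h))
    (fun t ht _ => L.z t ht)
  refine ⟨min e₀ (min e₁ r₀), lt_min he₀ (lt_min he₁0 hr₀), 1 + C, by linarith, ?_⟩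
  intro y ρ A P T hρ hy
  have k1 : ρ ≤ e₀ := hρ.trans (min_le_left _ _)
  have k2 : ρ ≤ e₁ := hρ.trans ((min_le_right _ _).trans (min_le_left _ _))
  have k3 : ρ ≤ r₀ := hρ.trans ((min_le_right _ _).trans (min_le_right _ _))
  have T' : Rd α p (fun _ => y) ρ A P := rd_of_tu T T.ρ0 le_rfl
  obtain ⟨θ, hθ⟩ := hex T' k1 (fun _ => rfl) (fun _ => rfl)
  have hs : Tb (y - ρ) ρ ⊆ Pd (fun _ => y) ρ := Tb_sub_Pd
  refine ⟨θ, hθ, ?_, ?_, fun z hz => hθ.mem z (hs hz)⟩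
  · refine ⟨hθ.an.mono hs, fun t ht => hθ.z t (hs ⟨ht, by simpa using T.ρ0⟩),
      fun t w h => hθ.per t w (hs h), fun t w h => hθ.ev t w (hs h), fun t w h => hθ.sA t w (hs h),
      fun t w h => hθ.sP t w (hs h), fun t w h => hθ.dP t w (hs h),
      fun t w ht hw hne n => hθ.om N T' (k1.trans he₀e) hB hy ht hw hne n,
      fun t w h hne hg => hθ.tg N hB T' (k1.trans he₀e) (hs h) hne hg⟩
  · intro t w ht hw
    have h1 : (t, w) ∈ Pd (fun _ => y) ρ := by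
      refine ⟨?_, hw⟩
      have := abs_im_le_norm w
      have := T.ρ0
      show |t.im| + |w.im| / 2 < y
      linarith
    rw [hθ.eq_loc N T' hB L k3 h1 (by linarith)]
    have h2 := hMw t w (by linarith) (by linarith)
    have := norm_nonneg w
    nlinarith

end Vale.Agent.P097.H456.C
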