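import Vale.Agent.P097.H456.C.Reg
import Vale.Agent.P097.H456.Sp.Step

/-! # P097 (helper456) / R0.4: positions on strips and one step of the chain, case [c] -/

set_option linter.all false

open Complex Metric Set Filter Topology

namespace Vale.Agent.P097.H456.C

open Vale.Agent.P097 Vale.Agent.P097.TA Vale.Agent.P097.H202 Vale.Agent.P097.SC
open Vale.Agent.P097.H456.Fct Vale.Agent.P097.H456.Sp Vale.Agent.P097.CC

/-- local position at the real label `v`, near `t = v / 2` -/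
def LP (b : ℝ) (F q : ℂ → ℂ) (A P : ℂ × ℂ → ℂ) (v : ℝ) : Prop :=
  ∃ θ : ℂ → ℂ, AnalyticAt ℂ θ ((v : ℂ) / 2) ∧ θ ((v : ℂ) / 2) ∈ Str b ∧
    (¬ ∀ᶠ t in 𝓝 ((v : ℂ) / 2), θ t = θ ((v : ℂ) / 2)) ∧
    ∀ᶠ t in 𝓝 ((v : ℂ) / 2), A (t, v) + A (t - v, v) = 2 * F (θ t) ∧
      P (t, v) + P (t - v, v) = 2 * q (θ t) * cos ((A (t, v) - A (t - v, v)) / 2) ∧
      cos ((A (t, v) - A (t - v, v)) / 2) ≠ 0

/-- position on a strip, values in `Str b` -/
structure PsC (b : ℝ) (F q : ℂ → ℂ) (v b₀ c : ℝ) (a p θ : ℂ → ℂ) : Prop where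
  dθ : DifferentiableOn ℂ θ (Sr b₀ c)
  mem : MapsTo θ (Sr b₀ c) (Str b)
  sA : ∀ t ∈ Sr b₀ c, a t + a (t - v) = 2 * F (θ t)
  sP : ∀ t ∈ Sr b₀ c, p t + p (t - v) = 2 * q (θ t) * cos (F (θ t) - a (t - v))
  cs : ∃ t ∈ Sr b₀ c, cos (F (θ t) - a (t - v)) ≠ 0
  nd : ∃ t ∈ Sr b₀ c, deriv θ t ≠ 0

/-- positions on a strip, from the local position and Row Lift -/
theorem exists_posC (hL : CC.RowLift) {Λ b : ℝ} {F q Q : ℂ → ℂ} (hB : CC.Bs Λ b F q Q)
    {A P : ℂ × ℂ → ℂ} {v : ℝ} (hP : LP b F q A P v) {b₀ c : ℝ} (hb₀ : 0 < b₀) (hc : b₀ ≤ c)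
    {a s : ℂ → ℂ} (ha : AnalyticOnNhd ℂ a (Sr b₀ c)) (hs : AnalyticOnNhd ℂ s (Sr b₀ c))
    (hag : ∀ t : ℂ, |t.im| < b₀ → a t = A (t, v) ∧ s t = P (t, v)) :
    ∃ θ, PsC b F q v b₀ c a s θ := by
  obtain ⟨θb, aθb, mθb, hnc', hloc'⟩ := hP
  have ha' := an_shift ha v
  have hs' := an_shift hs v
  have hcos : AnalyticOnNhd ℂ (fun t => cos ((a t - a (t - v)) / 2)) (Sr b₀ c) := fun t ht =>
    an_cos1 (((ha t ht).sub (ha' t ht)).div_const)
  have m1 : MeromorphicOn (fun t => exp (2 * I * ((a t + a (t - v)) / 2))) (Sr b₀ c) := fun t ht =>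
    ((analyticAt_const.mul (((ha t ht).add (ha' t ht)).div_const)).cexp).meromorphicAt
  have m2 : MeromorphicOn (fun t => (s t + s (t - v)) / (2 * cos ((a t - a (t - v)) / 2)) *
      exp (-I * ((a t + a (t - v)) / 2))) (Sr b₀ c) := fun t ht =>
    (((hs t ht).add (hs' t ht)).meromorphicAt.div (analyticAt_const.mul (hcos t ht)).meromorphicAt).mul
      ((analyticAt_const.mul (((ha t ht).add (ha' t ht)).div_const)).cexp).meromorphicAt
  have z0 : ((v : ℂ) / 2) ∈ Sr b₀ c := Sr_of hc (by simpa using hb₀)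
  have hsm : ∀ᶠ t : ℂ in 𝓝 ((v : ℂ) / 2), |t.im| < b₀ :=
    (isOpen_lt (f := fun t : ℂ => |t.im|) (by fun_prop) continuous_const).mem_nhds
      (by simpa using hb₀)
  have hloc : ∀ᶠ t in 𝓝 ((v : ℂ) / 2), a t + a (t - v) = 2 * F (θb t) ∧
      s t + s (t - v) = 2 * q (θb t) * cos ((a t - a (t - v)) / 2) ∧
      cos ((a t - a (t - v)) / 2) ≠ 0 := by
    filter_upwards [hloc', hsm] with t h1 h2
    have h3 := hag t h2
    have h4 := hag (t - v) (by simpa using h2)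
    rw [h3.1, h3.2, h4.1, h4.2]
    exact h1
  have hev : ∀ᶠ t in 𝓝 ((v : ℂ) / 2), exp (2 * I * ((a t + a (t - v)) / 2)) =
        exp (2 * I * F (θb t)) ∧
      (s t + s (t - v)) / (2 * cos ((a t - a (t - v)) / 2)) * exp (-I * ((a t + a (t - v)) / 2)) =
        q (θb t) * exp (-I * F (θb t)) := by
    filter_upwards [hloc] with t ht
    obtain ⟨h1, h2, h3⟩ := ht
    rw [h1, h2, show 2 * F (θb t) / 2 = F (θb t) by ring]
    refine ⟨rfl, ?_⟩
    congr 1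
    generalize cos ((a t - a (t - v)) / 2) = c at h3 ⊢
    field_simp
  obtain ⟨θ, dθ, mθ, hθ, -⟩ := hL hB (isOpen_Sr b₀ c) (convex_Sr b₀ c) m1 m2 z0 aθb mθb hnc' hev
  have aθ : AnalyticOnNhd ℂ θ (Sr b₀ c) := dθ.analyticOnNhd (isOpen_Sr _ _)
  have aF : AnalyticOnNhd ℂ (fun t => F (θ t)) (Sr b₀ c) := fun t ht =>
    ((hB.dF.analyticOnNhd (isOpen_Str b)) _ (mθ ht)).comp_of_eq (aθ t ht) rfl
  have aq : AnalyticOnNhd ℂ (fun t => q (θ t)) (Sr b₀ c) := fun t ht =>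
    ((hB.dq.analyticOnNhd (isOpen_Str b)) _ (mθ ht)).comp_of_eq (aθ t ht) rfl
  have pc := (convex_Sr b₀ c).isPreconnected
  have sA : ∀ t ∈ Sr b₀ c, a t + a (t - v) = 2 * F (θ t) := by
    intro t ht
    have h1 : AnalyticOnNhd ℂ (fun t => a t + a (t - v)) (Sr b₀ c) := ha.add ha'
    have h2 : AnalyticOnNhd ℂ (fun t => 2 * F (θ t)) (Sr b₀ c) := fun t ht =>
      analyticAt_const.mul (aF t ht)
    refine h1.eqOn_of_preconnected_of_eventuallyEq h2 pc z0 ?_ ht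
    filter_upwards [hloc, hθ] with t h3 h4
    rw [h3.1, h4]
  have hd : ∀ t ∈ Sr b₀ c, (a t - a (t - v)) / 2 = F (θ t) - a (t - v) := by
    intro t ht
    linear_combination (sA t ht) / 2
  refine ⟨θ, dθ, mθ, sA, ?_, ?_, ?_⟩
  · intro t ht
    have h1 : AnalyticOnNhd ℂ (fun t => s t + s (t - v)) (Sr b₀ c) := hs.add hs'
    have h2 : AnalyticOnNhd ℂ (fun t => 2 * q (θ t) * cos ((a t - a (t - v)) / 2)) (Sr b₀ c) :=
      fun t ht => (analyticAt_const.mul (aq t ht)).mul (hcos t ht)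
    have h3 := h1.eqOn_of_preconnected_of_eventuallyEq h2 pc z0 (by
      filter_upwards [hloc, hθ] with t h3 h4
      rw [h3.2.1, h4]) ht
    simp only [] at h3
    rw [h3, hd t ht]
  · refine ⟨_, z0, ?_⟩
    rw [← hd _ z0]
    exact hloc.self_of_nhds.2.2
  · by_contra hcon
    push Not at hcon
    apply hnc'
    have h1 : ∀ t ∈ Sr b₀ c, θ t = θ ((v : ℂ) / 2) := fun t ht =>
      H324.CD.const_of_deriv (convex_Sr b₀ c) (fun z hz => by
        have h2 := (aθ z hz).differentiableAt.hasDerivAt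
        rwa [hcon z hz] at h2) ht z0
    have h2 := hθ.self_of_nhds
    filter_upwards [hθ, (isOpen_Sr b₀ c).mem_nhds z0] with t h3 h4
    rw [← h3, ← h2, h1 t h4]

/-- generic points of a position -/
theorem PsC.gen {Λ b : ℝ} {F q Q : ℂ → ℂ} (hB : CC.Bs Λ b F q Q) {v b₀ c : ℝ} {a p θ : ℂ → ℂ}
    (h : PsC b F q v b₀ c a p θ) (ha : AnalyticOnNhd ℂ a (Sr b₀ c)) {V : Set ℂ} (hV : IsOpen V)
    (hVn : V.Nonempty) (hVs : V ⊆ Sr b₀ c) :
    ∃ t ∈ V, cos (F (θ t) - a (t - v)) ≠ 0 ∧ deriv θ t ≠ 0 := by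
  have aθ : AnalyticOnNhd ℂ θ (Sr b₀ c) := h.dθ.analyticOnNhd (isOpen_Sr _ _)
  have pc := (convex_Sr b₀ c).isPreconnected
  have hne : ∀ {f : ℂ → ℂ}, AnalyticOnNhd ℂ f (Sr b₀ c) → (∃ t ∈ Sr b₀ c, f t ≠ 0) →
      ∀ {W : Set ℂ}, IsOpen W → W.Nonempty → W ⊆ Sr b₀ c → ∃ t ∈ W, f t ≠ 0 := by
    intro f hf hf0 W hW hWn hWs
    by_contra hcon
    push Not at hcon
    obtain ⟨w, hw⟩ := hWn
    obtain ⟨t, ht, hft⟩ := hf0
    exact hft (hf.eqOn_zero_of_preconnected_of_eventuallyEq_zero pc (hWs hw)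
      (by filter_upwards [hW.mem_nhds hw] with s hs using hcon s hs) ht)
  have acos : AnalyticOnNhd ℂ (fun t => cos (F (θ t) - a (t - v))) (Sr b₀ c) := fun t ht =>
    an_cos1 ((((hB.dF.analyticOnNhd (isOpen_Str b)) _ (h.mem ht)).comp_of_eq (aθ t ht) rfl).sub
      (an_shift ha v t ht))
  obtain ⟨t₁, ht₁, hc₁⟩ := hne acos h.cs hV hVn hVs
  set V' : Set ℂ := V ∩ {t | cos (F (θ t) - a (t - v)) ≠ 0} with hV'
  have hV'o : IsOpen V' := by
    rw [isOpen_iff_mem_nhds]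
    rintro t ⟨ht, ht'⟩
    exact inter_mem (hV.mem_nhds ht) ((acos t (hVs ht)).continuousAt.eventually_ne ht')
  have hV's : V' ⊆ Sr b₀ c := fun t ht => hVs ht.1
  obtain ⟨t, ht, h3⟩ := hne aθ.deriv h.nd hV'o ⟨t₁, ht₁, hc₁⟩ hV's
  exact ⟨t, ht.1, ht.2, h3⟩

theorem exp_key (x y : ℂ) : exp (I * x) + exp (I * y) =
    2 * cos ((x - y) / 2) * exp (I * ((x + y) / 2)) := by
  rw [Complex.cos, show I * x = (x - y) / 2 * I + I * ((x + y) / 2) by ring,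
    show I * y = -((x - y) / 2) * I + I * ((x + y) / 2) by ring, exp_add, exp_add]
  ring

/-- **one step**, case [c] -/
theorem stepC (hL : CC.RowLift) {Λ b : ℝ} {F q Q : ℂ → ℂ} (hB : CC.Bs Λ b F q Q) {v b₀ c : ℝ}
    (hb₀ : 0 < b₀) (hc : b₀ ≤ c) {a s θ : ℂ → ℂ} (ha : AnalyticOnNhd ℂ a (Sr b₀ c))
    (hs : AnalyticOnNhd ℂ s (Sr b₀ c)) (hP : PsC b F q v b₀ c a s θ) {x : ℝ}
    (hg : Gd c a s (x - v)) {U : Set ℂ} (hU : IsOpen U) (hUc : Convex ℝ U)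
    (hseg : segment ℝ (x : ℂ) ((x : ℂ) + c * I) ⊆ U) {MZ MP : ℂ → ℂ} (mZ : MeromorphicOn MZ U)
    (mP : MeromorphicOn MP U)
    (hM : ∀ᶠ t in 𝓝[≠] (x : ℂ), MZ t = exp (I * a t) ∧ MP t = s t) : Gd c a s x := by
  obtain ⟨r, hr, a', s', ha', hs', hg'⟩ := hg
  set τ : ℂ := (x : ℂ) + c * I with hτ
  have hτim : τ.im = c := by simp [hτ]
  have hSo : IsOpen (U ∩ Sr b₀ c) := hU.inter (isOpen_Sr _ _)
  have hSc : Convex ℝ (U ∩ Sr b₀ c) := hUc.inter (convex_Sr _ _)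
  have hxS : (x : ℂ) ∈ U ∩ Sr b₀ c := ⟨hseg (left_mem_segment _ _ _), Sr_of hc (by simpa using hb₀)⟩
  -- step 1
  have aexp : AnalyticOnNhd ℂ (fun t => exp (I * a t)) (Sr b₀ c) := fun t ht =>
    (analyticAt_const.mul (ha t ht)).cexp
  have hrel : ∀ t ∈ U ∩ Sr b₀ c, ∀ᶠ z in 𝓝[≠] t, MZ z = exp (I * a z) ∧ MP z = s z := by
    intro t ht
    have h1 := mer_id hSc.isPreconnected (mZ.mono_set inter_subset_left)
      (fun z hz => (aexp z hz.2).meromorphicAt) hxS (hM.mono fun z hz => hz.1) ht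
    have h2 := mer_id hSc.isPreconnected (mP.mono_set inter_subset_left)
      (fun z hz => (hs z hz.2).meromorphicAt) hxS (hM.mono fun z hz => hz.2) ht
    exact h1.and h2
  -- step 2
  obtain ⟨r₁, hr₁, hr₁U⟩ := Metric.isOpen_iff.1 hU τ (hseg (right_mem_segment _ _ _))
  set r' : ℝ := min r (min r₁ b₀) with hr'
  have hr'0 : 0 < r' := lt_min hr (lt_min hr₁ hb₀)
  have hr'r : r' ≤ r := min_le_left _ _
  have hr'r₁ : r' ≤ r₁ := (min_le_right _ _).trans (min_le_left _ _)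
  have hr'b : r' ≤ b₀ := (min_le_right _ _).trans (min_le_right _ _)
  set B : Set ℂ := ball τ r' with hBdef
  have hBU : B ⊆ U := (ball_subset_ball hr'r₁).trans hr₁U
  have hBS : ∀ t ∈ B, t.im < c → t ∈ Sr b₀ c := by
    intro t ht htc
    refine ⟨?_, htc⟩
    rw [hBdef, mem_ball, dist_eq_norm] at ht
    have h1 := (abs_im_le_norm (t - τ)).trans_lt ht
    rw [sub_im, hτim, abs_lt] at h1
    linarith [h1.1]
  have hsh : ∀ t ∈ B, t - v ∈ ball (((x - v : ℝ) : ℂ) + c * I) r := by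
    intro t ht
    rw [hBdef, mem_ball, dist_eq_norm] at ht
    rw [mem_ball, dist_eq_norm]
    have e : t - (v : ℂ) - (((x - v : ℝ) : ℂ) + c * I) = t - τ := by
      rw [hτ]; push_cast; ring
    rw [e]
    linarith
  have aA : AnalyticOnNhd ℂ (fun t => a' (t - v)) B := fun t ht =>
    ((ha' _ (hsh t ht)).comp_of_eq (f := fun t : ℂ => t - (v : ℂ)) (x := t)
      (analyticAt_id.sub analyticAt_const) rfl)
  have aS : AnalyticOnNhd ℂ (fun t => s' (t - v)) B := fun t ht =>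
    ((hs' _ (hsh t ht)).comp_of_eq (f := fun t : ℂ => t - (v : ℂ)) (x := t)
      (analyticAt_id.sub analyticAt_const) rfl)
  -- step 3
  set t₂ : ℂ := τ - ((r' / 2 : ℝ) : ℂ) * I with ht₂
  have ht₂B : t₂ ∈ B := by
    rw [hBdef, mem_ball, dist_eq_norm, ht₂, sub_sub_cancel_left, norm_neg, norm_mul, norm_I, mul_one,
      norm_real, Real.norm_eq_abs, abs_of_pos (by positivity)]
    linarith
  have ht₂im : t₂.im < c := by
    have : t₂.im = c - r' / 2 := by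
      rw [ht₂, sub_im, hτim]; simp
    rw [this]; linarith
  have hcl : IsOpen {t : ℂ | t.im < c} := isOpen_lt continuous_im continuous_const
  have hev := hrel t₂ ⟨hBU ht₂B, hBS t₂ ht₂B ht₂im⟩
  rw [eventually_nhdsWithin_iff] at hev
  have hev2 : ∀ᶠ z in 𝓝 t₂, (z ∈ ({t₂} : Set ℂ)ᶜ → MZ z = exp (I * a z) ∧ MP z = s z) ∧ z ∈ B ∧
      z.im < c := by
    filter_upwards [hev, isOpen_ball.mem_nhds ht₂B, hcl.mem_nhds ht₂im] with z h1 h2 h3
      using ⟨h1, h2, h3⟩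
  obtain ⟨δ, hδ, hδb⟩ := Metric.eventually_nhds_iff_ball.1 hev2
  set V : Set ℂ := ball t₂ δ ∩ {t₂}ᶜ with hV
  have hVo : IsOpen V := isOpen_ball.inter isOpen_compl_singleton
  have hVB : V ⊆ B := fun z hz => (hδb z hz.1).2.1
  have hVc : ∀ z ∈ V, z.im < c := fun z hz => (hδb z hz.1).2.2
  have hVS : V ⊆ Sr b₀ c := fun z hz => hBS z (hVB hz) (hVc z hz)
  have hVr : ∀ z ∈ V, MZ z = exp (I * a z) ∧ MP z = s z := fun z hz => (hδb z hz.1).1 hz.2
  have hVn : V.Nonempty := by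
    refine ⟨t₂ + ((δ / 2 : ℝ) : ℂ), ?_, ?_⟩
    · rw [mem_ball, dist_eq_norm, add_sub_cancel_left, norm_real, Real.norm_eq_abs,
        abs_of_pos (by positivity)]
      linarith
    · show t₂ + ((δ / 2 : ℝ) : ℂ) ≠ t₂
      intro h
      have h1 : ((δ / 2 : ℝ) : ℂ) = 0 := by linear_combination h
      rw [ofReal_eq_zero] at h1
      linarith
  have hVa : ∀ z ∈ V, a' (z - v) = a (z - v) ∧ s' (z - v) = s (z - v) := fun z hz =>
    hg' (z - v) (hsh z (hVB hz)) (by simpa using hVc z hz)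
  -- step 4
  obtain ⟨t₃, ht₃V, hcos₃, hd₃⟩ := hP.gen hB ha hVo hVn hVS
  have aθ : AnalyticOnNhd ℂ θ (Sr b₀ c) := hP.dθ.analyticOnNhd (isOpen_Sr _ _)
  have acos : AnalyticOnNhd ℂ (fun t => cos (F (θ t) - a (t - v))) (Sr b₀ c) := fun t ht =>
    an_cos1 ((((hB.dF.analyticOnNhd (isOpen_Str b)) _ (hP.mem ht)).comp_of_eq (aθ t ht) rfl).sub
      (an_shift ha v t ht))
  have hnc : ¬ ∀ᶠ t in 𝓝 t₃, θ t = θ t₃ := by
    intro h
    apply hd₃
    have h1 : θ =ᶠ[𝓝 t₃] fun _ => θ t₃ := h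
    rw [h1.deriv_eq, deriv_const]
  have m1 : MeromorphicOn (fun t => MZ t * exp (I * a' (t - v))) B := fun t ht =>
    (mZ t (hBU ht)).mul ((analyticAt_const.mul (aA t ht)).cexp).meromorphicAt
  have m2 : MeromorphicOn (fun t => (MP t + s' (t - v)) / (MZ t + exp (I * a' (t - v)))) B :=
    fun t ht => ((mP t (hBU ht)).add (aS t ht).meromorphicAt).div
      ((mZ t (hBU ht)).add ((analyticAt_const.mul (aA t ht)).cexp).meromorphicAt)
  have hrel3 : ∀ᶠ t in 𝓝 t₃, MZ t * exp (I * a' (t - v)) = exp (2 * I * F (θ t)) ∧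
      (MP t + s' (t - v)) / (MZ t + exp (I * a' (t - v))) = q (θ t) * exp (-I * F (θ t)) := by
    filter_upwards [hVo.mem_nhds ht₃V, (acos t₃ (hVS ht₃V)).continuousAt.eventually_ne hcos₃]
      with t h1 h2
    rw [(hVr t h1).1, (hVr t h1).2, (hVa t h1).1, (hVa t h1).2]
    have h3 := hP.sA t (hVS h1)
    have h4 := hP.sP t (hVS h1)
    have h5 : (a t - a (t - v)) / 2 = F (θ t) - a (t - v) := by linear_combination h3 / 2
    constructor
    · rw [← exp_add]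
      congr 1
      linear_combination I * h3
    · rw [exp_key, h4, h5, h3, show 2 * F (θ t) / 2 = F (θ t) by ring]
      have h6 : exp (-I * F (θ t)) = (exp (I * F (θ t)))⁻¹ := by
        rw [← exp_neg]; congr 1; ring
      rw [h6]
      have h7 := exp_ne_zero (I * F (θ t))
      generalize exp (I * F (θ t)) = E at h7 ⊢
      generalize cos (F (θ t) - a (t - v)) = C at h2 ⊢
      field_simp
  obtain ⟨θ', dθ', mθ', hθ', -⟩ := hL hB isOpen_ball (convex_ball τ r') m1 m2 (hVB ht₃V)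
    (aθ t₃ (hVS ht₃V)) (hP.mem (hVS ht₃V)) hnc hrel3
  have aθ' : AnalyticOnNhd ℂ θ' B := dθ'.analyticOnNhd isOpen_ball
  have aF : AnalyticOnNhd ℂ (fun t => F (θ' t)) B := fun t ht =>
    ((hB.dF.analyticOnNhd (isOpen_Str b)) _ (mθ' ht)).comp_of_eq (aθ' t ht) rfl
  have aq : AnalyticOnNhd ℂ (fun t => q (θ' t)) B := fun t ht =>
    ((hB.dq.analyticOnNhd (isOpen_Str b)) _ (mθ' ht)).comp_of_eq (aθ' t ht) rfl
  have ab : AnalyticOnNhd ℂ (fun t => 2 * F (θ' t) - a' (t - v)) B := fun t ht =>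
    (analyticAt_const.mul (aF t ht)).sub (aA t ht)
  have ap : AnalyticOnNhd ℂ (fun t => 2 * q (θ' t) * cos (F (θ' t) - a' (t - v)) - s' (t - v)) B :=
    fun t ht => ((analyticAt_const.mul (aq t ht)).mul (an_cos1 ((aF t ht).sub (aA t ht)))).sub
      (aS t ht)
  -- step 5
  set L : Set ℂ := B ∩ {t | t.im < c} with hLdef
  have hLc : Convex ℝ L := (convex_ball _ _).inter (convex_halfSpace_im_lt c)
  have ht₃L : t₃ ∈ L := ⟨hVB ht₃V, hVc t₃ ht₃V⟩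
  have hLS : L ⊆ Sr b₀ c := fun t ht => hBS t ht.1 ht.2
  have hLB : L ⊆ B := fun t ht => ht.1
  have k1 : EqOn (fun t => 2 * F (θ' t) - a' (t - v)) a L := by
    refine (ab.mono hLB).eqOn_of_preconnected_of_eventuallyEq (ha.mono hLS) hLc.isPreconnected ht₃L ?_
    filter_upwards [hVo.mem_nhds ht₃V, hθ'] with t h1 h2
    rw [h2, (hVa t h1).1, ← hP.sA t (hVS h1)]
    ring
  have k2 : EqOn (fun t => 2 * q (θ' t) * cos (F (θ' t) - a' (t - v)) - s' (t - v)) s L := by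
    refine (ap.mono hLB).eqOn_of_preconnected_of_eventuallyEq (hs.mono hLS) hLc.isPreconnected ht₃L ?_
    filter_upwards [hVo.mem_nhds ht₃V, hθ'] with t h1 h2
    rw [h2, (hVa t h1).1, (hVa t h1).2, ← hP.sP t (hVS h1)]
    ring
  exact ⟨r', hr'0, _, _, ab, ap, fun t ht htc => ⟨k1 ⟨ht, htc⟩, k2 ⟨ht, htc⟩⟩⟩

end Vale.Agent.P097.H456.C
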